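import Mathlib

/-! Counting pairs of labelled points. -/

namespace Vale.Agent.P171

open Finset

variable {ι κ : Type*} [DecidableEq κ]

/-- number of ordered pairs in `s` with the same label, as a real number -/
noncomputable def Dp (s : Finset ι) (f : ι → κ) : ℝ :=
  ∑ i ∈ s, ∑ j ∈ s, if f i = f j then (1 : ℝ) else 0

theorem Dp_nonneg (s : Finset ι) (f : ι → κ) : 0 ≤ Dp s f :=
  Finset.sum_nonneg fun _ _ => Finset.sum_nonneg fun _ _ => by split_ifs <;> norm_num

theorem card_le_Dp (s : Finset ι) (f : ι → κ) : (s.card : ℝ) ≤ Dp s f := by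
  classical
  unfold Dp
  rw [Finset.card_eq_sum_ones]
  push_cast
  apply Finset.sum_le_sum
  intro i hi
  calc (1 : ℝ) = if f i = f i then (1 : ℝ) else 0 := by simp
    _ ≤ _ := Finset.single_le_sum (f := fun j => if f i = f j then (1 : ℝ) else 0)
        (fun j _ => by split_ifs <;> norm_num) hi

theorem autocorr_le [AddCommGroup κ] (s : Finset ι) (f : ι → κ) (w : κ) :
    (∑ i ∈ s, ∑ j ∈ s, if f j = f i + w then (1 : ℝ) else 0) ≤ Dp s f := by
  classical
  set cnt : κ → ℝ := fun u => ∑ j ∈ s, if f j = u then (1 : ℝ) else 0 with hcnt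
  have hcnt0 : ∀ u, 0 ≤ cnt u := fun u => Finset.sum_nonneg fun _ _ => by split_ifs <;> norm_num
  have hcntout : ∀ u, u ∉ s.image f → cnt u = 0 := by
    intro u hu
    apply Finset.sum_eq_zero
    intro j hj
    rw [if_neg]
    rintro rfl
    exact hu (Finset.mem_image_of_mem f hj)
  have hcard : ∀ u, ((#{a ∈ s | f a = u} : ℕ) : ℝ) = cnt u := by
    intro u
    simp [hcnt, Finset.sum_boole]
  have h1 : (∑ i ∈ s, ∑ j ∈ s, if f j = f i + w then (1 : ℝ) else 0)
      = ∑ u ∈ s.image f, cnt u * cnt (u + w) := by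
    have := Finset.sum_comp (s := s) (fun u => cnt (u + w)) f
    simp only [hcnt] at this ⊢
    rw [this]
    apply Finset.sum_congr rfl
    intro u _
    rw [nsmul_eq_mul, hcard]
  have h2 : Dp s f = ∑ u ∈ s.image f, cnt u * cnt u := by
    have := Finset.sum_comp (s := s) (fun u => cnt u) f
    unfold Dp
    have h3 : (∑ i ∈ s, ∑ j ∈ s, if f i = f j then (1 : ℝ) else 0) = ∑ i ∈ s, cnt (f i) := by
      apply Finset.sum_congr rfl
      intro i _
      apply Finset.sum_congr rfl
      intro j _
      simp only [eq_comm]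
    rw [h3, this]
    apply Finset.sum_congr rfl
    intro u _
    rw [nsmul_eq_mul, hcard]
  rw [h1, h2]
  have h4 : ∑ u ∈ s.image f, cnt (u + w) * cnt (u + w) ≤ ∑ u ∈ s.image f, cnt u * cnt u := by
    have h5 : ∑ u ∈ s.image f, cnt (u + w) * cnt (u + w)
        = ∑ u ∈ (s.image f).image (fun u => u + w), cnt u * cnt u := by
      refine (Finset.sum_image (f := fun u => cnt u * cnt u) (g := fun u => u + w)
        (s := s.image f) ?_).symm
      intro a _ b _ hab
      exact add_right_cancel hab
    rw [h5]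
    calc ∑ u ∈ (s.image f).image (fun u => u + w), cnt u * cnt u
        = ∑ u ∈ (s.image f).image (fun u => u + w) ∩ s.image f, cnt u * cnt u := by
          symm
          apply Finset.sum_subset Finset.inter_subset_left
          intro x hx hx'
          have : x ∉ s.image f := fun h => hx' (Finset.mem_inter.mpr ⟨hx, h⟩)
          rw [hcntout x this]; ring
      _ ≤ ∑ u ∈ s.image f, cnt u * cnt u :=
          Finset.sum_le_sum_of_subset_of_nonneg Finset.inter_subset_right
            (fun u _ _ => mul_nonneg (hcnt0 u) (hcnt0 u))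
  calc ∑ u ∈ s.image f, cnt u * cnt (u + w)
      ≤ ∑ u ∈ s.image f, ((cnt u * cnt u) / 2 + (cnt (u + w) * cnt (u + w)) / 2) := by
        apply Finset.sum_le_sum
        intro u _
        nlinarith [sq_nonneg (cnt u - cnt (u + w))]
    _ = (∑ u ∈ s.image f, cnt u * cnt u) / 2 + (∑ u ∈ s.image f, cnt (u + w) * cnt (u + w)) / 2 := by
        rw [Finset.sum_add_distrib, Finset.sum_div, Finset.sum_div]
    _ ≤ _ := by linarith

/-- If related pairs have label difference in `W`, the number of related pairs is at most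
`|W|` times the number of pairs with equal labels. -/
theorem pairs_le [AddCommGroup κ] (s : Finset ι) (f : ι → κ) (P : ι → ι → Prop)
    [∀ i j, Decidable (P i j)] (W : Finset κ)
    (h : ∀ i ∈ s, ∀ j ∈ s, P i j → f j - f i ∈ W) :
    (∑ i ∈ s, ∑ j ∈ s, if P i j then (1 : ℝ) else 0) ≤ W.card * Dp s f := by
  calc (∑ i ∈ s, ∑ j ∈ s, if P i j then (1 : ℝ) else 0)
      ≤ ∑ i ∈ s, ∑ j ∈ s, ∑ w ∈ W, if f j = f i + w then (1 : ℝ) else 0 := by
        apply Finset.sum_le_sum; intro i hi
        apply Finset.sum_le_sum; intro j hj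
        split_ifs with hP
        · have hw := h i hi j hj hP
          calc (1 : ℝ) = if f j = f i + (f j - f i) then (1 : ℝ) else 0 := by simp
            _ ≤ _ := Finset.single_le_sum (f := fun w => if f j = f i + w then (1 : ℝ) else 0)
                (fun w _ => by split_ifs <;> norm_num) hw
        · exact Finset.sum_nonneg fun w _ => by split_ifs <;> norm_num
    _ = ∑ w ∈ W, ∑ i ∈ s, ∑ j ∈ s, if f j = f i + w then (1 : ℝ) else 0 := by
        rw [Finset.sum_comm (s := W) (t := s)]
        apply Finset.sum_congr rfl; intro i _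
        rw [Finset.sum_comm]
    _ ≤ ∑ w ∈ W, Dp s f := Finset.sum_le_sum fun w _ => autocorr_le s f w
    _ = W.card * Dp s f := by rw [Finset.sum_const, nsmul_eq_mul]

end Vale.Agent.P171
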