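import Mathlib

/-! Grand-canonical configuration integrals over an abstract measure space. -/

namespace Vale.Agent.P171

open MeasureTheory Set Filter Topology
open scoped ENNReal NNReal Nat

variable {E : Type*} [MeasureSpace E] [SigmaFinite (volume : Measure E)]

section T

/-- grand-canonical integral `∑_N (1/N!) ∫ F_N` -/
noncomputable def T (F : ∀ N : ℕ, (Fin N → E) → ℝ≥0∞) : ℝ≥0∞ :=
  ∑' N : ℕ, ((N ! : ℕ) : ℝ≥0∞)⁻¹ * ∫⁻ x : Fin N → E, F N x

omit [SigmaFinite (volume : Measure E)] in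
theorem T_mono_ae {F G : ∀ N : ℕ, (Fin N → E) → ℝ≥0∞}
    (h : ∀ N, ∀ᵐ x : Fin N → E, F N x ≤ G N x) : T F ≤ T G :=
  ENNReal.tsum_le_tsum fun N => mul_le_mul_right (lintegral_mono_ae (h N)) _

omit [SigmaFinite (volume : Measure E)] in
theorem T_mono {F G : ∀ N : ℕ, (Fin N → E) → ℝ≥0∞}
    (h : ∀ N x, F N x ≤ G N x) : T F ≤ T G :=
  T_mono_ae fun N => Eventually.of_forall (h N)

omit [SigmaFinite (volume : Measure E)] in
theorem T_holder {F G : ∀ N : ℕ, (Fin N → E) → ℝ≥0∞} (hF : ∀ N, Measurable (F N))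
    (hG : ∀ N, Measurable (G N)) {p q : ℝ} (hp : 0 ≤ p) (hq : 0 ≤ q) (hpq : p + q = 1) :
    T (fun N x => F N x ^ p * G N x ^ q) ≤ T F ^ p * T G ^ q := by
  unfold T
  have h1 : ∀ N : ℕ, ((N ! : ℕ) : ℝ≥0∞)⁻¹ * ∫⁻ x : Fin N → E, F N x ^ p * G N x ^ q
      ≤ (((N ! : ℕ) : ℝ≥0∞)⁻¹ * ∫⁻ x : Fin N → E, F N x) ^ p *
        (((N ! : ℕ) : ℝ≥0∞)⁻¹ * ∫⁻ x : Fin N → E, G N x) ^ q := by
    intro N
    have h2 := ENNReal.lintegral_mul_norm_pow_le (μ := (volume : Measure (Fin N → E)))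
      (hF N).aemeasurable (hG N).aemeasurable hp hq hpq
    rw [ENNReal.mul_rpow_of_nonneg _ _ hp, ENNReal.mul_rpow_of_nonneg _ _ hq]
    have hc0 : ((N ! : ℕ) : ℝ≥0∞)⁻¹ ≠ 0 := by
      simp
    have hct : ((N ! : ℕ) : ℝ≥0∞)⁻¹ ≠ ⊤ := by
      simp [Nat.factorial_ne_zero]
    have h3 : ((N ! : ℕ) : ℝ≥0∞)⁻¹ ^ p * ((N ! : ℕ) : ℝ≥0∞)⁻¹ ^ q = ((N ! : ℕ) : ℝ≥0∞)⁻¹ := by
      rw [← ENNReal.rpow_add _ _ hc0 hct, hpq, ENNReal.rpow_one]
    calc ((N ! : ℕ) : ℝ≥0∞)⁻¹ * ∫⁻ x : Fin N → E, F N x ^ p * G N x ^ q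
        ≤ ((N ! : ℕ) : ℝ≥0∞)⁻¹ *
          ((∫⁻ x : Fin N → E, F N x) ^ p * (∫⁻ x : Fin N → E, G N x) ^ q) := by gcongr
      _ = _ := by
        nth_rewrite 1 [← h3]
        ring
  refine (ENNReal.tsum_le_tsum h1).trans ?_
  have := ENNReal.lintegral_mul_norm_pow_le (μ := (Measure.count : Measure ℕ))
    (f := fun N => ((N ! : ℕ) : ℝ≥0∞)⁻¹ * ∫⁻ x : Fin N → E, F N x)
    (g := fun N => ((N ! : ℕ) : ℝ≥0∞)⁻¹ * ∫⁻ x : Fin N → E, G N x)
    (measurable_of_countable _).aemeasurable (measurable_of_countable _).aemeasurable hp hq hpq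
  simpa only [lintegral_count] using this

theorem lintegral_fin_prod (N : ℕ) (g : E → ℝ≥0∞) (hg : Measurable g) :
    ∫⁻ x : Fin N → E, ∏ i, g (x i) = (∫⁻ x, g x) ^ N := by
  induction N with
  | zero => simp [volume_pi]
  | succ n ih =>
    have := ((volume_preserving_piFinSuccAbove (fun _ : Fin (n + 1) => E) 0).symm)
    rw [← this.lintegral_comp_emb (MeasurableEquiv.measurableEmbedding _)]
    simp_rw [MeasurableEquiv.piFinSuccAbove_symm_apply, Fin.insertNthEquiv,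
        Fin.prod_univ_succ, Fin.insertNth_zero]
    simp only [Equiv.coe_fn_mk, Fin.cons_zero, Fin.cons_succ]
    have h2 : Measurable fun y : Fin n → E => ∏ i, g (y i) := by fun_prop
    have h3 := lintegral_prod_mul (μ := (volume : Measure E))
      (ν := (volume : Measure (Fin n → E))) hg.aemeasurable h2.aemeasurable
    rw [ih] at h3
    rw [pow_succ, mul_comm, ← h3]
    rfl

theorem T_onebody (g : E → ℝ≥0∞) (hg : Measurable g) (hfin : ∫⁻ x, g x ≠ ⊤) :
    T (fun _ x => ∏ i, g (x i)) = ENNReal.ofReal (Real.exp (∫⁻ x, g x).toReal) := by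
  unfold T
  simp_rw [lintegral_fin_prod _ g hg]
  set c := (∫⁻ x, g x).toReal with hc
  have hc' : ∫⁻ x, g x = ENNReal.ofReal c := (ENNReal.ofReal_toReal hfin).symm
  have hc0 : 0 ≤ c := ENNReal.toReal_nonneg
  rw [hc']
  have h1 : ∀ N : ℕ, ((N ! : ℕ) : ℝ≥0∞)⁻¹ * ENNReal.ofReal c ^ N =
      ENNReal.ofReal (c ^ N / (N ! : ℝ)) := by
    intro N
    rw [ENNReal.ofReal_div_of_pos (by positivity), ENNReal.ofReal_pow hc0, ENNReal.ofReal_natCast,
      div_eq_mul_inv, mul_comm]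
  simp_rw [h1]
  rw [← ENNReal.ofReal_tsum_of_nonneg (fun n => by positivity)
    (Real.summable_pow_div_factorial c)]
  congr 1
  rw [Real.exp_eq_exp_ℝ, NormedSpace.exp_eq_tsum_div]

end T

section pairs

variable {ι : Type*} [Fintype ι] [DecidableEq ι]

/-- interaction energy `½ ∑_{i≠j} v(x_i,x_j)` -/
noncomputable def pE (v : E → E → ℝ) (x : ι → E) : ℝ :=
  (1 / 2) * ∑ i, ∑ j, if i = j then 0 else v (x i) (x j)

/-- Boltzmann integrand -/
noncomputable def W (g : E → ℝ≥0∞) (v : E → E → ℝ) (x : ι → E) : ℝ≥0∞ :=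
  (∏ i, g (x i)) * ENNReal.ofReal (Real.exp (-(pE v x)))

omit [SigmaFinite (volume : Measure E)] in
theorem measurable_pE {v : E → E → ℝ} (hv : Measurable (Function.uncurry v)) :
    Measurable (fun x : ι → E => pE v x) := by
  unfold pE
  refine Measurable.const_mul ?_ _
  refine Finset.measurable_sum _ fun i _ => ?_
  refine Finset.measurable_sum _ fun j _ => ?_
  split_ifs
  · exact measurable_const
  · exact hv.comp (by fun_prop : Measurable fun x : ι → E => (x i, x j))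

omit [SigmaFinite (volume : Measure E)] in
theorem measurable_W {g : E → ℝ≥0∞} (hg : Measurable g) {v : E → E → ℝ}
    (hv : Measurable (Function.uncurry v)) :
    Measurable (fun x : ι → E => W g v x) := by
  unfold W
  have := measurable_pE (ι := ι) hv
  fun_prop

/-- partition integral over configurations indexed by `ι` -/
noncomputable def J (ι : Type*) [Fintype ι] [DecidableEq ι] (g : E → ℝ≥0∞) (v : E → E → ℝ) :
    ℝ≥0∞ := ∫⁻ x : ι → E, W g v x

/-- grand partition function with activity field `g` and pair interaction `v` -/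
noncomputable def Xi (g : E → ℝ≥0∞) (v : E → E → ℝ) : ℝ≥0∞ :=
  T (fun _ x => W g v x)

theorem J_congr {ι' : Type*} [Fintype ι'] [DecidableEq ι'] (e : ι ≃ ι') (g : E → ℝ≥0∞)
    (v : E → E → ℝ) : J ι g v = J ι' g v := by
  unfold J
  rw [← (volume_measurePreserving_piCongrLeft (fun _ : ι' => E) e).lintegral_comp_emb
    (MeasurableEquiv.measurableEmbedding _)]
  congr 1
  ext x
  have hx : ∀ i, (MeasurableEquiv.piCongrLeft (fun _ : ι' => E) e) x (e i) = x i :=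
    fun i => MeasurableEquiv.piCongrLeft_apply_apply (β := fun _ => E) e x i
  unfold W pE
  congr 1
  · rw [← e.prod_comp]
    simp_rw [hx]
  · congr 3
    rw [← e.sum_comp]
    congr 1
    apply Finset.sum_congr rfl; intro i _
    rw [← e.sum_comp]
    apply Finset.sum_congr rfl; intro j _
    rw [hx, hx]
    simp

omit [MeasureSpace E] [SigmaFinite (volume : Measure E)] in
theorem pE_split (v : E → E → ℝ) (p : ι → Prop) [DecidablePred p] (x : ι → E) :
    pE v x = pE v (fun i : {i // p i} => x i) + pE v (fun i : {i // ¬ p i} => x i)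
      + (1 / 2) * ∑ i : {i // p i}, ∑ j : {j // ¬ p j}, (v (x i) (x j) + v (x j) (x i)) := by
  unfold pE
  rw [← Fintype.sum_subtype_add_sum_subtype p]
  simp_rw [← Fintype.sum_subtype_add_sum_subtype p (fun j => if _ = j then (0 : ℝ) else _)]
  simp_rw [Finset.sum_add_distrib]
  have h1 : ∀ (i : {i // p i}) (j : {j // ¬ p j}), (i : ι) ≠ j := by
    rintro ⟨i, hi⟩ ⟨j, hj⟩ h
    exact hj ((show i = j from h) ▸ hi)
  have h2 : ∀ (i : {i // ¬ p i}) (j : {j // p j}), (i : ι) ≠ j := fun i j => (h1 j i).symm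
  simp only [h1, h2, if_false, Subtype.coe_inj]
  rw [Finset.sum_comm (s := (Finset.univ : Finset {i // ¬ p i}))
    (t := (Finset.univ : Finset {i // p i}))]
  ring

theorem mix_aux (p : ι → Prop) [DecidablePred p] {g₁ g₂ : E → ℝ≥0∞} (hg₁ : Measurable g₁)
    (hg₂ : Measurable g₂) {v : E → E → ℝ} (hv : Measurable (Function.uncurry v)) :
    J {i // p i} g₁ v * J {i // ¬ p i} g₂ v =
    ∫⁻ x : ι → E, W g₁ v (fun i : {i // p i} => x i) * W g₂ v (fun i : {i // ¬ p i} => x i) := by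
  unfold J
  rw [← lintegral_prod_mul (measurable_W hg₁ hv).aemeasurable (measurable_W hg₂ hv).aemeasurable]
  rw [← Measure.volume_eq_prod]
  rw [← (volume_preserving_piEquivPiSubtypeProd (fun _ : ι => E) p).lintegral_comp_emb
    (MeasurableEquiv.measurableEmbedding _)]
  rfl

omit [MeasureSpace E] [SigmaFinite (volume : Measure E)] in
theorem W_mix_eq (p : ι → Prop) [DecidablePred p] (g₁ g₂ : E → ℝ≥0∞) (v : E → E → ℝ)
    (x : ι → E) :
    (∏ i, if p i then g₁ (x i) else g₂ (x i)) * ENNReal.ofReal (Real.exp (-(pE v x))) =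
    (∏ i : {i // p i}, g₁ (x i)) * (∏ i : {i // ¬ p i}, g₂ (x i)) *
      ENNReal.ofReal (Real.exp (-(pE v x))) := by
  congr 1
  rw [← Fintype.prod_subtype_mul_prod_subtype p]
  congr 1
  · apply Finset.prod_congr rfl
    rintro ⟨i, hi⟩ _
    simp [hi]
  · apply Finset.prod_congr rfl
    rintro ⟨i, hi⟩ _
    simp [hi]

theorem mix_le (p : ι → Prop) [DecidablePred p] {g₁ g₂ : E → ℝ≥0∞} (hg₁ : Measurable g₁)
    (hg₂ : Measurable g₂) {v : E → E → ℝ} (hv : Measurable (Function.uncurry v))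
    (h : ∀ a b, g₁ a ≠ 0 → g₂ b ≠ 0 → 0 ≤ v a b ∧ 0 ≤ v b a) :
    (∫⁻ x : ι → E, (∏ i, if p i then g₁ (x i) else g₂ (x i)) *
      ENNReal.ofReal (Real.exp (-(pE v x)))) ≤ J {i // p i} g₁ v * J {i // ¬ p i} g₂ v := by
  rw [mix_aux p hg₁ hg₂ hv]
  apply lintegral_mono
  intro x
  simp only
  rw [W_mix_eq]
  unfold W
  by_cases h0 : (∏ i : {i // p i}, g₁ (x i)) * (∏ i : {i // ¬ p i}, g₂ (x i)) = 0
  · rw [h0, zero_mul]; exact zero_le
  have h1 := left_ne_zero_of_mul h0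
  have h2 := right_ne_zero_of_mul h0
  rw [Finset.prod_ne_zero_iff] at h1 h2
  have hE : pE v (fun i : {i // p i} => x i) + pE v (fun i : {i // ¬ p i} => x i) ≤ pE v x := by
    rw [pE_split v p x]
    have : 0 ≤ ∑ i : {i // p i}, ∑ j : {j // ¬ p j}, (v (x i) (x j) + v (x j) (x i)) := by
      apply Finset.sum_nonneg; intro i _
      apply Finset.sum_nonneg; intro j _
      obtain ⟨ha, hb⟩ := h (x i) (x j) (h1 i (Finset.mem_univ _)) (h2 j (Finset.mem_univ _))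
      linarith
    linarith
  calc _ ≤ (∏ i : {i // p i}, g₁ (x i)) * (∏ i : {i // ¬ p i}, g₂ (x i)) *
      ENNReal.ofReal (Real.exp (-(pE v (fun i : {i // p i} => x i))) *
        Real.exp (-(pE v (fun i : {i // ¬ p i} => x i)))) := by
        rw [← Real.exp_add]
        gcongr
        linarith
    _ = _ := by
      rw [ENNReal.ofReal_mul (Real.exp_pos _).le]
      ring

theorem mix_ge (p : ι → Prop) [DecidablePred p] {g₁ g₂ : E → ℝ≥0∞} (hg₁ : Measurable g₁)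
    (hg₂ : Measurable g₂) {v : E → E → ℝ} (hv : Measurable (Function.uncurry v))
    (h : ∀ a b, g₁ a ≠ 0 → g₂ b ≠ 0 → v a b ≤ 0 ∧ v b a ≤ 0) :
    J {i // p i} g₁ v * J {i // ¬ p i} g₂ v ≤
    (∫⁻ x : ι → E, (∏ i, if p i then g₁ (x i) else g₂ (x i)) *
      ENNReal.ofReal (Real.exp (-(pE v x)))) := by
  rw [mix_aux p hg₁ hg₂ hv]
  apply lintegral_mono
  intro x
  simp only
  rw [W_mix_eq]
  unfold W
  by_cases h0 : (∏ i : {i // p i}, g₁ (x i)) * (∏ i : {i // ¬ p i}, g₂ (x i)) = 0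
  · rw [h0, zero_mul]
    rcases mul_eq_zero.mp h0 with h0 | h0 <;> rw [h0] <;> simp
  have h1 := left_ne_zero_of_mul h0
  have h2 := right_ne_zero_of_mul h0
  rw [Finset.prod_ne_zero_iff] at h1 h2
  have hE : pE v x ≤ pE v (fun i : {i // p i} => x i) + pE v (fun i : {i // ¬ p i} => x i) := by
    rw [pE_split v p x]
    have : ∑ i : {i // p i}, ∑ j : {j // ¬ p j}, (v (x i) (x j) + v (x j) (x i)) ≤ 0 := by
      apply Finset.sum_nonpos; intro i _
      apply Finset.sum_nonpos; intro j _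
      obtain ⟨ha, hb⟩ := h (x i) (x j) (h1 i (Finset.mem_univ _)) (h2 j (Finset.mem_univ _))
      linarith
    linarith
  calc _ = (∏ i : {i // p i}, g₁ (x i)) * (∏ i : {i // ¬ p i}, g₂ (x i)) *
      ENNReal.ofReal (Real.exp (-(pE v (fun i : {i // p i} => x i))) *
        Real.exp (-(pE v (fun i : {i // ¬ p i} => x i)))) := by
        rw [ENNReal.ofReal_mul (Real.exp_pos _).le]
        ring
    _ ≤ _ := by
        rw [← Real.exp_add]
        gcongr
        linarith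

end pairs

section factor

theorem ennreal_cauchy (a b : ℕ → ℝ≥0∞) :
    (∑' n, a n) * (∑' n, b n) = ∑' N, ∑ k ∈ Finset.range (N + 1), a k * b (N - k) := by
  have h1 : (∑' n, a n) * (∑' n, b n) = ∑' p : ℕ × ℕ, a p.1 * b p.2 := by
    rw [ENNReal.tsum_prod' , ← ENNReal.tsum_mul_right]
    congr 1
    ext n
    rw [← ENNReal.tsum_mul_left]
  rw [h1, ← (Finset.HasAntidiagonal.sigmaAntidiagonalEquivProd).tsum_eq
    (fun p : ℕ × ℕ => a p.1 * b p.2), ENNReal.tsum_sigma']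
  congr 1
  ext N
  rw [tsum_fintype]
  rw [← Finset.Nat.sum_antidiagonal_eq_sum_range_succ (fun k l => a k * b l)]
  exact Finset.sum_coe_sort (Finset.HasAntidiagonal.antidiagonal N) (fun ij => a ij.1 * b ij.2)

omit [SigmaFinite (volume : Measure E)] in
theorem sum_expand {g₁ g₂ : E → ℝ≥0∞} (hg₁ : Measurable g₁)
    (hg₂ : Measurable g₂) {v : E → E → ℝ} (hv : Measurable (Function.uncurry v)) (N : ℕ) :
    (∫⁻ x : Fin N → E, W (fun y => g₁ y + g₂ y) v x) =
      ∑ t : Finset (Fin N), ∫⁻ x : Fin N → E, (∏ i, if i ∈ t then g₁ (x i) else g₂ (x i)) *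
      ENNReal.ofReal (Real.exp (-(pE v x))) := by
  rw [← lintegral_finsetSum]
  · congr 1
    ext x
    unfold W
    rw [← Finset.sum_mul]
    congr 1
    rw [Fintype.prod_add]
    apply Finset.sum_congr rfl
    intro t _
    rw [← Finset.prod_mul_prod_compl t]
    congr 1
    · apply Finset.prod_congr rfl
      intro i hi
      rw [if_pos hi]
    · apply Finset.prod_congr rfl
      intro i hi
      rw [if_neg (Finset.mem_compl.mp hi)]
  · intro t _
    have := measurable_pE (ι := Fin N) hv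
    refine Measurable.mul ?_ (by fun_prop)
    refine Finset.measurable_prod _ fun i _ => ?_
    split_ifs <;> fun_prop

theorem factor_sum (N : ℕ) (a b : ℕ → ℝ≥0∞) :
    ((N ! : ℕ) : ℝ≥0∞)⁻¹ * ∑ t : Finset (Fin N), a t.card * b (N - t.card) =
    ∑ k ∈ Finset.range (N + 1), (((k ! : ℕ) : ℝ≥0∞)⁻¹ * a k) *
      ((((N - k) ! : ℕ) : ℝ≥0∞)⁻¹ * b (N - k)) := by
  have h1 := Finset.sum_powerset_apply_card (fun k => a k * b (N - k)) (x := (Finset.univ : Finset (Fin N)))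
  simp only [Finset.powerset_univ, Finset.card_univ, Fintype.card_fin] at h1
  rw [h1, Finset.mul_sum]
  apply Finset.sum_congr rfl
  intro k hk
  have hk' : k ≤ N := Nat.lt_succ_iff.mp (Finset.mem_range.mp hk)
  have h2 : (N.choose k * k ! * (N - k)! : ℕ) = N ! := Nat.choose_mul_factorial_mul_factorial hk'
  have h3 : ((N.choose k : ℕ) : ℝ≥0∞) * (k ! : ℕ) * ((N - k)! : ℕ) = (N ! : ℕ) := by
    exact_mod_cast h2
  have hk0 : ((k ! : ℕ) : ℝ≥0∞) ≠ 0 := by exact_mod_cast Nat.factorial_ne_zero k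
  have hl0 : (((N - k)! : ℕ) : ℝ≥0∞) ≠ 0 := by exact_mod_cast Nat.factorial_ne_zero (N - k)
  have hN0 : ((N ! : ℕ) : ℝ≥0∞) ≠ 0 := by exact_mod_cast Nat.factorial_ne_zero N
  have hkt : ((k ! : ℕ) : ℝ≥0∞) ≠ ⊤ := ENNReal.natCast_ne_top _
  have hlt : (((N - k)! : ℕ) : ℝ≥0∞) ≠ ⊤ := ENNReal.natCast_ne_top _
  have hNt : ((N ! : ℕ) : ℝ≥0∞) ≠ ⊤ := ENNReal.natCast_ne_top _
  have h4 : ((N ! : ℕ) : ℝ≥0∞)⁻¹ * (N.choose k : ℕ) =
      ((k ! : ℕ) : ℝ≥0∞)⁻¹ * (((N - k) ! : ℕ) : ℝ≥0∞)⁻¹ := by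
    rw [← ENNReal.mul_inv (Or.inl hk0) (Or.inl hkt)]
    rw [← h3]
    rw [mul_assoc, ENNReal.mul_inv]
    · rw [mul_comm, ← mul_assoc, ENNReal.mul_inv_cancel, one_mul]
      · intro h0
        rw [h0] at h3
        simp at h3
        exact hN0 (by rw [← h3])
      · exact ENNReal.natCast_ne_top _
    · right; exact ENNReal.mul_ne_top hkt hlt
    · left; exact ENNReal.natCast_ne_top _
  rw [nsmul_eq_mul, ← mul_assoc, h4]
  ring

theorem Xi_add_le {g₁ g₂ : E → ℝ≥0∞} (hg₁ : Measurable g₁)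
    (hg₂ : Measurable g₂) {v : E → E → ℝ} (hv : Measurable (Function.uncurry v))
    (h : ∀ a b, g₁ a ≠ 0 → g₂ b ≠ 0 → 0 ≤ v a b ∧ 0 ≤ v b a) :
    Xi (fun y => g₁ y + g₂ y) v ≤ Xi g₁ v * Xi g₂ v := by
  unfold Xi T
  rw [ennreal_cauchy]
  apply ENNReal.tsum_le_tsum
  intro N
  rw [sum_expand hg₁ hg₂ hv]
  have := factor_sum N (fun k => J (Fin k) g₁ v) (fun k => J (Fin k) g₂ v)
  unfold J at this
  rw [← this]
  gcongr with t _
  have e1 : ∀ (i1 : Fintype {i // i ∈ t}) (d1 : DecidableEq {i // i ∈ t}),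
      @J E _ {i // i ∈ t} i1 d1 g₁ v = J (Fin t.card) g₁ v := fun i1 d1 =>
    J_congr (Fintype.equivFinOfCardEq (by rw [Fintype.card_of_subtype t (fun _ => Iff.rfl)])) g₁ v
  have e2 : ∀ (i1 : Fintype {i // ¬ i ∈ t}) (d1 : DecidableEq {i // ¬ i ∈ t}),
      @J E _ {i // ¬ i ∈ t} i1 d1 g₂ v = J (Fin (N - t.card)) g₂ v := fun i1 d1 =>
    J_congr (Fintype.equivFinOfCardEq (by
      rw [Fintype.card_of_subtype tᶜ (fun _ => Finset.mem_compl), Finset.card_compl,
        Fintype.card_fin])) g₂ v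
  refine (mix_le (fun i => i ∈ t) hg₁ hg₂ hv h).trans (le_of_eq ?_)
  rw [e1, e2]
  rfl

theorem Xi_add_ge {g₁ g₂ : E → ℝ≥0∞} (hg₁ : Measurable g₁)
    (hg₂ : Measurable g₂) {v : E → E → ℝ} (hv : Measurable (Function.uncurry v))
    (h : ∀ a b, g₁ a ≠ 0 → g₂ b ≠ 0 → v a b ≤ 0 ∧ v b a ≤ 0) :
    Xi g₁ v * Xi g₂ v ≤ Xi (fun y => g₁ y + g₂ y) v := by
  unfold Xi T
  rw [ennreal_cauchy]
  apply ENNReal.tsum_le_tsum
  intro N
  rw [sum_expand hg₁ hg₂ hv]
  have := factor_sum N (fun k => J (Fin k) g₁ v) (fun k => J (Fin k) g₂ v)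
  unfold J at this
  rw [← this]
  gcongr with t _
  have e1 : ∀ (i1 : Fintype {i // i ∈ t}) (d1 : DecidableEq {i // i ∈ t}),
      @J E _ {i // i ∈ t} i1 d1 g₁ v = J (Fin t.card) g₁ v := fun i1 d1 =>
    J_congr (Fintype.equivFinOfCardEq (by rw [Fintype.card_of_subtype t (fun _ => Iff.rfl)])) g₁ v
  have e2 : ∀ (i1 : Fintype {i // ¬ i ∈ t}) (d1 : DecidableEq {i // ¬ i ∈ t}),
      @J E _ {i // ¬ i ∈ t} i1 d1 g₂ v = J (Fin (N - t.card)) g₂ v := fun i1 d1 =>
    J_congr (Fintype.equivFinOfCardEq (by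
      rw [Fintype.card_of_subtype tᶜ (fun _ => Finset.mem_compl), Finset.card_compl,
        Fintype.card_fin])) g₂ v
  refine le_trans (le_of_eq ?_) (mix_ge (fun i => i ∈ t) hg₁ hg₂ hv h)
  rw [e1, e2]
  rfl

omit [SigmaFinite (volume : Measure E)] in
theorem Xi_zero (v : E → E → ℝ) : Xi (fun _ : E => 0) v = 1 := by
  unfold Xi T
  rw [tsum_eq_single 0]
  · unfold W pE
    simp [volume_pi]
  · intro N hN
    have : ∀ x : Fin N → E, W (fun _ : E => 0) v x = 0 := by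
      intro x
      unfold W
      simp [hN]
    simp [this]

theorem Xi_sum_le {κ : Type*} [DecidableEq κ] (F : Finset κ) (g : κ → E → ℝ≥0∞)
    (hg : ∀ i, Measurable (g i)) {v : E → E → ℝ} (hv : Measurable (Function.uncurry v))
    (h : ∀ i ∈ F, ∀ j ∈ F, i ≠ j → ∀ a b, g i a ≠ 0 → g j b ≠ 0 → 0 ≤ v a b) :
    Xi (fun y => ∑ i ∈ F, g i y) v ≤ ∏ i ∈ F, Xi (g i) v := by
  induction F using Finset.induction_on with
  | empty => simp [Xi_zero]
  | insert i₀ F hi₀ ih =>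
    simp_rw [Finset.sum_insert hi₀]
    rw [Finset.prod_insert hi₀]
    refine (Xi_add_le (hg i₀) (Finset.measurable_sum _ fun i _ => hg i) hv ?_).trans ?_
    · intro a b ha hb
      obtain ⟨j, hj, hjb⟩ := Finset.exists_ne_zero_of_sum_ne_zero hb
      have hne : i₀ ≠ j := by rintro rfl; exact hi₀ hj
      exact ⟨h i₀ (Finset.mem_insert_self _ _) j (Finset.mem_insert_of_mem hj) hne a b ha hjb,
        h j (Finset.mem_insert_of_mem hj) i₀ (Finset.mem_insert_self _ _) hne.symm b a hjb ha⟩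
    · gcongr
      exact ih fun i hi j hj => h i (Finset.mem_insert_of_mem hi) j (Finset.mem_insert_of_mem hj)

theorem Xi_sum_ge {κ : Type*} [DecidableEq κ] (F : Finset κ) (g : κ → E → ℝ≥0∞)
    (hg : ∀ i, Measurable (g i)) {v : E → E → ℝ} (hv : Measurable (Function.uncurry v))
    (h : ∀ i ∈ F, ∀ j ∈ F, i ≠ j → ∀ a b, g i a ≠ 0 → g j b ≠ 0 → v a b ≤ 0) :
    ∏ i ∈ F, Xi (g i) v ≤ Xi (fun y => ∑ i ∈ F, g i y) v := by
  induction F using Finset.induction_on with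
  | empty => simp [Xi_zero]
  | insert i₀ F hi₀ ih =>
    simp_rw [Finset.sum_insert hi₀]
    rw [Finset.prod_insert hi₀]
    refine le_trans ?_ (Xi_add_ge (hg i₀) (Finset.measurable_sum _ fun i _ => hg i) hv ?_)
    · gcongr
      exact ih fun i hi j hj => h i (Finset.mem_insert_of_mem hi) j (Finset.mem_insert_of_mem hj)
    · intro a b ha hb
      obtain ⟨j, hj, hjb⟩ := Finset.exists_ne_zero_of_sum_ne_zero hb
      have hne : i₀ ≠ j := by rintro rfl; exact hi₀ hj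
      exact ⟨h i₀ (Finset.mem_insert_self _ _) j (Finset.mem_insert_of_mem hj) hne a b ha hjb,
        h j (Finset.mem_insert_of_mem hj) i₀ (Finset.mem_insert_self _ _) hne.symm b a hjb ha⟩

omit [SigmaFinite (volume : Measure E)] in
theorem Xi_mono_g {g₁ g₂ : E → ℝ≥0∞} (v : E → E → ℝ) (h : ∀ a, g₁ a ≤ g₂ a) :
    Xi g₁ v ≤ Xi g₂ v := by
  apply T_mono
  intro N x
  unfold W
  gcongr with i _
  exact h _

end factor

end Vale.Agent.P171
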