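import Mathlib

/-! Ekeland's variational principle (weak form) on complete metric spaces. -/

namespace Vale.Agent.P171

open Filter Topology Set

theorem ekeland {X : Type*} [MetricSpace X] [CompleteSpace X] (G : X → ℝ)
    (hG : LowerSemicontinuous G) (m : ℝ) (hm : ∀ x, m ≤ G x) {ε : ℝ} (hε : 0 < ε) (x0 : X) :
    ∃ x, ∀ y, G x ≤ G y + ε * dist x y := by
  classical
  let S : X → Set X := fun x => {y | G y + ε * dist x y ≤ G x}
  have hself : ∀ x, x ∈ S x := fun x => by simp [S]
  have hbdd : ∀ x, BddBelow (G '' S x) := fun x => ⟨m, by rintro _ ⟨y, _, rfl⟩; exact hm y⟩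
  have hne : ∀ x, (G '' S x).Nonempty := fun x => ⟨G x, x, hself x, rfl⟩
  have hnext : ∀ (x : X) (n : ℕ), ∃ y ∈ S x, G y < sInf (G '' S x) + (1 / 2 : ℝ) ^ n := by
    intro x n
    have h : sInf (G '' S x) < sInf (G '' S x) + (1 / 2 : ℝ) ^ n := by
      have : (0 : ℝ) < (1 / 2 : ℝ) ^ n := by positivity
      linarith
    obtain ⟨_, ⟨y, hy, rfl⟩, hlt⟩ := exists_lt_of_csInf_lt (hne x) h
    exact ⟨y, hy, hlt⟩
  choose nx hnx1 hnx2 using hnext
  let u : ℕ → X := fun n => Nat.rec x0 (fun k x => nx x k) n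
  have hu : ∀ n, u (n + 1) = nx (u n) n := fun n => rfl
  have htrans : ∀ x y, y ∈ S x → S y ⊆ S x := by
    intro x y hy z hz
    have h1 : G y + ε * dist x y ≤ G x := hy
    have h2 : G z + ε * dist y z ≤ G y := hz
    have h3 : dist x z ≤ dist x y + dist y z := dist_triangle x y z
    show G z + ε * dist x z ≤ G x
    nlinarith
  have hstep : ∀ n, u (n + 1) ∈ S (u n) := fun n => by rw [hu]; exact hnx1 _ _
  have hmono : ∀ n k, S (u (n + k)) ⊆ S (u n) := by
    intro n k
    induction k with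
    | zero => exact subset_rfl
    | succ k ih => exact (htrans _ _ (hstep (n + k))).trans ih
  have hsmall : ∀ n, ∀ y ∈ S (u (n + 1)), dist (u (n + 1)) y ≤ (1 / 2 : ℝ) ^ n / ε := by
    intro n y hy
    have h1 : G y + ε * dist (u (n + 1)) y ≤ G (u (n + 1)) := hy
    have h2 : G (u (n + 1)) < sInf (G '' S (u n)) + (1 / 2 : ℝ) ^ n := by
      rw [hu]; exact hnx2 _ _
    have h3 : sInf (G '' S (u n)) ≤ G y := csInf_le (hbdd _) ⟨y, hmono n 1 hy, rfl⟩
    rw [le_div_iff₀ hε]
    nlinarith
  have hmem : ∀ n k, u (n + k) ∈ S (u n) := fun n k => hmono n k (hself _)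
  have hlim0 : Tendsto (fun n : ℕ => (1 / 2 : ℝ) ^ n / ε) atTop (𝓝 0) := by
    have := (tendsto_pow_atTop_nhds_zero_of_lt_one (r := (1 / 2 : ℝ)) (by norm_num)
      (by norm_num)).div_const ε
    simpa using this
  have hcauchy : CauchySeq (fun n => u (n + 1)) := by
    apply cauchySeq_of_le_tendsto_0' (fun n : ℕ => (1 / 2 : ℝ) ^ n / ε) _ hlim0
    intro n k hnk
    obtain ⟨j, rfl⟩ := Nat.exists_eq_add_of_le hnk
    have : u (n + j + 1) ∈ S (u (n + 1)) := by
      have := hmem (n + 1) j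
      rwa [show n + 1 + j = n + j + 1 by ring] at this
    exact hsmall n _ this
  obtain ⟨x, hx⟩ := cauchySeq_tendsto_of_complete hcauchy
  have hclosed : ∀ z, IsClosed (S z) := by
    intro z
    have h1 : LowerSemicontinuous (fun y => G y + ε * dist z y) :=
      hG.add (Continuous.lowerSemicontinuous (by fun_prop))
    exact h1.isClosed_preimage (G z)
  have hxS : ∀ n, x ∈ S (u n) := by
    intro n
    apply (hclosed (u n)).mem_of_tendsto hx
    filter_upwards [eventually_ge_atTop n] with k hk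
    obtain ⟨j, rfl⟩ := Nat.exists_eq_add_of_le hk
    have := hmem n (j + 1)
    rwa [show n + (j + 1) = n + j + 1 by ring] at this
  refine ⟨x, fun y => ?_⟩
  by_contra hcon
  push Not at hcon
  have hyx : y ∈ S x := hcon.le
  have hy : ∀ n, y ∈ S (u n) := fun n => htrans _ _ (hxS n) hyx
  have hlim : Tendsto (fun n => u (n + 1)) atTop (𝓝 y) := by
    rw [tendsto_iff_dist_tendsto_zero]
    exact squeeze_zero (fun _ => dist_nonneg) (fun n => hsmall n y (hy (n + 1))) hlim0
  have : x = y := tendsto_nhds_unique hx hlim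
  subst this
  simp at hcon

end Vale.Agent.P171
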