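import Vale.Agent.P171.Pressure
import Vale.Agent.P171.Ekeland

/-! Lower semicontinuity of the pressure on `ℝ × ℓ¹₊` and the Ekeland point. -/

namespace Vale.Agent.P171

open MeasureTheory Set Filter Topology
open scoped ENNReal NNReal Nat

/-- the space `ℓ¹` -/
abbrev L1 := lp (fun _ : ℕ => ℝ) 1

theorem L1_summable_norm (f : L1) : Summable fun n => ‖f n‖ := by
  have h := (lp.memℓp f).summable (by simp)
  simpa using h

theorem L1_summable (f : L1) : Summable fun n => f n := (L1_summable_norm f).of_norm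

theorem L1_norm (f : L1) : ‖f‖ = ∑' n, ‖f n‖ := by
  have h := lp.norm_eq_tsum_rpow (p := 1) (by simp) f
  simpa using h

theorem L1_summable_mul (f : L1) {w : ℕ → ℝ} (hw0 : ∀ n, 0 ≤ w n) (hw1 : ∀ n, w n ≤ 1) :
    Summable fun n => f n * w n := by
  apply Summable.of_norm_bounded (L1_summable_norm f)
  intro n
  rw [norm_mul, Real.norm_of_nonneg (hw0 n)]
  exact mul_le_of_le_one_right (norm_nonneg _) (hw1 n)

theorem continuous_L1_weighted {w : ℕ → ℝ} (hw0 : ∀ n, 0 ≤ w n) (hw1 : ∀ n, w n ≤ 1) :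
    Continuous fun f : L1 => ∑' n, f n * w n := by
  have hlip : LipschitzWith 1 fun f : L1 => ∑' n, f n * w n := by
    apply LipschitzWith.of_dist_le_mul
    intro f g
    rw [NNReal.coe_one, one_mul, Real.dist_eq, dist_eq_norm, L1_norm]
    have hf := L1_summable_mul f hw0 hw1
    have hg := L1_summable_mul g hw0 hw1
    rw [← hf.tsum_sub hg]
    have h1 : ∀ n, f n * w n - g n * w n = (f - g) n * w n := by
      intro n
      rw [lp.coeFn_sub, Pi.sub_apply]
      ring
    simp_rw [h1]
    have hs := L1_summable_norm (f - g)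
    have hb : ∀ n, ‖(f - g) n * w n‖ ≤ ‖(f - g) n‖ := by
      intro n
      rw [norm_mul, Real.norm_of_nonneg (hw0 n)]
      exact mul_le_of_le_one_right (norm_nonneg _) (hw1 n)
    have := norm_tsum_le_tsum_norm (Summable.of_nonneg_of_le (fun n => norm_nonneg _) hb hs)
    rw [← Real.norm_eq_abs]
    exact this.trans ((Summable.of_nonneg_of_le (fun n => norm_nonneg _) hb hs).tsum_le_tsum hb hs)
  exact hlip.continuous

/-- the parameter space -/
def Xs : Set (ℝ × L1) := {p | ∀ n, 0 ≤ p.2 n}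

theorem isClosed_Xs : IsClosed Xs := by
  have : Xs = ⋂ n, {p : ℝ × L1 | 0 ≤ p.2 n} := by
    ext p; simp [Xs]
  rw [this]
  apply isClosed_iInter
  intro n
  have hc : Continuous fun p : ℝ × L1 => p.2 n :=
    ((lp.lipschitzWith_one_eval (E := fun _ : ℕ => ℝ) 1 n).continuous).comp continuous_snd
  exact isClosed_le continuous_const hc

theorem continuous_Psi (r : ℝ) : Continuous fun f : L1 => Psi (fun n => f n) r :=
  continuous_L1_weighted (fun n => psi_nonneg n r) (fun n => psi_le_one n r)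

theorem continuous_pE {N : ℕ} (x : Fin N → E3) :
    Continuous fun f : L1 => pE (vv (fun n => f n)) x := by
  unfold pE
  refine continuous_const.mul ?_
  refine continuous_finsetSum _ fun i _ => ?_
  refine continuous_finsetSum _ fun j _ => ?_
  by_cases hij : i = j
  · simp only [hij, if_true]; exact continuous_const
  · simp only [if_neg hij]
    unfold vv phi
    exact continuous_const.sub (continuous_Psi _)

theorem W_eq_ofReal {N : ℕ} (μ L : ℝ) (v : E3 → E3 → ℝ) (x : Fin N → E3) :
    W (act μ (box L)) v x = ENNReal.ofReal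
      ((∏ i, (box L).indicator (fun _ => Real.exp μ) (x i)) * Real.exp (-(pE v x))) := by
  unfold W
  have h0 : ∀ i, 0 ≤ (box L).indicator (fun _ => Real.exp μ) (x i) := by
    intro i
    apply Set.indicator_nonneg
    intro _ _
    exact (Real.exp_pos μ).le
  rw [ENNReal.ofReal_mul (Finset.prod_nonneg fun i _ => h0 i),
    ENNReal.ofReal_prod_of_nonneg fun i _ => h0 i]
  congr 1
  apply Finset.prod_congr rfl
  intro i _
  unfold act
  by_cases h : x i ∈ box L
  · rw [indicator_of_mem h, indicator_of_mem h]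
  · rw [indicator_of_notMem h, indicator_of_notMem h, ENNReal.ofReal_zero]

theorem continuous_W {N : ℕ} (L : ℝ) (x : Fin N → E3) :
    Continuous fun p : ℝ × L1 => W (act p.1 (box L)) (vv (fun n => p.2 n)) x := by
  simp_rw [W_eq_ofReal]
  apply ENNReal.continuous_ofReal.comp
  refine Continuous.mul ?_ ?_
  · refine continuous_finsetProd _ fun i _ => ?_
    by_cases h : x i ∈ box L
    · simp only [indicator_of_mem h]; fun_prop
    · simp only [indicator_of_notMem h]; exact continuous_const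
  · exact Real.continuous_exp.comp ((continuous_pE x).comp continuous_snd).neg

theorem lsc_XL (L : ℝ) : LowerSemicontinuous fun p : ℝ × L1 => XL L p.1 (fun n => p.2 n) := by
  unfold XL Xi T
  apply lowerSemicontinuous_tsum
  intro N
  have h1 : LowerSemicontinuous fun p : ℝ × L1 =>
      ∫⁻ x : Fin N → E3, W (act p.1 (box L)) (vv (fun n => p.2 n)) x := by
    rw [lowerSemicontinuous_iff_le_liminf]
    intro p
    refine le_trans ?_ (lintegral_liminf_le (u := 𝓝 p)
      (f := fun (q : ℝ × L1) (x : Fin N → E3) => W (act q.1 (box L)) (vv (fun n => q.2 n)) x)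
      (fun q => measurable_W (measurable_act _ (measurableSet_box L)) (measurable_vv _)))
    apply lintegral_mono
    intro x
    have := ((continuous_W L x).tendsto p).liminf_eq
    simp only
    rw [this]
  have hc : ((N ! : ℕ) : ℝ≥0∞)⁻¹ ≠ ⊤ := by simp [Nat.factorial_ne_zero]
  exact (ENNReal.continuous_const_mul hc).comp_lowerSemicontinuous h1
    (fun a b hab => mul_le_mul_right hab _)

theorem lsc_P : LowerSemicontinuous fun p : Xs => P p.1.1 (fun n => p.1.2 n) := by
  intro p y hy
  have hsum : ∀ q : Xs, Summable fun n => q.1.2 n := fun q => L1_summable q.1.2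
  obtain ⟨l, hl⟩ := exists_lt_of_lt_ciSup hy
  rw [lt_div_iff₀ (by positivity)] at hl
  set c := y * ((l : ℝ) + 2) ^ 3 with hc
  have h1 : ENNReal.ofReal (Real.exp c) < XL (l + 1) p.1.1 (fun n => p.1.2 n) := by
    rw [XL_eq_exp p.2 (hsum p)]
    exact (ENNReal.ofReal_lt_ofReal_iff (Real.exp_pos _)).mpr (Real.exp_lt_exp.mpr hl)
  have h2 : LowerSemicontinuous fun p : Xs => XL (l + 1) p.1.1 (fun n => p.1.2 n) :=
    (lsc_XL (l + 1)).comp continuous_subtype_val
  filter_upwards [h2 p _ h1] with q hq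
  have hq' : ENNReal.ofReal (Real.exp c) < XL (l + 1) q.1.1 (fun n => q.1.2 n) := hq
  rw [XL_eq_exp q.2 (hsum q)] at hq'
  have hq := Real.exp_lt_exp.mp ((ENNReal.ofReal_lt_ofReal_iff (Real.exp_pos _)).mp hq')
  have h3 : y < pL (l + 1) q.1.1 (fun n => q.1.2 n) / ((l : ℝ) + 2) ^ 3 := by
    rw [lt_div_iff₀ (by positivity)]
    exact hq
  exact h3.trans_le (le_P q.2 (hsum q) _ l)

theorem ekeland_P {c₁ c₂ ε : ℝ} (hε : 0 < ε) (hlow : ∀ (μ : ℝ) (a : ℕ → ℝ), (∀ n, 0 ≤ a n) →
      Summable a → c₁ * μ + c₂ * ∑' n, a n ≤ P μ a) :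
    ∃ (μ : ℝ) (a : ℕ → ℝ), (∀ n, 0 ≤ a n) ∧ Summable a ∧
      (∀ μ' : ℝ, P μ a + c₁ * (μ' - μ) - ε * |μ' - μ| ≤ P μ' a) ∧
      (∀ n : ℕ, ∀ s : ℝ, 0 ≤ s → P μ a + (c₂ - ε) * s ≤ P μ (a + Pi.single n s)) := by
  classical
  have : CompleteSpace Xs := isClosed_Xs.completeSpace_coe
  set G : Xs → ℝ := fun p => P p.1.1 (fun n => p.1.2 n) + (-(c₁ * p.1.1) - c₂ * ∑' n, p.1.2 n)
    with hG
  have hcont : Continuous fun p : Xs => -(c₁ * p.1.1) - c₂ * ∑' n, p.1.2 n := by
    have h1 : Continuous fun p : Xs => ∑' n, p.1.2 n := by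
      have h2 := continuous_L1_weighted (w := fun _ => 1) (fun _ => zero_le_one) (fun _ => le_rfl)
      simp only [mul_one] at h2
      exact h2.comp (continuous_snd.comp continuous_subtype_val)
    have h3 : Continuous fun p : Xs => p.1.1 := continuous_fst.comp continuous_subtype_val
    exact (continuous_const.mul h3).neg.sub (continuous_const.mul h1)
  have hGlsc : LowerSemicontinuous G := lsc_P.add hcont.lowerSemicontinuous
  have hG0 : ∀ p, 0 ≤ G p := by
    intro p
    have := hlow p.1.1 (fun n => p.1.2 n) p.2 (L1_summable p.1.2)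
    simp only [hG]
    linarith
  have hx0 : ((0, 0) : ℝ × L1) ∈ Xs := by
    intro n
    simp
  obtain ⟨p, hp⟩ := ekeland G hGlsc 0 hG0 hε ⟨(0, 0), hx0⟩
  refine ⟨p.1.1, fun n => p.1.2 n, p.2, L1_summable p.1.2, ?_, ?_⟩
  · intro μ'
    have h1 := hp ⟨(μ', p.1.2), p.2⟩
    have hd : dist p ⟨(μ', p.1.2), p.2⟩ = |μ' - p.1.1| := by
      rw [Subtype.dist_eq, Prod.dist_eq]
      simp only [dist_self]
      rw [max_eq_left dist_nonneg, Real.dist_eq, abs_sub_comm]
    rw [hd] at h1
    simp only [hG] at h1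
    linarith
  · intro n s hs
    have hmem : ((p.1.1, p.1.2 + lp.single (E := fun _ : ℕ => ℝ) 1 n s) : ℝ × L1) ∈ Xs := by
      intro k
      have h1 : (p.1.2 + lp.single (E := fun _ : ℕ => ℝ) 1 n s : L1) k = p.1.2 k + lp.single (E := fun _ : ℕ => ℝ) 1 n s k := by
        rw [lp.coeFn_add, Pi.add_apply]
      simp only
      rw [h1]
      have h2 : (0 : ℝ) ≤ lp.single (E := fun _ : ℕ => ℝ) 1 n s k := by
        rw [lp.single_apply]
        by_cases hk : k = n
        · subst hk; simpa using hs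
        · simp [Pi.single_eq_of_ne hk]
      have := p.2 k
      linarith
    have h1 := hp ⟨(p.1.1, p.1.2 + lp.single (E := fun _ : ℕ => ℝ) 1 n s), hmem⟩
    have hd : dist p ⟨(p.1.1, p.1.2 + lp.single (E := fun _ : ℕ => ℝ) 1 n s), hmem⟩ = s := by
      rw [Subtype.dist_eq, Prod.dist_eq]
      simp only [dist_self]
      rw [max_eq_right dist_nonneg, dist_eq_norm]
      have : p.1.2 - (p.1.2 + lp.single (E := fun _ : ℕ => ℝ) 1 n s) = -lp.single (E := fun _ : ℕ => ℝ) 1 n s := by abel
      rw [this, norm_neg, lp.norm_single (by norm_num), Real.norm_of_nonneg hs]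
    rw [hd] at h1
    have hfun : (fun k => (p.1.2 + lp.single (E := fun _ : ℕ => ℝ) 1 n s : L1) k) =
        (fun k => p.1.2 k) + Pi.single n s := by
      funext k
      rw [lp.coeFn_add, Pi.add_apply, Pi.add_apply, lp.single_apply]
    have hts : ∑' k, (p.1.2 + lp.single (E := fun _ : ℕ => ℝ) 1 n s : L1) k = ∑' k, p.1.2 k + s := by
      have h2 : ∀ k, (p.1.2 + lp.single (E := fun _ : ℕ => ℝ) 1 n s : L1) k = p.1.2 k + (Pi.single n s : ℕ → ℝ) k := by
        intro k
        exact congrFun hfun k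
      simp_rw [h2]
      have h3 : Summable (Pi.single n s : ℕ → ℝ) :=
        (hasSum_pi_single n s).summable
      rw [(L1_summable p.1.2).tsum_add h3, tsum_pi_single]
    simp only [hG] at h1
    rw [hts, hfun] at h1
    linarith

end Vale.Agent.P171
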