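import Vale.Agent.P171.Vol

/-! Energy estimates: stability and basic bounds. -/

namespace Vale.Agent.P171

open MeasureTheory Set Filter Topology
open scoped ENNReal NNReal Nat

section general

variable {E : Type*} {ι : Type*} [Fintype ι] [DecidableEq ι]

theorem pE_sub (w₁ w₂ : E → E → ℝ) (x : ι → E) :
    pE (fun a b => w₁ a b - w₂ a b) x = pE w₁ x - pE w₂ x := by
  unfold pE
  rw [← mul_sub, ← Finset.sum_sub_distrib]
  congr 1
  apply Finset.sum_congr rfl; intro i _
  rw [← Finset.sum_sub_distrib]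
  apply Finset.sum_congr rfl; intro j _
  split_ifs <;> ring

theorem pE_add (w₁ w₂ : E → E → ℝ) (x : ι → E) :
    pE (fun a b => w₁ a b + w₂ a b) x = pE w₁ x + pE w₂ x := by
  unfold pE
  rw [← mul_add, ← Finset.sum_add_distrib]
  congr 1
  apply Finset.sum_congr rfl; intro i _
  rw [← Finset.sum_add_distrib]
  apply Finset.sum_congr rfl; intro j _
  split_ifs <;> ring

theorem pE_smul (c : ℝ) (w : E → E → ℝ) (x : ι → E) :
    pE (fun a b => c * w a b) x = c * pE w x := by
  unfold pE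
  have : ∑ i, ∑ j, (if i = j then 0 else c * w (x i) (x j)) =
      c * ∑ i, ∑ j, (if i = j then 0 else w (x i) (x j)) := by
    rw [Finset.mul_sum]
    apply Finset.sum_congr rfl; intro i _
    rw [Finset.mul_sum]
    apply Finset.sum_congr rfl; intro j _
    split_ifs <;> ring
  rw [this]
  ring

theorem pE_mono {w₁ w₂ : E → E → ℝ} {x : ι → E}
    (h : ∀ i j, i ≠ j → w₁ (x i) (x j) ≤ w₂ (x i) (x j)) : pE w₁ x ≤ pE w₂ x := by
  unfold pE
  gcongr with i _ j _
  split_ifs with hij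
  · exact le_rfl
  · exact h i j hij

theorem pE_nonneg {w : E → E → ℝ} {x : ι → E}
    (h : ∀ i j, i ≠ j → 0 ≤ w (x i) (x j)) : 0 ≤ pE w x := by
  unfold pE
  apply mul_nonneg (by norm_num)
  apply Finset.sum_nonneg; intro i _
  apply Finset.sum_nonneg; intro j _
  split_ifs with hij
  · exact le_rfl
  · exact h i j hij

omit [Fintype ι] in
/-- a label lower bound for the energy restricted to a finset of particles -/
theorem half_label_le {κ : Type*} [DecidableEq κ] (s : Finset ι) (f : ι → κ) {K : ℝ} :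
    ∑ i ∈ s, ∑ j ∈ s, (if i = j then 0 else K * (if f i = f j then (1 : ℝ) else 0)) =
      K * (Dp s f - s.card) := by
  have h1 : ∀ i ∈ s, ∑ j ∈ s, (if i = j then 0 else K * (if f i = f j then (1 : ℝ) else 0)) =
      K * ((∑ j ∈ s, if f i = f j then (1 : ℝ) else 0) - 1) := by
    intro i hi
    have h2 : ∀ j ∈ s, (if i = j then 0 else K * (if f i = f j then (1 : ℝ) else 0)) =
      K * (if f i = f j then (1 : ℝ) else 0) - (if i = j then K else 0) := by
      intro j _
      by_cases hij : i = j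
      · subst hij; simp
      · simp [hij]
    rw [Finset.sum_congr rfl h2, Finset.sum_sub_distrib, ← Finset.mul_sum,
      Finset.sum_ite_eq s i, if_pos hi]
    ring
  rw [Finset.sum_congr rfl h1, ← Finset.mul_sum, Finset.sum_sub_distrib]
  unfold Dp
  simp

end general

variable {ι : Type*} [Fintype ι] [DecidableEq ι]

/-- the pair interaction as a function of two points -/
noncomputable def vv (a : ℕ → ℝ) (x y : E3) : ℝ := phi a (dist x y)

theorem measurable_comp_dist {f : ℝ → ℝ} (hf : Measurable f) :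
    Measurable (Function.uncurry fun x y : E3 => f (dist x y)) :=
  hf.comp (by fun_prop)

theorem measurable_vv (a : ℕ → ℝ) : Measurable (Function.uncurry (vv a)) :=
  measurable_comp_dist (measurable_phi a)

theorem pE_vv (a : ℕ → ℝ) (x : ι → E3) :
    pE (vv a) x = pE (fun y z => core (dist y z)) x - pE (fun y z => Psi a (dist y z)) x := by
  rw [← pE_sub]
  rfl

theorem pE_le_half_Sp {w : E3 → E3 → ℝ} (x : ι → E3) (h : ∀ i, 0 ≤ w (x i) (x i)) :
    pE w x ≤ (1 / 2) * Sp Finset.univ w x := by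
  unfold pE Sp
  gcongr with i _ j _
  split_ifs with hij
  · subst hij; exact h i
  · exact le_rfl

theorem pE_Psi_le {a : ℕ → ℝ} (ha0 : ∀ n, 0 ≤ a n) (ha : Summable a) (x : ι → E3) :
    pE (fun y z => Psi a (dist y z)) x ≤
      27 / 2 * (∑' n, a n) * Dp Finset.univ (fun i => lab 1 (x i)) := by
  have h1 := pE_le_half_Sp (w := fun y z => Psi a (dist y z)) x (fun i => Psi_nonneg ha0 _)
  have h2 := Sp_Psi_le ha0 ha Finset.univ x
  linarith

theorem pE_core_ge {k : ℕ} (hk : 2 ≤ k) {x : ι → E3} (hx : Function.Injective x) :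
    (1 / 2) * ((k : ℝ) ^ 6 / 27 * (Dp Finset.univ (fun i => lab k (x i)) - Fintype.card ι)) ≤
      pE (fun y z => core (dist y z)) x := by
  have h := half_label_le (Finset.univ : Finset ι) (fun i => lab k (x i)) (K := (k : ℝ) ^ 6 / 27)
  rw [Finset.card_univ] at h
  rw [← h]
  unfold pE
  gcongr with i _ j _
  split_ifs with hij h1
  · exact le_rfl
  · rw [mul_one]
    exact core_ge hk (fun h => hij (hx h)) h1
  · rw [mul_zero]; exact core_nonneg _

omit [Fintype ι] [DecidableEq ι] in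
theorem Dp_lab_k_ge (s : Finset ι) (x : ι → E3) {k : ℕ} (hk : 1 ≤ k) :
    Dp s (fun i => lab 1 (x i)) / (27 * k ^ 3) ≤ Dp s (fun i => lab k (x i)) := by
  have h1 := Dp_lab_one_le s x (k := k) hk
  have hk' : (1 : ℝ) ≤ k := by exact_mod_cast hk
  rw [div_le_iff₀ (by positivity)]
  have hD := Dp_nonneg s (fun i => lab k (x i))
  calc Dp s (fun i => lab 1 (x i)) ≤ (2 * k + 1) ^ 3 * Dp s (fun i => lab k (x i)) := h1
    _ ≤ (3 * k) ^ 3 * Dp s (fun i => lab k (x i)) := by gcongr; linarith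
    _ = _ := by ring

/-- superstability: for each `k ≥ 2`, the energy is bounded below. -/
theorem superstable {a : ℕ → ℝ} (ha0 : ∀ n, 0 ≤ a n) (ha : Summable a) {k : ℕ} (hk : 2 ≤ k)
    {x : ι → E3} (hx : Function.Injective x) :
    ((k : ℝ) ^ 3 / 1458 - 27 / 2 * ∑' n, a n) * Dp Finset.univ (fun i => lab 1 (x i))
      - (k : ℝ) ^ 6 / 54 * Fintype.card ι ≤ pE (vv a) x := by
  rw [pE_vv]
  have h1 := pE_core_ge hk hx
  have h2 := pE_Psi_le ha0 ha x
  have h3 := Dp_lab_k_ge (Finset.univ : Finset ι) x (k := k) (by omega)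
  have hk' : (0 : ℝ) < k := by exact_mod_cast (by omega : 0 < k)
  have h4 : (k : ℝ) ^ 3 / 1458 * Dp Finset.univ (fun i => lab 1 (x i)) ≤
      (k : ℝ) ^ 6 / 54 * Dp Finset.univ (fun i => lab k (x i)) := by
    calc (k : ℝ) ^ 3 / 1458 * Dp Finset.univ (fun i => lab 1 (x i))
        = (k : ℝ) ^ 6 / 54 * (Dp Finset.univ (fun i => lab 1 (x i)) / (27 * k ^ 3)) := by
          field_simp; ring
      _ ≤ _ := by gcongr
  have h5 : (1 / 2) * ((k : ℝ) ^ 6 / 27 * (Dp Finset.univ (fun i => lab k (x i)) - Fintype.card ι))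
    = (k : ℝ) ^ 6 / 54 * Dp Finset.univ (fun i => lab k (x i)) -
      (k : ℝ) ^ 6 / 54 * Fintype.card ι := by ring
  rw [h5] at h1
  linarith

/-- for any strength `M` there is a superstability constant -/
theorem exists_superstable {a : ℕ → ℝ} (ha0 : ∀ n, 0 ≤ a n) (ha : Summable a) (M : ℝ) :
    ∃ B : ℝ, 0 ≤ B ∧ ∀ (N : ℕ) (x : Fin N → E3), Function.Injective x →
      M * Dp Finset.univ (fun i => lab 1 (x i)) - B * N ≤ pE (vv a) x := by
  obtain ⟨k, hk⟩ := exists_nat_ge (max 2 (1458 * (M + 27 / 2 * ∑' n, a n)))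
  have hk2 : (2 : ℝ) ≤ k := (le_max_left _ _).trans hk
  have hk2' : 2 ≤ k := by exact_mod_cast hk2
  have hkM : 1458 * (M + 27 / 2 * ∑' n, a n) ≤ k := (le_max_right _ _).trans hk
  refine ⟨(k : ℝ) ^ 6 / 54, by positivity, fun N x hx => ?_⟩
  have h := superstable ha0 ha hk2' hx
  rw [Fintype.card_fin] at h
  have hD := Dp_nonneg Finset.univ (fun i => lab 1 (x i))
  have h3 : (k : ℝ) ≤ k ^ 3 := by nlinarith [sq_nonneg ((k : ℝ) - 1)]
  have h4 : M ≤ (k : ℝ) ^ 3 / 1458 - 27 / 2 * ∑' n, a n := by linarith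
  have h5 := mul_le_mul_of_nonneg_right h4 hD
  linarith

theorem exists_stable {a : ℕ → ℝ} (ha0 : ∀ n, 0 ≤ a n) (ha : Summable a) :
    ∃ B : ℝ, 0 ≤ B ∧ ∀ (N : ℕ) (x : Fin N → E3), Function.Injective x →
      -(B * N) ≤ pE (vv a) x := by
  obtain ⟨B, hB, h⟩ := exists_superstable ha0 ha 0
  exact ⟨B, hB, fun N x hx => by have := h N x hx; linarith⟩

end Vale.Agent.P171
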