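import Vale.Agent.P171.Pressure

/-! Passage from the real configuration integrals of the problem to the internal ones. -/

namespace Vale.Agent.P171

open MeasureTheory Set Filter Topology
open scoped ENNReal NNReal Nat

theorem pE_eq_sum_Ioi {N : ℕ} (v : E3 → E3 → ℝ) (hv : ∀ x y, v x y = v y x) (x : Fin N → E3) :
    pE v x = ∑ i, ∑ j ∈ Finset.Ioi i, v (x i) (x j) := by
  unfold pE
  have h1 : ∀ i : Fin N, (∑ j, if i = j then 0 else v (x i) (x j)) =
      ∑ j ∈ Finset.Iio i, v (x i) (x j) + ∑ j ∈ Finset.Ioi i, v (x i) (x j) := by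
    intro i
    have hd : Disjoint (Finset.Iio i) (Finset.Ioi i) := by
      rw [Finset.disjoint_left]
      intro j hj hj'
      rw [Finset.mem_Iio] at hj
      rw [Finset.mem_Ioi] at hj'
      exact absurd (hj.trans hj') (lt_irrefl _)
    rw [← Finset.sum_union hd]
    symm
    rw [← Finset.sum_subset (Finset.subset_univ (Finset.Iio i ∪ Finset.Ioi i))]
    · apply Finset.sum_congr rfl
      intro j hj
      rw [if_neg]
      rintro rfl
      rw [Finset.mem_union, Finset.mem_Iio, Finset.mem_Ioi] at hj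
      rcases hj with h | h <;> exact absurd h (lt_irrefl _)
    · intro j _ hj
      rw [Finset.mem_union, Finset.mem_Iio, Finset.mem_Ioi, not_or, not_lt, not_lt] at hj
      rw [if_pos (le_antisymm hj.1 hj.2)]
  simp_rw [h1]
  rw [Finset.sum_add_distrib]
  have h2 : ∑ i : Fin N, ∑ j ∈ Finset.Iio i, v (x i) (x j) =
      ∑ j : Fin N, ∑ i ∈ Finset.Ioi j, v (x j) (x i) := by
    rw [Finset.sum_comm' (s' := fun j : Fin N => Finset.Ioi j) (t' := Finset.univ)]
    · apply Finset.sum_congr rfl; intro j _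
      apply Finset.sum_congr rfl; intro i _
      exact hv _ _
    · intro i j
      simp
  rw [h2]
  ring

/-- closed box -/
def cbox (L : ℝ) : Set E3 := {x | ∀ c, x c ∈ Icc 0 L}

theorem measurableSet_cbox (L : ℝ) : MeasurableSet (cbox L) :=
  measurableSet_pi' fun _ => measurableSet_Icc

theorem box_subset_cbox (L : ℝ) : box L ⊆ cbox L := fun _ hx c => ⟨(hx c).1, (hx c).2.le⟩

theorem cbox_subset_box (L : ℝ) : cbox L ⊆ box (L + 1) := fun _ hx c =>
  ⟨(hx c).1, lt_of_le_of_lt (hx c).2 (lt_add_one L)⟩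

/-- grand partition function in the closed box of side `L` -/
noncomputable def XC (L μ : ℝ) (a : ℕ → ℝ) : ℝ≥0∞ := Xi (act μ (cbox L)) (vv a)

theorem XL_le_XC (L μ : ℝ) (a : ℕ → ℝ) : XL L μ a ≤ XC L μ a :=
  Xi_mono_g _ (act_mono_set μ (box_subset_cbox L))

theorem XC_le_XL (L μ : ℝ) (a : ℕ → ℝ) : XC L μ a ≤ XL (L + 1) μ a :=
  Xi_mono_g _ (act_mono_set μ (cbox_subset_box L))

theorem XC_ne_top {a : ℕ → ℝ} (ha0 : ∀ n, 0 ≤ a n) (ha : Summable a) (L μ : ℝ) :
    XC L μ a ≠ ⊤ := ne_top_of_le_ne_top (XL_ne_top ha0 ha (L + 1) μ) (XC_le_XL L μ a)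

theorem tendsto_log_XC {a : ℕ → ℝ} (ha0 : ∀ n, 0 ≤ a n) (ha : Summable a) (μ : ℝ) :
    Tendsto (fun L : ℝ => (L ^ 3)⁻¹ * Real.log (XC L μ a).toReal) atTop (𝓝 (P μ a)) := by
  have h1 := tendsto_pL ha0 ha μ
  have h2 : Tendsto (fun L : ℝ => (pL (L + 1) μ a / (L + 1) ^ 3) * ((L + 1) / L) ^ 3) atTop
      (𝓝 (P μ a * 1 ^ 3)) := by
    refine Tendsto.mul (h1.comp (tendsto_atTop_add_const_right _ _ tendsto_id)) (Tendsto.pow ?_ 3)
    have h3 : Tendsto (fun L : ℝ => 1 + 1 / L) atTop (𝓝 (1 + 0)) :=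
      tendsto_const_nhds.add (tendsto_const_nhds.div_atTop tendsto_id)
    rw [add_zero] at h3
    refine h3.congr' ?_
    filter_upwards [eventually_gt_atTop 0] with L hL
    field_simp
  rw [one_pow, mul_one] at h2
  refine tendsto_of_tendsto_of_tendsto_of_le_of_le' h1 h2 ?_ ?_
  · filter_upwards [eventually_gt_atTop 0] with L hL
    rw [div_eq_inv_mul]
    unfold pL
    gcongr
    · linarith [one_le_XL_toReal ha0 ha L μ]
    · exact XC_ne_top ha0 ha L μ
    · exact XL_le_XC L μ a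
  · filter_upwards [eventually_gt_atTop 0] with L hL
    have h4 : pL (L + 1) μ a / (L + 1) ^ 3 * ((L + 1) / L) ^ 3 = (L ^ 3)⁻¹ * pL (L + 1) μ a := by
      field_simp
    rw [h4]
    unfold pL
    have h5 : (XL L μ a).toReal ≤ (XC L μ a).toReal :=
      ENNReal.toReal_mono (XC_ne_top ha0 ha L μ) (XL_le_XC L μ a)
    gcongr
    · linarith [one_le_XL_toReal ha0 ha L μ]
    · exact XL_ne_top ha0 ha _ μ
    · exact XC_le_XL L μ a

/-- the canonical partition function of the problem, for the potential `phi a` and inverse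
temperature one -/
noncomputable def Zr (a : ℕ → ℝ) (L : ℝ) (N : ℕ) : ℝ :=
  (N ! : ℝ)⁻¹ * ∫ x in {x : Fin N → EuclideanSpace ℝ (Fin 3) | ∀ i c, x i c ∈ Set.Icc 0 L},
    Real.exp (-(1 * ∑ i, ∑ j ∈ Finset.Ioi i, phi a (dist (x i) (x j))))

theorem toReal_term {a : ℕ → ℝ} {z : ℝ} (hz : 0 < z) (L : ℝ) (N : ℕ) :
    (((N ! : ℕ) : ℝ≥0∞)⁻¹ * ∫⁻ x : Fin N → E3, W (act (Real.log z) (cbox L)) (vv a) x).toReal =
      z ^ N * Zr a L N := by
  have hv : ∀ x y, vv a x y = vv a y x := fun x y => by unfold vv; rw [dist_comm]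
  set S : Set (Fin N → E3) := {x | ∀ i c, x i c ∈ Set.Icc 0 L} with hS
  have hSmeas : MeasurableSet S := by
    have : S = ⋂ i, (fun x : Fin N → E3 => x i) ⁻¹' (cbox L) := by
      ext x; simp [hS, cbox]
    rw [this]
    exact MeasurableSet.iInter fun i => (measurable_pi_apply i) (measurableSet_cbox L)
  have hW : ∀ x : Fin N → E3, W (act (Real.log z) (cbox L)) (vv a) x =
      S.indicator (fun x => ENNReal.ofReal (z ^ N * Real.exp (-(pE (vv a) x)))) x := by
    intro x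
    unfold W act
    by_cases hx : x ∈ S
    · rw [indicator_of_mem hx]
      have h1 : ∀ i, x i ∈ cbox L := fun i c => hx i c
      simp_rw [indicator_of_mem (h1 _)]
      rw [Finset.prod_const, Finset.card_univ, Fintype.card_fin, Real.exp_log hz,
        ← ENNReal.ofReal_pow hz.le, ← ENNReal.ofReal_mul (by positivity)]
    · rw [indicator_of_notMem hx]
      have : ∃ i, x i ∉ cbox L := by
        by_contra hcon
        push Not at hcon
        exact hx fun i c => hcon i c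
      obtain ⟨i, hi⟩ := this
      rw [Finset.prod_eq_zero (Finset.mem_univ i) (indicator_of_notMem hi _), zero_mul]
  simp_rw [hW]
  rw [lintegral_indicator hSmeas, ENNReal.toReal_mul, ENNReal.toReal_inv, ENNReal.toReal_natCast]
  have hmeas : Measurable fun x : Fin N → E3 => z ^ N * Real.exp (-(pE (vv a) x)) := by
    have := measurable_pE (ι := Fin N) (measurable_vv a)
    fun_prop
  rw [← integral_eq_lintegral_of_nonneg_ae (Eventually.of_forall fun x => by positivity)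
    hmeas.aestronglyMeasurable, integral_const_mul]
  unfold Zr
  have hE : ∀ x : Fin N → E3, Real.exp (-(pE (vv a) x)) =
      Real.exp (-(1 * ∑ i, ∑ j ∈ Finset.Ioi i, phi a (dist (x i) (x j)))) := by
    intro x
    rw [pE_eq_sum_Ioi _ hv, one_mul]
    rfl
  simp_rw [hE]
  ring

theorem summable_Zr {a : ℕ → ℝ} (ha0 : ∀ n, 0 ≤ a n) (ha : Summable a) {z : ℝ} (hz : 0 < z)
    (L : ℝ) : Summable fun N : ℕ => z ^ N * Zr a L N := by
  simp_rw [← toReal_term hz]
  exact ENNReal.summable_toReal (XC_ne_top ha0 ha L (Real.log z))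

theorem tsum_Zr {a : ℕ → ℝ} (ha0 : ∀ n, 0 ≤ a n) (ha : Summable a) {z : ℝ} (hz : 0 < z)
    (L : ℝ) : ∑' N : ℕ, z ^ N * Zr a L N = (XC L (Real.log z) a).toReal := by
  simp_rw [← toReal_term hz]
  rw [← ENNReal.tsum_toReal_eq]
  · rfl
  · exact ENNReal.ne_top_of_tsum_ne_top (XC_ne_top ha0 ha L (Real.log z))

theorem tendsto_Zr {a : ℕ → ℝ} (ha0 : ∀ n, 0 ≤ a n) (ha : Summable a) {z : ℝ} (hz : 0 < z) :
    Tendsto (fun L : ℝ => (L ^ 3)⁻¹ * Real.log (∑' N : ℕ, z ^ N * Zr a L N)) atTop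
      (𝓝 (P (Real.log z) a)) := by
  simp_rw [tsum_Zr ha0 ha hz]
  exact tendsto_log_XC ha0 ha (Real.log z)

end Vale.Agent.P171
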