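import Vale.Agent.P171.Main
import Vale.Agent.P171.Transfer

/-! Properties of the constructed potential used in the final statement. -/

namespace Vale.Agent.P171

open MeasureTheory Set Filter Topology
open scoped ENNReal NNReal Nat

theorem phi_bdd {a : ℕ → ℝ} (ha0 : ∀ n, 0 ≤ a n) (ha : Summable a) {α r : ℝ} (hα : 0 < α)
    (hr : α ≤ r) : |phi a r| ≤ (α⁻¹) ^ 6 + ∑' n, a n := by
  have hr0 : 0 < r := hα.trans_le hr
  have h1 : |core r| ≤ (α⁻¹) ^ 6 := by
    rw [abs_of_nonneg (core_nonneg r)]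
    unfold core
    split_ifs
    · gcongr
    · positivity
  have h2 : |Psi a r| ≤ ∑' n, a n := by
    rw [abs_of_nonneg (Psi_nonneg ha0 r)]
    exact Psi_le ha0 ha r
  unfold phi
  exact (abs_sub _ _).trans (add_le_add h1 h2)

theorem stable_sum {a : ℕ → ℝ} (ha0 : ∀ n, 0 ≤ a n) (ha : Summable a) :
    ∃ B : ℝ, ∀ (N : ℕ) (x : Fin N → E3), Function.Injective x →
      -(B * N) ≤ ∑ i, ∑ j ∈ Finset.Ioi i, phi a (dist (x i) (x j)) := by
  obtain ⟨B, _, hB⟩ := exists_stable ha0 ha
  refine ⟨B, fun N x hx => ?_⟩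
  have h := hB N x hx
  rw [pE_eq_sum_Ioi _ (fun x y => by unfold vv; rw [dist_comm])] at h
  exact h

theorem integrableOn_phi {a : ℕ → ℝ} (ha0 : ∀ n, 0 ≤ a n) (ha : Summable a) :
    IntegrableOn (fun r : ℝ => r ^ 2 * phi a r) (Ioi 1) := by
  have hmeas : Measurable fun r : ℝ => r ^ 2 * phi a r :=
    (measurable_id.pow_const 2).mul (measurable_phi a)
  refine ⟨hmeas.aestronglyMeasurable, ?_⟩
  rw [hasFiniteIntegral_iff_enorm]
  have h1 : ∀ r ∈ Ioi (1 : ℝ), ‖r ^ 2 * phi a r‖ₑ =
      ∑' n, ENNReal.ofReal (a n * (r ^ 2 * psi n r)) := by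
    intro r hr
    have hr1 : (1 : ℝ) < r := hr
    rw [← ENNReal.ofReal_tsum_of_nonneg]
    · have h2 : r ^ 2 * phi a r = -(∑' n, a n * (r ^ 2 * psi n r)) := by
        unfold phi core
        rw [if_neg (not_lt.mpr hr1.le)]
        unfold Psi
        have : ∀ n, a n * (r ^ 2 * psi n r) = r ^ 2 * (a n * psi n r) := fun n => by ring
        simp_rw [this]
        rw [tsum_mul_left]
        ring
      rw [h2, enorm_neg, Real.enorm_of_nonneg]
      exact tsum_nonneg fun n => mul_nonneg (ha0 n) (mul_nonneg (by positivity) (psi_nonneg n r))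
    · intro n
      exact mul_nonneg (ha0 n) (mul_nonneg (by positivity) (psi_nonneg n r))
    · have : ∀ n, a n * (r ^ 2 * psi n r) = r ^ 2 * (a n * psi n r) := fun n => by ring
      simp_rw [this]
      exact (summable_mul_psi ha0 ha r).mul_left _
  rw [setLIntegral_congr_fun measurableSet_Ioi h1]
  rw [lintegral_tsum]
  · have h3 : ∀ n, ∫⁻ r in Ioi (1 : ℝ), ENNReal.ofReal (a n * (r ^ 2 * psi n r)) ≤
        ENNReal.ofReal (a n) := by
      intro n
      have hR := R_pos n
      calc ∫⁻ r in Ioi (1 : ℝ), ENNReal.ofReal (a n * (r ^ 2 * psi n r))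
          ≤ ∫⁻ r in Ioi (1 : ℝ), (Ioo 0 (R n)).indicator
              (fun _ => ENNReal.ofReal (a n * (R n)⁻¹)) r := by
            apply setLIntegral_mono' measurableSet_Ioi
            intro r hr
            have hr1 : (1 : ℝ) < r := hr
            by_cases hrR : r < R n
            · rw [indicator_of_mem (show r ∈ Ioo 0 (R n) from ⟨by linarith, hrR⟩)]
              apply ENNReal.ofReal_le_ofReal
              apply mul_le_mul_of_nonneg_left _ (ha0 n)
              unfold psi
              rw [if_pos hrR]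
              calc r ^ 2 * (R n)⁻¹ ^ 3 ≤ (R n) ^ 2 * (R n)⁻¹ ^ 3 := by gcongr
                _ = (R n)⁻¹ := by field_simp
            · unfold psi
              rw [if_neg hrR]
              simp
        _ ≤ ∫⁻ r, (Ioo 0 (R n)).indicator (fun _ => ENNReal.ofReal (a n * (R n)⁻¹)) r :=
            setLIntegral_le_lintegral _ _
        _ = ENNReal.ofReal (a n) := by
            rw [lintegral_indicator measurableSet_Ioo, setLIntegral_const, Real.volume_Ioo,
              sub_zero, ← ENNReal.ofReal_mul (mul_nonneg (ha0 n) (by positivity))]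
            congr 1
            field_simp
    refine lt_of_le_of_lt (ENNReal.tsum_le_tsum h3) ?_
    rw [← ENNReal.ofReal_tsum_of_nonneg ha0 ha]
    exact ENNReal.ofReal_lt_top
  · intro n
    refine Measurable.aemeasurable ?_
    exact ((((measurable_id.pow_const 2).mul (measurable_psi n)).const_mul (a n))).ennreal_ofReal

theorem integrable_boltzmann {a : ℕ → ℝ} (ha0 : ∀ n, 0 ≤ a n) (ha : Summable a) (L : ℝ) (N : ℕ) :
    IntegrableOn (fun x : Fin N → EuclideanSpace ℝ (Fin 3) =>
      Real.exp (-(1 * ∑ i, ∑ j ∈ Finset.Ioi i, phi a (dist (x i) (x j)))))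
      {x | ∀ i c, x i c ∈ Set.Icc 0 L} := by
  obtain ⟨B, hB⟩ := stable_sum ha0 ha
  have hS : {x : Fin N → EuclideanSpace ℝ (Fin 3) | ∀ i c, x i c ∈ Set.Icc 0 L} =
      Set.pi Set.univ (fun _ => cbox L) := by
    ext x; simp [cbox]
  have hfin : volume {x : Fin N → EuclideanSpace ℝ (Fin 3) | ∀ i c, x i c ∈ Set.Icc 0 L} ≠ ⊤ := by
    rw [hS, volume_pi_pi]
    apply ENNReal.prod_ne_top
    intro i _
    refine ne_top_of_le_ne_top ?_ (measure_mono (cbox_subset_box L))
    rw [vol_box]
    exact ENNReal.pow_ne_top ENNReal.ofReal_ne_top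
  have hmeas : Measurable (fun x : Fin N → EuclideanSpace ℝ (Fin 3) =>
      Real.exp (-(1 * ∑ i, ∑ j ∈ Finset.Ioi i, phi a (dist (x i) (x j))))) := by
    refine Real.measurable_exp.comp ((Measurable.const_mul ?_ _).neg)
    refine Finset.measurable_sum _ fun i _ => Finset.measurable_sum _ fun j _ => ?_
    exact (measurable_phi a).comp (by fun_prop)
  refine Measure.integrableOn_of_bounded (M := Real.exp (B * N)) hfin
    hmeas.aestronglyMeasurable ?_
  refine ae_restrict_of_ae ?_
  filter_upwards [ae_injective N] with x hx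
  rw [Real.norm_of_nonneg (Real.exp_pos _).le]
  apply Real.exp_le_exp.mpr
  have := hB N x hx
  linarith

theorem not_differentiable_log {a : ℕ → ℝ} {μ : ℝ}
    (h : ¬ DifferentiableAt ℝ (fun ν : ℝ => P ν a) μ) :
    ¬ DifferentiableAt ℝ (fun z : ℝ => P (Real.log z) a) (Real.exp μ) := by
  intro hd
  apply h
  have h1 : (fun ν : ℝ => P ν a) = (fun z : ℝ => P (Real.log z) a) ∘ Real.exp := by
    funext ν
    simp
  rw [h1]
  exact DifferentiableAt.comp μ hd Real.differentiable_exp.differentiableAt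

end Vale.Agent.P171
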