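import Vale.Agent.P171.Comb
import Vale.Agent.P171.Config

/-! Boxes, labels, potentials in three-dimensional Euclidean space. -/

namespace Vale.Agent.P171

open MeasureTheory Set Filter Topology
open scoped ENNReal NNReal Nat

/-- three-dimensional Euclidean space -/
abbrev E3 := EuclideanSpace ℝ (Fin 3)

theorem abs_coord_le_dist (x y : E3) (c : Fin 3) : |x c - y c| ≤ dist x y := by
  rw [EuclideanSpace.dist_eq]
  apply Real.le_sqrt_of_sq_le
  calc |x c - y c| ^ 2 = (fun i => dist (x i) (y i) ^ 2) c := by simp [Real.dist_eq]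
    _ ≤ ∑ i, dist (x i) (y i) ^ 2 :=
      Finset.single_le_sum (f := fun i => dist (x i) (y i) ^ 2) (fun i _ => by positivity)
        (Finset.mem_univ c)

theorem dist_sq_lt {x y : E3} {s : ℝ} (h : ∀ c, |x c - y c| < s) :
    dist x y ^ 2 < 3 * s ^ 2 := by
  rw [EuclideanSpace.dist_eq, Real.sq_sqrt (by positivity)]
  have h' : ∀ c, dist (x c) (y c) ^ 2 < s ^ 2 := by
    intro c
    rw [Real.dist_eq]
    have := h c
    have h0 := abs_nonneg (x c - y c)
    nlinarith
  rw [Fin.sum_univ_three]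
  have h0 := h' 0
  have h1 := h' 1
  have h2 := h' 2
  linarith

/-- integer label of the cube of side `1/r` containing `x` -/
noncomputable def lab (r : ℝ) (x : E3) : Fin 3 → ℤ := fun c => ⌊r * x c⌋

/-- symmetric integer window -/
noncomputable def win (m : ℕ) : Finset (Fin 3 → ℤ) := Fintype.piFinset fun _ => Finset.Icc (-(m : ℤ)) m

theorem card_win (m : ℕ) : ((win m).card : ℝ) = (2 * m + 1) ^ 3 := by
  unfold win
  rw [Fintype.card_piFinset]
  simp only [Int.card_Icc, Finset.prod_const, Finset.card_univ, Fintype.card_fin]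
  have : ((m : ℤ) + 1 - -(m : ℤ)).toNat = 2 * m + 1 := by omega
  rw [this]
  push_cast
  ring

theorem lab_sub_mem_win {r : ℝ} {x y : E3} {m : ℕ} (h : ∀ c, |r * x c - r * y c| < m) :
    lab r y - lab r x ∈ win m := by
  unfold win
  rw [Fintype.mem_piFinset]
  intro c
  rw [Finset.mem_Icc]
  have h1 := abs_lt.mp (h c)
  simp only [lab, Pi.sub_apply]
  have a1 := Int.floor_le (r * x c)
  have a2 := Int.lt_floor_add_one (r * x c)
  have b1 := Int.floor_le (r * y c)
  have b2 := Int.lt_floor_add_one (r * y c)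
  constructor
  · have : (-(m : ℝ)) - 1 < ((⌊r * y c⌋ - ⌊r * x c⌋ : ℤ) : ℝ) := by push_cast; linarith
    have h3 : (-(m : ℤ)) - 1 < ⌊r * y c⌋ - ⌊r * x c⌋ := by exact_mod_cast this
    omega
  · have : ((⌊r * y c⌋ - ⌊r * x c⌋ : ℤ) : ℝ) < (m : ℝ) + 1 := by push_cast; linarith
    have h3 : ⌊r * y c⌋ - ⌊r * x c⌋ < (m : ℤ) + 1 := by exact_mod_cast this
    omega

theorem lab_eq_abs_lt {k : ℝ} (hk : 0 < k) {x y : E3} (h : lab k x = lab k y) (c : Fin 3) :
    |x c - y c| < 1 / k := by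
  have h1 : ⌊k * x c⌋ = ⌊k * y c⌋ := congrFun h c
  have := Int.abs_sub_lt_one_of_floor_eq_floor h1
  rw [← mul_sub, abs_mul, abs_of_pos hk] at this
  rw [lt_div_iff₀ hk]
  linarith

/-- equal fine labels imply equal coarse labels -/
theorem lab_coarse {k l : ℕ} (hk : 0 < k) (hl : 0 < l) {x y : E3} (h : lab k x = lab k y) :
    lab (1 / (l : ℝ)) x = lab (1 / (l : ℝ)) y := by
  have hl' : (0 : ℝ) < l := by exact_mod_cast hl
  have hk' : (0 : ℝ) < k := by exact_mod_cast hk
  have key : ∀ (u w : ℝ), ⌊(k : ℝ) * u⌋ = ⌊(k : ℝ) * w⌋ → ⌊1 / (l : ℝ) * u⌋ ≤ ⌊1 / (l : ℝ) * w⌋ := by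
    intro u w huw
    rw [Int.le_floor]
    have h1 := Int.floor_le (1 / (l : ℝ) * u)
    set j := ⌊1 / (l : ℝ) * u⌋
    have h2 : (j : ℝ) * l ≤ u := by
      have : (j : ℝ) * l ≤ 1 / (l : ℝ) * u * l := by gcongr
      calc (j : ℝ) * l ≤ 1 / (l : ℝ) * u * l := this
        _ = u := by field_simp
    have h3 : ((k * (j * l) : ℤ) : ℝ) ≤ k * u := by
      push_cast
      gcongr
    have h4 : (k * (j * l) : ℤ) ≤ ⌊(k : ℝ) * u⌋ := Int.le_floor.mpr h3
    rw [huw] at h4
    have h5 : ((k * (j * l) : ℤ) : ℝ) ≤ (k : ℝ) * w := Int.le_floor.mp h4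
    push_cast at h5
    have h6 : (j : ℝ) * l ≤ w := le_of_mul_le_mul_left h5 hk'
    calc (j : ℝ) = 1 / (l : ℝ) * ((j : ℝ) * l) := by field_simp
      _ ≤ 1 / (l : ℝ) * w := by gcongr
  funext c
  have hc : ⌊(k : ℝ) * x c⌋ = ⌊(k : ℝ) * y c⌋ := congrFun h c
  exact le_antisymm (key _ _ hc) (key _ _ hc.symm)

/-! ### potentials -/

/-- ranges of the attractive tails -/
noncomputable def R (n : ℕ) : ℝ := 2 ^ (n + 4)

theorem R_pos (n : ℕ) : 0 < R n := by unfold R; positivity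

theorem R_mono {n m : ℕ} (h : n ≤ m) : R n ≤ R m := by
  unfold R
  exact pow_le_pow_right₀ (by norm_num) (by omega)

/-- repulsive core -/
noncomputable def core (r : ℝ) : ℝ := if r < 1 then (r⁻¹) ^ 6 else 0

/-- the `n`-th attractive tail -/
noncomputable def psi (n : ℕ) (r : ℝ) : ℝ := if r < R n then ((R n)⁻¹) ^ 3 else 0

/-- total attractive tail -/
noncomputable def Psi (a : ℕ → ℝ) (r : ℝ) : ℝ := ∑' n, a n * psi n r

/-- the pair potential -/
noncomputable def phi (a : ℕ → ℝ) (r : ℝ) : ℝ := core r - Psi a r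

theorem core_nonneg (r : ℝ) : 0 ≤ core r := by
  unfold core
  split_ifs
  · positivity
  · exact le_rfl

theorem psi_nonneg (n : ℕ) (r : ℝ) : 0 ≤ psi n r := by
  unfold psi
  split_ifs
  · have := R_pos n; positivity
  · exact le_rfl

theorem psi_le (n : ℕ) (r : ℝ) : psi n r ≤ ((R n)⁻¹) ^ 3 := by
  unfold psi
  split_ifs
  · exact le_rfl
  · have := R_pos n; positivity

theorem psi_le_one (n : ℕ) (r : ℝ) : psi n r ≤ 1 := by
  refine (psi_le n r).trans ?_
  apply pow_le_one₀ (by have := R_pos n; positivity)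
  apply inv_le_one_of_one_le₀
  unfold R
  exact one_le_pow₀ (by norm_num)

theorem summable_mul_psi {a : ℕ → ℝ} (ha0 : ∀ n, 0 ≤ a n) (ha : Summable a) (r : ℝ) :
    Summable (fun n => a n * psi n r) :=
  Summable.of_nonneg_of_le (fun n => mul_nonneg (ha0 n) (psi_nonneg n r))
    (fun n => mul_le_of_le_one_right (ha0 n) (psi_le_one n r)) ha

theorem Psi_nonneg {a : ℕ → ℝ} (ha0 : ∀ n, 0 ≤ a n) (r : ℝ) : 0 ≤ Psi a r :=
  tsum_nonneg fun n => mul_nonneg (ha0 n) (psi_nonneg n r)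

theorem Psi_le {a : ℕ → ℝ} (ha0 : ∀ n, 0 ≤ a n) (ha : Summable a) (r : ℝ) :
    Psi a r ≤ ∑' n, a n :=
  (summable_mul_psi ha0 ha r).tsum_le_tsum
    (fun n => mul_le_of_le_one_right (ha0 n) (psi_le_one n r)) ha

theorem measurable_core : Measurable core := by
  unfold core
  exact Measurable.ite (measurableSet_lt measurable_id measurable_const) (by fun_prop)
    measurable_const

theorem measurable_psi (n : ℕ) : Measurable (psi n) := by
  unfold psi
  exact Measurable.ite (measurableSet_lt measurable_id measurable_const) (by fun_prop)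
    measurable_const

theorem measurable_Psi (a : ℕ → ℝ) : Measurable (Psi a) := by
  unfold Psi
  exact Measurable.tsum fun n => (measurable_psi n).const_mul _

theorem measurable_phi (a : ℕ → ℝ) : Measurable (phi a) :=
  measurable_core.sub (measurable_Psi a)

theorem phi_nonpos {a : ℕ → ℝ} (ha0 : ∀ n, 0 ≤ a n) {r : ℝ} (hr : 1 ≤ r) : phi a r ≤ 0 := by
  unfold phi core
  rw [if_neg (not_lt.mpr hr)]
  have := Psi_nonneg ha0 r
  linarith

/-! ### double sums -/

variable {ι : Type*}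

/-- full double sum over a finset of particles -/
noncomputable def Sp (s : Finset ι) (w : E3 → E3 → ℝ) (x : ι → E3) : ℝ :=
  ∑ i ∈ s, ∑ j ∈ s, w (x i) (x j)

theorem Sp_psi_le (s : Finset ι) (x : ι → E3) {n k : ℕ} (hk : k ≤ n + 4) :
    Sp s (fun y z => psi n (dist y z)) x ≤
      27 * ((2 : ℝ) ^ k)⁻¹ ^ 3 * Dp s (fun i => lab (1 / (2 : ℝ) ^ k) (x i)) := by
  classical
  obtain ⟨j, hj⟩ := Nat.exists_eq_add_of_le hk
  set m : ℕ := 2 ^ j with hm
  have hRm : R n = m * 2 ^ k := by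
    unfold R
    rw [hj, hm]
    push_cast
    rw [pow_add]
    ring
  have hm1 : (1 : ℝ) ≤ m := by
    rw [hm]; push_cast; exact one_le_pow₀ (by norm_num)
  have h2k : (0 : ℝ) < 2 ^ k := by positivity
  have h1 : Sp s (fun y z => psi n (dist y z)) x =
      (R n)⁻¹ ^ 3 * ∑ i ∈ s, ∑ j ∈ s, if dist (x i) (x j) < R n then (1 : ℝ) else 0 := by
    unfold Sp psi
    simp_rw [Finset.mul_sum]
    apply Finset.sum_congr rfl; intro i _
    apply Finset.sum_congr rfl; intro j _
    simp only [mul_ite, mul_one, mul_zero]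
  have h2 := pairs_le s (fun i => lab (1 / (2 : ℝ) ^ k) (x i))
    (fun i j => dist (x i) (x j) < R n) (win m) (by
      intro i _ j _ hij
      apply lab_sub_mem_win
      intro c
      have h3 := abs_coord_le_dist (x i) (x j) c
      rw [← mul_sub, abs_mul, abs_of_pos (by positivity)]
      rw [hRm] at hij
      calc 1 / (2 : ℝ) ^ k * |x i c - x j c| ≤ 1 / (2 : ℝ) ^ k * dist (x i) (x j) := by gcongr
        _ < 1 / (2 : ℝ) ^ k * (m * 2 ^ k) := by gcongr
        _ = m := by field_simp)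
  rw [h1]
  have hD := Dp_nonneg s (fun i => lab (1 / (2 : ℝ) ^ k) (x i))
  have hRp := R_pos n
  calc (R n)⁻¹ ^ 3 * ∑ i ∈ s, ∑ j ∈ s, (if dist (x i) (x j) < R n then (1 : ℝ) else 0)
      ≤ (R n)⁻¹ ^ 3 * ((win m).card * Dp s (fun i => lab (1 / (2 : ℝ) ^ k) (x i))) := by gcongr
    _ ≤ (R n)⁻¹ ^ 3 * ((27 * m ^ 3) * Dp s (fun i => lab (1 / (2 : ℝ) ^ k) (x i))) := by
        gcongr
        rw [card_win]
        have h5 : (2 * (m : ℝ) + 1) ^ 3 ≤ (3 * (m : ℝ)) ^ 3 := by gcongr; linarith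
        have h6 : (3 * (m : ℝ)) ^ 3 = 27 * (m : ℝ) ^ 3 := by ring
        linarith
    _ = _ := by
        rw [hRm]
        have : (m : ℝ) ≠ 0 := by positivity
        field_simp

theorem Sp_Psi_le {a : ℕ → ℝ} (ha0 : ∀ n, 0 ≤ a n) (ha : Summable a) (s : Finset ι)
    (x : ι → E3) :
    Sp s (fun y z => Psi a (dist y z)) x ≤
      27 * (∑' n, a n) * Dp s (fun i => lab 1 (x i)) := by
  have h1 : Sp s (fun y z => Psi a (dist y z)) x =
      ∑' n, a n * Sp s (fun y z => psi n (dist y z)) x := by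
    unfold Sp Psi
    have hs : ∀ i j, Summable (fun n => a n * psi n (dist (x i) (x j))) :=
      fun i j => summable_mul_psi ha0 ha _
    have h0 : (fun n => a n * ∑ i ∈ s, ∑ j ∈ s, psi n (dist (x i) (x j))) =
        fun n => ∑ i ∈ s, ∑ j ∈ s, a n * psi n (dist (x i) (x j)) := by
      funext n
      simp_rw [Finset.mul_sum]
    rw [h0, Summable.tsum_finsetSum (fun i _ => summable_sum fun j _ => hs i j)]
    apply Finset.sum_congr rfl; intro i _
    rw [Summable.tsum_finsetSum (fun j _ => hs i j)]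
  have h2 : ∀ n, a n * Sp s (fun y z => psi n (dist y z)) x ≤
      a n * (27 * Dp s (fun i => lab 1 (x i))) := by
    intro n
    have := Sp_psi_le s x (n := n) (k := 0) (by omega)
    simp only [pow_zero, inv_one, one_pow, mul_one, div_one] at this
    exact mul_le_mul_of_nonneg_left this (ha0 n)
  have h3 : Summable fun n => a n * (27 * Dp s (fun i => lab 1 (x i))) := ha.mul_right _
  have h4 : ∀ n, 0 ≤ a n * Sp s (fun y z => psi n (dist y z)) x := fun n =>
    mul_nonneg (ha0 n) (Finset.sum_nonneg fun _ _ => Finset.sum_nonneg fun _ _ => psi_nonneg _ _)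
  rw [h1]
  calc ∑' n, a n * Sp s (fun y z => psi n (dist y z)) x
      ≤ ∑' n, a n * (27 * Dp s (fun i => lab 1 (x i))) :=
        (Summable.of_nonneg_of_le h4 h2 h3).tsum_le_tsum h2 h3
    _ = _ := by rw [tsum_mul_right]; ring

theorem Dp_lab_one_le (s : Finset ι) (x : ι → E3) {k : ℕ} (hk : 0 < k) :
    Dp s (fun i => lab 1 (x i)) ≤ (2 * k + 1) ^ 3 * Dp s (fun i => lab k (x i)) := by
  classical
  have hk' : (0 : ℝ) < k := by exact_mod_cast hk
  rw [← card_win]
  apply pairs_le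
  intro i _ j _ hij
  apply lab_sub_mem_win
  intro c
  have := lab_eq_abs_lt one_pos hij c
  rw [← mul_sub, abs_mul, abs_of_pos hk']
  calc (k : ℝ) * |x i c - x j c| < k * (1 / 1) := by gcongr
    _ = k := by ring

theorem core_ge {k : ℕ} (hk : 2 ≤ k) {x y : E3} (hxy : x ≠ y) (h : lab k x = lab k y) :
    (k : ℝ) ^ 6 / 27 ≤ core (dist x y) := by
  have hk' : (2 : ℝ) ≤ k := by exact_mod_cast hk
  have hk0 : (0 : ℝ) < k := by linarith
  have h1 := dist_sq_lt (fun c => lab_eq_abs_lt hk0 h c)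
  have hd : 0 < dist x y := dist_pos.mpr hxy
  have h2 : dist x y < 1 := by
    by_contra hcon
    push Not at hcon
    have h3 : (1 : ℝ) ≤ dist x y ^ 2 := one_le_pow₀ hcon
    have h4 : 3 * (1 / (k : ℝ)) ^ 2 ≤ 3 / 4 := by
      rw [div_pow, one_pow]
      rw [mul_one_div, div_le_div_iff₀ (by positivity) (by norm_num)]
      nlinarith
    linarith
  unfold core
  rw [if_pos h2]
  have h5 : dist x y ^ 2 * k ^ 2 < 3 := by
    have : dist x y ^ 2 * k ^ 2 < 3 * (1 / (k : ℝ)) ^ 2 * k ^ 2 := by gcongr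
    calc _ < 3 * (1 / (k : ℝ)) ^ 2 * k ^ 2 := this
      _ = 3 := by field_simp
  have h6 : (dist x y ^ 2 * k ^ 2) ^ 3 ≤ 3 ^ 3 := by gcongr
  rw [inv_pow, ← one_div, div_le_div_iff₀ (by norm_num) (by positivity)]
  nlinarith

end Vale.Agent.P171
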