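import Vale.Agent.P171.LPb

/-! Lebowitz–Penrose type upper bound. -/

namespace Vale.Agent.P171

open MeasureTheory Set Filter Topology
open scoped ENNReal NNReal Nat

theorem add_single_nonneg {a : ℕ → ℝ} (ha0 : ∀ n, 0 ≤ a n) (n : ℕ) {s : ℝ} (hs : 0 ≤ s) (k : ℕ) :
    0 ≤ (a + Pi.single n s : ℕ → ℝ) k := by
  rw [Pi.add_apply]
  by_cases h : k = n
  · subst h; rw [Pi.single_eq_same]; linarith [ha0 k]
  · rw [Pi.single_eq_of_ne h]; linarith [ha0 k]

theorem summable_add_single {a : ℕ → ℝ} (ha : Summable a) (n : ℕ) (s : ℝ) :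
    Summable (a + Pi.single n s) :=
  ha.add (hasSum_pi_single n s).summable

theorem Psi_add_single {a : ℕ → ℝ} (ha0 : ∀ n, 0 ≤ a n) (ha : Summable a) (n : ℕ) (s r : ℝ) :
    Psi (a + Pi.single n s) r = Psi a r + s * psi n r := by
  unfold Psi
  have h1 : ∀ k, (a + Pi.single n s : ℕ → ℝ) k * psi k r = a k * psi k r +
      (Pi.single n (s * psi n r) : ℕ → ℝ) k := by
    intro k
    rw [Pi.add_apply]
    by_cases h : k = n
    · subst h; rw [Pi.single_eq_same, Pi.single_eq_same]; ring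
    · rw [Pi.single_eq_of_ne h, Pi.single_eq_of_ne h]; ring
  simp_rw [h1]
  rw [(summable_mul_psi ha0 ha r).tsum_add (hasSum_pi_single n _).summable,
    (hasSum_pi_single n _).tsum_eq]

theorem holder_pointwise {e0 e1 e2 θ : ℝ}
    (h : e0 ≤ (1 - θ) * e1 + θ * e2) :
    ENNReal.ofReal (Real.exp e0) ≤
      ENNReal.ofReal (Real.exp e1) ^ (1 - θ) * ENNReal.ofReal (Real.exp e2) ^ θ := by
  rw [ENNReal.ofReal_rpow_of_pos (Real.exp_pos _), ENNReal.ofReal_rpow_of_pos (Real.exp_pos _),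
    ← Real.exp_mul, ← Real.exp_mul, ← ENNReal.ofReal_mul (Real.exp_pos _).le, ← Real.exp_add]
  apply ENNReal.ofReal_le_ofReal
  apply Real.exp_le_exp.mpr
  linarith

theorem energy_ineq {a : ℕ → ℝ} (ha0 : ∀ n, 0 ≤ a n) (ha : Summable a) {n k : ℕ}
    (hk : k ≤ n + 4) {s θ : ℝ} (hs : 0 ≤ s) (hθ0 : 0 < θ) (hθ1 : θ < 1) {l : ℕ}
    (hl : l = 2 ^ k) {N : ℕ} (x : Fin N → E3) :
    (1 - θ) * pE (vF a (27 * s / (1 - θ)) l) x + θ * pE (vG a l θ) x
      - 27 * s / (2 * (l : ℝ) ^ 3) * N ≤ pE (vv (a + Pi.single n s)) x := by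
  classical
  have hl2 : (l : ℝ) = 2 ^ k := by rw [hl]; push_cast; rfl
  have hl0 : (0 : ℝ) < l := by rw [hl2]; positivity
  have h1θ : 0 < 1 - θ := by linarith
  set V : ℝ := (l : ℝ) ^ 3 with hV
  have hV0 : 0 < V := by positivity
  obtain ⟨a', ha'⟩ : ∃ a' : ℕ → ℝ, a' = a + Pi.single n s := ⟨_, rfl⟩
  rw [← ha']
  rw [← pE_smul, ← pE_smul, ← pE_add]
  have h1 : pE (fun y z => (1 - θ) * vF a (27 * s / (1 - θ)) l y z + θ * vG a l θ y z) x ≤
      pE (fun y z => vv a' y z + (s * psi n (dist y z) -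
        27 * s / V * (if lab (1 / (l : ℝ)) y = lab (1 / (l : ℝ)) z then (1 : ℝ) else 0))) x := by
    apply pE_mono
    intro i j _
    unfold vF vG
    have e1 : vv a' (x i) (x j) = phi a (dist (x i) (x j)) -
        s * psi n (dist (x i) (x j)) := by
      rw [ha']
      unfold vv phi
      rw [Psi_add_single ha0 ha]
      ring
    rw [e1]
    by_cases hsame : lab (1 / (l : ℝ)) (x i) = lab (1 / (l : ℝ)) (x j)
    · rw [if_pos hsame, if_pos hsame, if_pos hsame]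
      unfold vv
      apply le_of_eq
      field_simp
      ring
    · rw [if_neg hsame, if_neg hsame, if_neg hsame]
      have hc := core_nonneg (dist (x i) (x j))
      have e2 : θ * -(θ⁻¹ * Psi a (dist (x i) (x j))) = -Psi a (dist (x i) (x j)) := by
        field_simp
      rw [e2]
      unfold phi
      linarith
  rw [pE_add (vv a') (fun y z => s * psi n (dist y z) -
        27 * s / V * (if lab (1 / (l : ℝ)) y = lab (1 / (l : ℝ)) z then (1 : ℝ) else 0)),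
    pE_sub, pE_smul, pE_smul] at h1
  have h2 : pE (fun y z => psi n (dist y z)) x ≤
      27 / (2 * V) * Dp Finset.univ (fun i => lab (1 / (l : ℝ)) (x i)) := by
    have h3 := pE_le_half_Sp (w := fun y z => psi n (dist y z)) x (fun i => psi_nonneg _ _)
    have h4 := Sp_psi_le (Finset.univ : Finset (Fin N)) x hk
    rw [← hl2] at h4
    calc _ ≤ _ := h3
      _ ≤ 1 / 2 * (27 * ((l : ℝ)⁻¹ ^ 3) *
          Dp Finset.univ (fun i => lab (1 / (l : ℝ)) (x i))) := by gcongr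
      _ = _ := by rw [hV]; field_simp
  have h5 : pE (fun y z => if lab (1 / (l : ℝ)) y = lab (1 / (l : ℝ)) z then (1 : ℝ) else 0) x =
      1 / 2 * (Dp Finset.univ (fun i => lab (1 / (l : ℝ)) (x i)) - N) := by
    have h6 := half_label_le (Finset.univ : Finset (Fin N))
      (fun i => lab (1 / (l : ℝ)) (x i)) (K := 1)
    unfold pE
    congr 1
    simp only [one_mul, Finset.card_univ, Fintype.card_fin] at h6
    exact h6
  rw [h5] at h1
  have h7 : s * pE (fun y z => psi n (dist y z)) x ≤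
      s * (27 / (2 * V) * Dp Finset.univ (fun i => lab (1 / (l : ℝ)) (x i))) := by gcongr
  have h8 : 27 * s / V * (1 / 2 * (Dp Finset.univ (fun i => lab (1 / (l : ℝ)) (x i)) - N)) =
      s * (27 / (2 * V) * Dp Finset.univ (fun i => lab (1 / (l : ℝ)) (x i)))
      - 27 * s / (2 * V) * N := by
    field_simp
  linarith

theorem XL_holder {a : ℕ → ℝ} (ha0 : ∀ n, 0 ≤ a n) (ha : Summable a) {n k : ℕ}
    (hk : k ≤ n + 4) {s θ : ℝ} (hs : 0 ≤ s) (hθ0 : 0 < θ) (hθ1 : θ < 1) {l : ℕ}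
    (hl : l = 2 ^ k) (μ : ℝ) (L : ℝ) :
    XL L μ (a + Pi.single n s) ≤
      Xi (act (μ + 27 * s / (1 - θ) / (2 * (l : ℝ) ^ 3)) (box L))
        (vF a (27 * s / (1 - θ)) l) ^ (1 - θ) *
      Xi (act μ (box L)) (vG a l θ) ^ θ := by
  have h1θ : 0 < 1 - θ := by linarith
  have hl2 : (l : ℝ) = 2 ^ k := by rw [hl]; push_cast; rfl
  have hl0 : (0 : ℝ) < l := by rw [hl2]; positivity
  unfold XL Xi
  refine le_trans ?_ (T_holder
    (fun N => measurable_W (measurable_act _ (measurableSet_box L)) (measurable_vF _ _ _))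
    (fun N => measurable_W (measurable_act _ (measurableSet_box L)) (measurable_vG _ _ _))
    h1θ.le hθ0.le (by ring))
  apply T_mono
  intro N x
  rw [W_act, W_act, W_act, Fintype.card_fin]
  by_cases hbox : ∀ i, x i ∈ box L
  · have h1 : ∏ i, (box L).indicator (fun _ => (1 : ℝ≥0∞)) (x i) = 1 := by
      apply Finset.prod_eq_one
      intro i _
      rw [indicator_of_mem (hbox i)]
    rw [h1, one_mul, one_mul, one_mul]
    apply holder_pointwise
    have h2 := energy_ineq ha0 ha hk hs hθ0 hθ1 hl x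
    have h3 : (1 - θ) * ((μ + 27 * s / (1 - θ) / (2 * (l : ℝ) ^ 3)) * N) =
        (1 - θ) * μ * N + 27 * s / (2 * (l : ℝ) ^ 3) * N := by
      field_simp
    rw [mul_sub, h3]
    linarith
  · push Not at hbox
    obtain ⟨i, hi⟩ := hbox
    rw [Finset.prod_eq_zero (Finset.mem_univ i) (indicator_of_notMem hi _), zero_mul]
    exact zero_le

/-- the finite-cell upper bound for the pressure -/
theorem P_le_cell {a : ℕ → ℝ} (ha0 : ∀ n, 0 ≤ a n) (ha : Summable a) {μ ρ δ₀ : ℝ}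
    (hp : 0 < P μ a) (hδpos : 0 < δ₀)
    (hloc : ∀ u, 0 ≤ u → u ≤ δ₀ → P (μ + u) a ≤ P μ a + ρ * u)
    {B : ℝ} (hB : ∀ (N : ℕ) (x : Fin N → E3), Function.Injective x →
      54 * Dp Finset.univ (fun i => lab 1 (x i)) - B * N ≤ pE (vv a) x)
    {n k : ℕ} (hk : k ≤ n + 4) {s θ : ℝ} (hs : 0 < s) (hθ0 : 0 < θ) (hθ1 : θ < 1)
    (ht2 : 27 * s / (1 - θ) ≤ 2)
    (hY : μ + B - Real.log (P μ a) ≤ δ₀ / (27 * s / (1 - θ)))
    {m : ℕ} (hm : ∑' n, tailc m a n ≤ θ) (hlR : R m ≤ (2 : ℝ) ^ k) {k0 k1 : ℕ}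
    (hk0 : 2 ≤ k0) (hk1 : 2 ≤ k1)
    (h0 : 81 / 2 * (∑' n, a n + 1) ≤ (k0 : ℝ) ^ 3 / 1458)
    (h1 : 81 / 2 * (∑' n, a n + 1) + 27 / 2 * θ⁻¹ * ∑' n, a n ≤ (k1 : ℝ) ^ 3 / 1458) :
    P μ (a + Pi.single n s) ≤
      (1 - θ) * ((Real.log (δ₀ / (27 * s / (1 - θ)) * ((2 : ℝ) ^ k) ^ 3 + 2) +
        (((2 : ℝ) ^ k + 3) ^ 3 * P μ a + 27 * s / (1 - θ) *
          (((2 : ℝ) ^ k + 3) ^ 3 / ((2 : ℝ) ^ k) ^ 3 * ρ) ^ 2 / 2 * ((2 : ℝ) ^ k) ^ 3)) /
          ((2 : ℝ) ^ k) ^ 3) +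
      θ * (Real.exp (μ + (k0 : ℝ) ^ 6 / 54) +
        Real.exp (μ + (k1 : ℝ) ^ 6 / 54) * (12 * R m / (2 : ℝ) ^ k)) := by
  have h1θ : 0 < 1 - θ := by linarith
  set l : ℕ := 2 ^ k with hl
  have hl2 : (2 : ℝ) ^ k = l := by rw [hl]; push_cast; rfl
  rw [hl2] at hlR ⊢
  have hl0 : (0 : ℝ) < l := by rw [← hl2]; positivity
  have hl0' : 0 < l := by exact_mod_cast hl0
  set t := 27 * s / (1 - θ) with ht
  have ht0 : 0 < t := by positivity
  set V : ℝ := (l : ℝ) ^ 3 with hV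
  have hV0 : 0 < V := by positivity
  set C1 : ℝ := ((l : ℝ) + 3) ^ 3 * P μ a + t * (((l : ℝ) + 3) ^ 3 / V * ρ) ^ 2 / 2 * V with hC1
  set C2 : ℝ := Real.exp (μ + (k0 : ℝ) ^ 6 / 54) +
        Real.exp (μ + (k1 : ℝ) ^ 6 / 54) * (12 * R m / l) with hC2
  have hYV : 0 < δ₀ / t * V + 2 := by positivity
  have ha0' := add_single_nonneg ha0 n hs.le
  have ha' := summable_add_single ha n s
  have hXMF : XMF t l μ a ≤ ENNReal.ofReal (Real.exp (Real.log (δ₀ / t * V + 2) + C1)) := by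
    rw [Real.exp_add, Real.exp_log hYV]
    exact XMF_le ha0 ha hp hδpos hloc hB ht0 ht2 hY hl0'
  -- bound at finite volume
  have hfin : ∀ M : ℕ, 0 < M → pL (M * l) μ (a + Pi.single n s) / ((M : ℝ) * l) ^ 3 ≤
      (1 - θ) * ((Real.log (δ₀ / t * V + 2) + C1) / V) + θ * C2 := by
    intro M hM
    have hM' : (0 : ℝ) < M := by exact_mod_cast hM
    rw [div_le_iff₀ (by positivity)]
    apply pL_le_of_XL_le ha0' ha'
    refine (XL_holder ha0 ha hk hs.le hθ0 hθ1 hl μ (M * l)).trans ?_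
    rw [← ht]
    have hF : Xi (act (μ + t / (2 * (l : ℝ) ^ 3)) (box (M * l))) (vF a t l) ≤
        ENNReal.ofReal (Real.exp ((M : ℝ) ^ 3 * (Real.log (δ₀ / t * V + 2) + C1))) := by
      refine (Xi_F_le a t hl0' μ M).trans ?_
      calc XMF t l μ a ^ (M ^ 3) ≤
          ENNReal.ofReal (Real.exp (Real.log (δ₀ / t * V + 2) + C1)) ^ (M ^ 3) := by gcongr
        _ = _ := by
          rw [← ENNReal.ofReal_pow (Real.exp_pos _).le, ← Real.exp_nat_mul]
          push_cast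
          rfl
    have hG := Xi_G_le ha0 ha hθ0 hm hl0' hlR hk0 hk1 h0 h1 μ hM
    calc _ ≤ ENNReal.ofReal (Real.exp ((M : ℝ) ^ 3 * (Real.log (δ₀ / t * V + 2) + C1))) ^ (1 - θ) *
          ENNReal.ofReal (Real.exp (C2 * (M * l) ^ 3)) ^ θ := by
          gcongr
      _ = ENNReal.ofReal (Real.exp (((1 - θ) * ((Real.log (δ₀ / t * V + 2) + C1) / V) + θ * C2) *
            ((M : ℝ) * l) ^ 3)) := by
          rw [ENNReal.ofReal_rpow_of_pos (Real.exp_pos _),
            ENNReal.ofReal_rpow_of_pos (Real.exp_pos _),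
            ← Real.exp_mul, ← Real.exp_mul, ← ENNReal.ofReal_mul (Real.exp_pos _).le,
            ← Real.exp_add]
          congr 2
          rw [hV]
          field_simp
  have hlim : Tendsto (fun M : ℕ => pL ((M : ℝ) * l) μ (a + Pi.single n s) /
      ((M : ℝ) * l) ^ 3) atTop (𝓝 (P μ (a + Pi.single n s))) :=
    (tendsto_pL ha0' ha' μ).comp (tendsto_natCast_atTop_atTop.atTop_mul_const hl0)
  exact le_of_tendsto hlim (by
    filter_upwards [eventually_gt_atTop 0] with M hM using hfin M hM)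

end Vale.Agent.P171
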