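import Vale.Agent.P171.Pressure

/-! Energy estimate for the decoupling error (deterministic part of the upper bound). -/

namespace Vale.Agent.P171

open MeasureTheory Set Filter Topology
open scoped ENNReal NNReal Nat

/-- points close to the boundary of their cell -/
def bd (l r : ℝ) (x : E3) : Prop := ∃ c : Fin 3, ∃ j : ℤ, |x c - j * l| < r

theorem cross_bd {l r : ℝ} (hl : 0 < l) {x y : E3} (h : lab (1 / l) x ≠ lab (1 / l) y)
    (hd : dist x y < r) : bd l r x ∧ bd l r y := by
  obtain ⟨c, hc⟩ := Function.ne_iff.mp h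
  have hxy := abs_coord_le_dist x y c
  have key : ∀ (u w : ℝ), ⌊1 / l * u⌋ < ⌊1 / l * w⌋ → |u - w| < r →
      |u - (⌊1 / l * w⌋ : ℤ) * l| < r ∧ |w - (⌊1 / l * w⌋ : ℤ) * l| < r := by
    intro u w huw hlt
    have h1 : 1 / l * u < ⌊1 / l * w⌋ := Int.floor_lt.mp huw
    have h2 := Int.floor_le (1 / l * w)
    set j := ⌊1 / l * w⌋
    have h3 : u < j * l := by
      have : 1 / l * u * l < j * l := by gcongr
      calc u = 1 / l * u * l := by field_simp
        _ < _ := this
    have h4 : (j : ℝ) * l ≤ w := by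
      have : (j : ℝ) * l ≤ 1 / l * w * l := by gcongr
      calc (j : ℝ) * l ≤ 1 / l * w * l := this
        _ = w := by field_simp
    rw [abs_lt] at hlt ⊢
    rw [abs_lt]
    refine ⟨⟨?_, ?_⟩, ⟨?_, ?_⟩⟩ <;> linarith
  have hlt : |x c - y c| < r := hxy.trans_lt hd
  rcases lt_or_gt_of_ne hc with h1 | h1
  · have := key _ _ h1 hlt
    exact ⟨⟨c, _, this.1⟩, ⟨c, _, this.2⟩⟩
  · have := key _ _ h1 (by rwa [abs_sub_comm])
    exact ⟨⟨c, _, this.2⟩, ⟨c, _, this.1⟩⟩

/-- error potential -/
noncomputable def vG (a : ℕ → ℝ) (l θ : ℝ) (x y : E3) : ℝ :=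
  open Classical in
  if lab (1 / l) x = lab (1 / l) y then phi a (dist x y) else -(θ⁻¹ * Psi a (dist x y))

/-- tail of a coefficient sequence -/
def tailc (m : ℕ) (a : ℕ → ℝ) : ℕ → ℝ := fun n => if n < m then 0 else a n

theorem tailc_nonneg {a : ℕ → ℝ} (ha0 : ∀ n, 0 ≤ a n) (m n : ℕ) : 0 ≤ tailc m a n := by
  unfold tailc
  split_ifs
  · exact le_rfl
  · exact ha0 n

theorem tailc_le {a : ℕ → ℝ} (ha0 : ∀ n, 0 ≤ a n) (m n : ℕ) : tailc m a n ≤ a n := by
  unfold tailc
  split_ifs
  · exact ha0 n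
  · exact le_rfl

theorem summable_tailc {a : ℕ → ℝ} (ha0 : ∀ n, 0 ≤ a n) (ha : Summable a) (m : ℕ) :
    Summable (tailc m a) :=
  Summable.of_nonneg_of_le (tailc_nonneg ha0 m) (tailc_le ha0 m) ha

theorem tendsto_tailc {a : ℕ → ℝ} (ha : Summable a) :
    Tendsto (fun m => ∑' n, tailc m a n) atTop (𝓝 0) := by
  have h1 : ∀ m, ∑' n, tailc m a n = ∑' n, a (n + m) := by
    intro m
    have hs : Summable (tailc m a) := by
      apply (summable_nat_add_iff m).mp
      have : (fun n => tailc m a (n + m)) = fun n => a (n + m) := by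
        funext n
        unfold tailc
        rw [if_neg (by omega)]
      rw [this]
      exact (summable_nat_add_iff m).mpr ha
    rw [← hs.sum_add_tsum_nat_add m]
    have h2 : ∑ i ∈ Finset.range m, tailc m a i = 0 := by
      apply Finset.sum_eq_zero
      intro i hi
      unfold tailc
      rw [if_pos (Finset.mem_range.mp hi)]
    rw [h2, zero_add]
    congr 1
    funext n
    unfold tailc
    rw [if_neg (by omega)]
  simp_rw [h1]
  exact tendsto_sum_nat_add a

theorem Psi_eq_tail {a : ℕ → ℝ} {m : ℕ} {r : ℝ} (hr : R m ≤ r) : Psi a r = Psi (tailc m a) r := by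
  unfold Psi
  congr 1
  funext n
  unfold tailc
  split_ifs with h
  · unfold psi
    rw [if_neg (not_lt.mpr ((R_mono h.le).trans hr))]
    ring
  · rfl

section sets

variable {ι : Type*} [Fintype ι] [DecidableEq ι]

theorem two_blocks_le {F : ι → ι → ℝ} (hF : ∀ i j, 0 ≤ F i j) {s t : Finset ι}
    (hst : Disjoint s t) :
    (∑ i ∈ s, ∑ j ∈ s, F i j) + (∑ i ∈ t, ∑ j ∈ t, F i j) ≤ ∑ i, ∑ j, F i j := by
  calc (∑ i ∈ s, ∑ j ∈ s, F i j) + (∑ i ∈ t, ∑ j ∈ t, F i j)
      ≤ (∑ i ∈ s, ∑ j, F i j) + (∑ i ∈ t, ∑ j, F i j) := by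
        exact add_le_add
          (Finset.sum_le_sum fun i _ => Finset.sum_le_sum_of_subset_of_nonneg
            (Finset.subset_univ _) (fun j _ _ => hF i j))
          (Finset.sum_le_sum fun i _ => Finset.sum_le_sum_of_subset_of_nonneg
            (Finset.subset_univ _) (fun j _ _ => hF i j))
    _ = ∑ i ∈ s ∪ t, ∑ j, F i j := (Finset.sum_union hst).symm
    _ ≤ ∑ i, ∑ j, F i j := Finset.sum_le_sum_of_subset_of_nonneg (Finset.subset_univ _)
            (fun i _ _ => Finset.sum_nonneg fun j _ => hF i j)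

omit [DecidableEq ι] in
theorem Dp_split_le {κ : Type*} [AddCommGroup κ] [DecidableEq κ] (f : ι → κ) (b : ι → Prop)
    [DecidablePred b] :
    Dp Finset.univ f ≤ 3 * (Dp (Finset.univ.filter b) f +
      Dp (Finset.univ.filter fun i => ¬ b i) f) := by
  let W : Finset (κ × ℤ) := ({0} : Finset κ) ×ˢ Finset.Icc (-1) 1
  have hW : (W.card : ℝ) = 3 := by
    simp only [W, Finset.card_product, Finset.card_singleton, one_mul]
    have : (Finset.Icc (-1 : ℤ) 1).card = 3 := by decide
    rw [this]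
    norm_num
  have h1 := pairs_le (Finset.univ : Finset ι) (fun i => (f i, if b i then (1 : ℤ) else 0))
    (fun i j => f i = f j) W (by
      intro i _ j _ hij
      simp only [W, Finset.mem_product, Prod.fst_sub, Prod.snd_sub, Finset.mem_singleton]
      refine ⟨by rw [hij, sub_self], ?_⟩
      rw [Finset.mem_Icc]
      split_ifs <;> norm_num)
  rw [hW] at h1
  have h2 : Dp Finset.univ (fun i => (f i, if b i then (1 : ℤ) else 0)) =
      Dp (Finset.univ.filter b) f + Dp (Finset.univ.filter fun i => ¬ b i) f := by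
    unfold Dp
    rw [Finset.sum_filter, Finset.sum_filter, ← Finset.sum_add_distrib]
    apply Finset.sum_congr rfl; intro i _
    by_cases hb : b i
    · simp only [hb, if_true, not_true, if_false, add_zero]
      rw [Finset.sum_filter]
      apply Finset.sum_congr rfl; intro j _
      by_cases hj : b j
      · simp [hj]
      · simp [hj]
    · simp only [hb, if_false, not_false_eq_true, if_true, zero_add]
      rw [Finset.sum_filter]
      apply Finset.sum_congr rfl; intro j _
      by_cases hj : b j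
      · simp [hj]
      · simp [hj]
  rw [h2] at h1
  exact h1

end sets

/-- the key deterministic estimate for the error potential -/
theorem vG_bound {a : ℕ → ℝ} (ha0 : ∀ n, 0 ≤ a n) (ha : Summable a) {θ : ℝ} (hθ : 0 < θ)
    {m : ℕ} (hm : ∑' n, tailc m a n ≤ θ) {l : ℕ} (hl : 0 < l) {k0 k1 : ℕ} (hk0 : 2 ≤ k0)
    (hk1 : 2 ≤ k1)
    (h0 : 81 / 2 * (∑' n, a n + 1) ≤ (k0 : ℝ) ^ 3 / 1458)
    (h1 : 81 / 2 * (∑' n, a n + 1) + 27 / 2 * θ⁻¹ * ∑' n, a n ≤ (k1 : ℝ) ^ 3 / 1458)
    {N : ℕ} {x : Fin N → E3} (hx : Function.Injective x) :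
    open Classical in
    -(pE (vG a l θ) x) ≤
      ∑ i, if bd l (R m) (x i) then (k1 : ℝ) ^ 6 / 54 else (k0 : ℝ) ^ 6 / 54 := by
  classical
  set A := ∑' n, a n with hA
  set sb := Finset.univ.filter fun i => bd l (R m) (x i) with hsb
  set sn := Finset.univ.filter fun i => ¬ bd l (R m) (x i) with hsn
  set D := Dp Finset.univ (fun i => lab 1 (x i)) with hD
  set Db := Dp sb (fun i => lab 1 (x i)) with hDb
  set Dn := Dp sn (fun i => lab 1 (x i)) with hDn
  have hl' : (0 : ℝ) < l := by exact_mod_cast hl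
  have hA0 : 0 ≤ A := tsum_nonneg ha0
  have hDb0 : 0 ≤ Db := Dp_nonneg _ _
  have hDn0 : 0 ≤ Dn := Dp_nonneg _ _
  have hD0 : 0 ≤ D := Dp_nonneg _ _
  have hDle : D ≤ 3 * (Db + Dn) := Dp_split_le (fun i => lab 1 (x i)) (fun i => bd l (R m) (x i))
  -- upper bound of the attraction
  let Lb : E3 → E3 → Prop := fun y z => lab (1 / (l : ℝ)) y = lab (1 / (l : ℝ)) z
  have e1 : pE (fun y z => Psi a (dist y z)) x ≤ 27 / 2 * A * D := pE_Psi_le ha0 ha x
  have e2 : pE (fun y z => Psi (tailc m a) (dist y z)) x ≤ 27 / 2 * θ * D := by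
    refine (pE_Psi_le (tailc_nonneg ha0 m) (summable_tailc ha0 ha m) x).trans ?_
    gcongr
  have e3 : pE (fun y z => if bd l (R m) y ∧ bd l (R m) z then Psi a (dist y z) else 0) x ≤
      27 / 2 * A * Db := by
    have h2 := pE_le_half_Sp
      (w := fun y z => if bd l (R m) y ∧ bd l (R m) z then Psi a (dist y z) else 0) x
      (fun i => by
        split_ifs
        · exact Psi_nonneg ha0 _
        · exact le_rfl)
    have h3 : Sp Finset.univ
        (fun y z => if bd l (R m) y ∧ bd l (R m) z then Psi a (dist y z) else 0) x =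
        Sp sb (fun y z => Psi a (dist y z)) x := by
      unfold Sp
      rw [hsb, Finset.sum_filter]
      apply Finset.sum_congr rfl; intro i _
      by_cases hb : bd l (R m) (x i)
      · simp only [hb, true_and, if_true]
        rw [Finset.sum_filter]
      · simp [hb]
    have h4 := Sp_Psi_le ha0 ha sb x
    rw [h3] at h2
    linarith
  -- pointwise comparison
  have e4 : -(pE (vG a l θ) x) ≤
      -(pE (fun y z => if Lb y z then core (dist y z) else 0) x) +
      (pE (fun y z => Psi a (dist y z)) x + θ⁻¹ *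
        (pE (fun y z => if bd l (R m) y ∧ bd l (R m) z then Psi a (dist y z) else 0) x +
          pE (fun y z => Psi (tailc m a) (dist y z)) x)) := by
    rw [← pE_add, ← pE_smul, ← pE_add]
    rw [neg_add_eq_sub, ← pE_sub, ← sub_nonneg, sub_neg_eq_add, ← pE_add]
    apply pE_nonneg
    intro i j _
    have hθi : 0 < θ⁻¹ := inv_pos.mpr hθ
    have p1 := Psi_nonneg ha0 (dist (x i) (x j))
    have p2 := Psi_nonneg (tailc_nonneg ha0 m) (dist (x i) (x j))
    have p3 : (0 : ℝ) ≤ if bd l (R m) (x i) ∧ bd l (R m) (x j) then Psi a (dist (x i) (x j)) else 0 := by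
      split_ifs
      · exact p1
      · exact le_rfl
    unfold vG phi
    by_cases hs : lab (1 / (l : ℝ)) (x i) = lab (1 / (l : ℝ)) (x j)
    · have hs' : Lb (x i) (x j) := hs
      rw [if_pos hs', if_pos hs]
      have : 0 ≤ θ⁻¹ * ((if bd l (R m) (x i) ∧ bd l (R m) (x j) then Psi a (dist (x i) (x j)) else 0) +
        Psi (tailc m a) (dist (x i) (x j))) := by positivity
      linarith
    · have hs' : ¬ Lb (x i) (x j) := hs
      rw [if_neg hs', if_neg hs]
      have key : Psi a (dist (x i) (x j)) ≤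
          (if bd l (R m) (x i) ∧ bd l (R m) (x j) then Psi a (dist (x i) (x j)) else 0) +
        Psi (tailc m a) (dist (x i) (x j)) := by
        by_cases hd : dist (x i) (x j) < R m
        · rw [if_pos (cross_bd hl' hs hd)]
          linarith
        · rw [← Psi_eq_tail (a := a) (not_lt.mp hd)]
          linarith
      have := mul_le_mul_of_nonneg_left key hθi.le
      linarith
  -- lower bound of the core energy
  have e5 : (1 / 2) * ((k1 : ℝ) ^ 6 / 27 * (Dp sb (fun i => lab k1 (x i)) - sb.card) +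
      (k0 : ℝ) ^ 6 / 27 * (Dp sn (fun i => lab k0 (x i)) - sn.card)) ≤
      pE (fun y z => if Lb y z then core (dist y z) else 0) x := by
    rw [← half_label_le, ← half_label_le]
    unfold pE
    gcongr
    have hdisj : Disjoint sb sn := by
      rw [hsb, hsn]
      exact Finset.disjoint_filter_filter_not _ _ _
    refine le_trans ?_ (two_blocks_le (F := fun i j =>
      if i = j then 0 else if Lb (x i) (x j) then core (dist (x i) (x j)) else 0) ?_ hdisj)
    · have aux : ∀ (k : ℕ), 2 ≤ k → ∀ i j : Fin N,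
          (if i = j then 0 else (k : ℝ) ^ 6 / 27 *
            (if lab k (x i) = lab k (x j) then (1 : ℝ) else 0)) ≤
          (if i = j then 0 else if Lb (x i) (x j) then core (dist (x i) (x j)) else 0) := by
        intro k hk i j
        split_ifs with c1 c2 c3 c3
        · exact le_rfl
        · rw [mul_one]; exact core_ge hk (fun h => c1 (hx h)) c2
        · exact absurd (lab_coarse (by omega) hl c2) c3
        · rw [mul_zero]; exact core_nonneg _
        · simp
      gcongr with i _ j _ i _ j _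
      · exact aux k1 hk1 i j
      · exact aux k0 hk0 i j
    · intro i j
      split_ifs
      · exact le_rfl
      · exact core_nonneg _
      · exact le_rfl
  have e6 := Dp_lab_k_ge sb x (k := k1) (by omega)
  have e7 := Dp_lab_k_ge sn x (k := k0) (by omega)
  have hk0' : (0 : ℝ) < k0 := by exact_mod_cast (by omega : 0 < k0)
  have hk1' : (0 : ℝ) < k1 := by exact_mod_cast (by omega : 0 < k1)
  have e8 : (k1 : ℝ) ^ 3 / 1458 * Db ≤ (k1 : ℝ) ^ 6 / 54 * Dp sb (fun i => lab k1 (x i)) := by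
    calc (k1 : ℝ) ^ 3 / 1458 * Db = (k1 : ℝ) ^ 6 / 54 * (Db / (27 * k1 ^ 3)) := by
          field_simp; ring
      _ ≤ _ := by gcongr
  have e9 : (k0 : ℝ) ^ 3 / 1458 * Dn ≤ (k0 : ℝ) ^ 6 / 54 * Dp sn (fun i => lab k0 (x i)) := by
    calc (k0 : ℝ) ^ 3 / 1458 * Dn = (k0 : ℝ) ^ 6 / 54 * (Dn / (27 * k0 ^ 3)) := by
          field_simp; ring
      _ ≤ _ := by gcongr
  have e10 : ∑ i, (if bd l (R m) (x i) then (k1 : ℝ) ^ 6 / 54 else (k0 : ℝ) ^ 6 / 54) =
      (k1 : ℝ) ^ 6 / 54 * sb.card + (k0 : ℝ) ^ 6 / 54 * sn.card := by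
    rw [Finset.sum_ite, Finset.sum_const, Finset.sum_const, nsmul_eq_mul, nsmul_eq_mul]
    ring
  rw [e10]
  have hθi : 0 < θ⁻¹ := inv_pos.mpr hθ
  have e11 : θ⁻¹ * (27 / 2 * θ * D) = 27 / 2 * D := by field_simp
  have e12 : θ⁻¹ * (pE (fun y z => if bd l (R m) y ∧ bd l (R m) z then Psi a (dist y z) else 0) x +
          pE (fun y z => Psi (tailc m a) (dist y z)) x) ≤ 27 / 2 * θ⁻¹ * A * Db + 27 / 2 * D := by
    calc _ ≤ θ⁻¹ * (27 / 2 * A * Db + 27 / 2 * θ * D) := by gcongr
      _ = _ := by rw [mul_add, e11]; ring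
  have e13 : 27 / 2 * (A + 1) * D ≤ 81 / 2 * (A + 1) * (Db + Dn) := by
    calc 27 / 2 * (A + 1) * D ≤ 27 / 2 * (A + 1) * (3 * (Db + Dn)) := by gcongr
      _ = _ := by ring
  have e14 := mul_le_mul_of_nonneg_right h1 hDb0
  have e15 := mul_le_mul_of_nonneg_right h0 hDn0
  linarith

end Vale.Agent.P171
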