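import Vale.Agent.P171.MF

/-! Decoupling of cells: the upper bound at fixed cell size. -/

namespace Vale.Agent.P171

open MeasureTheory Set Filter Topology
open scoped ENNReal NNReal Nat

/-- decoupled cell potential -/
noncomputable def vF (a : ℕ → ℝ) (t : ℝ) (l : ℕ) (x y : E3) : ℝ :=
  open Classical in
  if lab (1 / (l : ℝ)) x = lab (1 / (l : ℝ)) y then vv a x y - t / (l : ℝ) ^ 3 else 0

theorem measurableSet_same (r : ℝ) : MeasurableSet {p : E3 × E3 | lab r p.1 = lab r p.2} :=
  measurableSet_eq_fun ((measurable_lab r).comp measurable_fst)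
    ((measurable_lab r).comp measurable_snd)

theorem measurable_vF (a : ℕ → ℝ) (t : ℝ) (l : ℕ) : Measurable (Function.uncurry (vF a t l)) := by
  classical
  have : Function.uncurry (vF a t l) = fun p : E3 × E3 =>
      if lab (1 / (l : ℝ)) p.1 = lab (1 / (l : ℝ)) p.2 then
        Function.uncurry (vv a) p - t / (l : ℝ) ^ 3 else 0 := by
    funext p
    simp [Function.uncurry, vF]
  rw [this]
  exact Measurable.ite (measurableSet_same _) ((measurable_vv a).sub_const _) measurable_const

theorem measurable_vG (a : ℕ → ℝ) (l θ : ℝ) : Measurable (Function.uncurry (vG a l θ)) := by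
  classical
  have : Function.uncurry (vG a l θ) = fun p : E3 × E3 =>
      if lab (1 / l) p.1 = lab (1 / l) p.2 then
        Function.uncurry (vv a) p else
        -(θ⁻¹ * Function.uncurry (fun x y : E3 => Psi a (dist x y)) p) := by
    funext p
    simp [Function.uncurry, vG, vv]
  rw [this]
  exact Measurable.ite (measurableSet_same _) (measurable_vv a)
    (((measurable_comp_dist (measurable_Psi a)).const_mul _).neg)

theorem lab_sbox {l : ℕ} (hl : 0 < l) {j : Fin 3 → ℕ} {x : E3} (hx : x ∈ sbox (tv l j) l) :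
    lab (1 / (l : ℝ)) x = fun c => (j c : ℤ) := by
  have hl' : (0 : ℝ) < l := by exact_mod_cast hl
  funext c
  have h := hx c
  rw [tv_apply, mem_Ico] at h
  unfold lab
  rw [Int.floor_eq_iff]
  constructor
  · push_cast
    rw [one_div, inv_mul_eq_div, le_div_iff₀ hl']
    linarith
  · push_cast
    rw [one_div, inv_mul_eq_div, div_lt_iff₀ hl']
    linarith

theorem lab_add_tv {l : ℕ} (hl : 0 < l) (j : Fin 3 → ℕ) (x : E3) :
    lab (1 / (l : ℝ)) (x + tv l j) = lab (1 / (l : ℝ)) x + fun c => (j c : ℤ) := by
  have hl' : (0 : ℝ) < l := by exact_mod_cast hl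
  funext c
  unfold lab
  simp only [PiLp.add_apply, Pi.add_apply, tv_apply]
  rw [← Int.floor_add_intCast]
  congr 1
  push_cast
  field_simp

theorem vF_translate (a : ℕ → ℝ) (t : ℝ) {l : ℕ} (hl : 0 < l) (j : Fin 3 → ℕ) (x y : E3) :
    vF a t l (x + tv l j) (y + tv l j) = vF a t l x y := by
  unfold vF
  rw [lab_add_tv hl, lab_add_tv hl, vv_translate]
  simp only [add_left_inj]

theorem box_eq_sbox (l : ℝ) : box l = sbox (tv l 0) l := by
  unfold box sbox
  ext x
  simp [tv_apply]

theorem Xi_F_le (a : ℕ → ℝ) (t : ℝ) {l : ℕ} (hl : 0 < l) (μ : ℝ) (m : ℕ) :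
    Xi (act (μ + t / (2 * (l : ℝ) ^ 3)) (box (m * l))) (vF a t l) ≤ XMF t l μ a ^ (m ^ 3) := by
  classical
  have hl' : (0 : ℝ) < l := by exact_mod_cast hl
  set c := μ + t / (2 * (l : ℝ) ^ 3) with hc
  calc Xi (act c (box (m * l))) (vF a t l)
      ≤ Xi (fun y => ∑ j ∈ cells m, act c (sbox (tv l j) l) y) (vF a t l) :=
        Xi_mono_g _ (fun x => le_sum_act hl' c m x)
    _ ≤ ∏ j ∈ cells m, Xi (act c (sbox (tv l j) l)) (vF a t l) := by
        apply Xi_sum_le _ _ (fun j => measurable_act c (measurableSet_sbox _ _))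
          (measurable_vF a t l)
        intro i _ j _ hij x y hx hy
        have hx' : x ∈ sbox (tv l i) l := by
          by_contra h; exact hx (indicator_of_notMem h _)
        have hy' : y ∈ sbox (tv l j) l := by
          by_contra h; exact hy (indicator_of_notMem h _)
        unfold vF
        rw [lab_sbox hl hx', lab_sbox hl hy', if_neg]
        intro h
        apply hij
        funext c
        have := congrFun h c
        exact_mod_cast this
    _ = ∏ j ∈ cells m, Xi (act c (box l)) (vF a t l) :=
        Finset.prod_congr rfl fun j _ => Xi_sbox c l _ (vF_translate a t hl j)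
    _ = Xi (act c (box l)) (vF a t l) ^ (m ^ 3) := by rw [Finset.prod_const, card_cells]
    _ ≤ XMF t l μ a ^ (m ^ 3) := by
        gcongr
        unfold XMF Xi
        apply T_mono
        intro N x
        rw [W_act, W_act]
        by_cases hbox : ∀ i, x i ∈ box l
        · apply le_of_eq
          congr 4
          unfold pE
          congr 1
          apply Finset.sum_congr rfl; intro i _
          apply Finset.sum_congr rfl; intro j _
          split_ifs with hij
          · rfl
          · unfold vF
            have hi := hbox i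
            have hj := hbox j
            rw [box_eq_sbox] at hi hj
            rw [lab_sbox hl hi, lab_sbox hl hj, if_pos rfl]
        · push Not at hbox
          obtain ⟨i, hi⟩ := hbox
          rw [Finset.prod_eq_zero (Finset.mem_univ i) (indicator_of_notMem hi _), zero_mul, zero_mul]

/-! ### volume of the boundary layer -/

theorem measurableSet_bd (l r : ℝ) : MeasurableSet {x : E3 | bd l r x} := by
  have : {x : E3 | bd l r x} = ⋃ c : Fin 3, ⋃ j : ℤ, {x : E3 | |x c - j * l| < r} := by
    ext x
    simp [bd]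
  rw [this]
  refine MeasurableSet.iUnion fun c => MeasurableSet.iUnion fun j => ?_
  exact measurableSet_lt (by fun_prop) measurable_const

theorem vol_bd_le {l r : ℝ} (hl : 0 < l) (hr0 : 0 ≤ r) (hr : r ≤ l) {m : ℕ} (hm : 0 < m) :
    volume (box (m * l) ∩ {x | bd l r x}) ≤ ENNReal.ofReal (12 * r / l * (m * l) ^ 3) := by
  have hm' : (1 : ℝ) ≤ m := by exact_mod_cast hm
  have h1 : box (m * l) ∩ {x | bd l r x} ⊆ ⋃ c : Fin 3, ⋃ j ∈ Finset.range (m + 1),
      {x : E3 | ∀ c', x c' ∈ (if c' = c then Ioo ((j : ℝ) * l - r) ((j : ℝ) * l + r)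
        else Ico 0 (m * l))} := by
    rintro x ⟨hx, c, j, hj⟩
    have hxc := hx c
    rw [mem_Ico] at hxc
    rw [abs_lt] at hj
    have hj0 : -1 < (j : ℝ) := by
      have : -1 * l < j * l := by linarith
      exact lt_of_mul_lt_mul_right this hl.le
    have hj1 : (j : ℝ) < m + 1 := by
      have : (j : ℝ) * l < (m + 1) * l := by linarith
      exact lt_of_mul_lt_mul_right this hl.le
    have hj0' : (0 : ℤ) ≤ j := by
      have : (-1 : ℤ) < j := by exact_mod_cast hj0
      omega
    have hj1' : j < (m : ℤ) + 1 := by exact_mod_cast hj1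
    obtain ⟨n, rfl⟩ := Int.eq_ofNat_of_zero_le hj0'
    simp only [mem_iUnion]
    refine ⟨c, n, Finset.mem_range.mpr (by omega), ?_⟩
    intro c'
    by_cases hcc : c' = c
    · subst hcc
      rw [if_pos rfl, mem_Ioo]
      push_cast at hj
      constructor <;> linarith
    · rw [if_neg hcc]
      exact hx c'
  have h2 : ∀ (c : Fin 3) (j : ℕ), volume {x : E3 | ∀ c', x c' ∈
      (if c' = c then Ioo ((j : ℝ) * l - r) ((j : ℝ) * l + r) else Ico 0 (m * l))} =
      ENNReal.ofReal (2 * r * (m * l) ^ 2) := by
    intro c j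
    rw [vol_pi (fun c' => if c' = c then Ioo ((j : ℝ) * l - r) ((j : ℝ) * l + r)
      else Ico 0 (m * l))]
    rw [← Finset.mul_prod_erase _ _ (Finset.mem_univ c)]
    rw [if_pos rfl, Real.volume_Ioo]
    have h3 : ∀ c' ∈ Finset.univ.erase c, volume (if c' = c then
        Ioo ((j : ℝ) * l - r) ((j : ℝ) * l + r) else Ico 0 (m * l)) = ENNReal.ofReal (m * l) := by
      intro c' hc'
      rw [if_neg (Finset.ne_of_mem_erase hc'), Real.volume_Ico, sub_zero]
    rw [Finset.prod_congr rfl h3, Finset.prod_const, Finset.card_erase_of_mem (Finset.mem_univ c),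
      Finset.card_univ, Fintype.card_fin, ← ENNReal.ofReal_pow (by positivity),
      ← ENNReal.ofReal_mul (by linarith)]
    congr 1
    ring
  refine (measure_mono h1).trans ?_
  refine (measure_iUnion_le _).trans ?_
  rw [tsum_fintype]
  calc ∑ c : Fin 3, volume (⋃ j ∈ Finset.range (m + 1), {x : E3 | ∀ c', x c' ∈
        (if c' = c then Ioo ((j : ℝ) * l - r) ((j : ℝ) * l + r) else Ico 0 (m * l))})
      ≤ ∑ c : Fin 3, ∑ j ∈ Finset.range (m + 1), ENNReal.ofReal (2 * r * (m * l) ^ 2) := by
        apply Finset.sum_le_sum; intro c _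
        refine (measure_biUnion_finset_le _ _).trans ?_
        apply Finset.sum_le_sum; intro j _
        rw [h2]
    _ = ENNReal.ofReal (3 * ((m + 1) * (2 * r * (m * l) ^ 2))) := by
        rw [Finset.sum_const, Finset.sum_const, Finset.card_univ, Fintype.card_fin,
          Finset.card_range, nsmul_eq_mul, nsmul_eq_mul, ← ENNReal.ofReal_natCast 3,
          ← ENNReal.ofReal_natCast (m + 1), ← ENNReal.ofReal_mul (by positivity),
          ← ENNReal.ofReal_mul (by positivity)]
        push_cast
        rfl
    _ ≤ _ := by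
        apply ENNReal.ofReal_le_ofReal
        have : 12 * r / l * (m * l) ^ 3 = 12 * r * m * (m * l) ^ 2 := by field_simp
        rw [this]
        have h5 : 0 ≤ r * (m * l) ^ 2 := by positivity
        nlinarith

open Classical in
theorem Xi_G_le {a : ℕ → ℝ} (ha0 : ∀ n, 0 ≤ a n) (ha : Summable a) {θ : ℝ} (hθ : 0 < θ)
    {m : ℕ} (hm : ∑' n, tailc m a n ≤ θ) {l : ℕ} (hl : 0 < l) (hlR : R m ≤ l) {k0 k1 : ℕ}
    (hk0 : 2 ≤ k0) (hk1 : 2 ≤ k1)
    (h0 : 81 / 2 * (∑' n, a n + 1) ≤ (k0 : ℝ) ^ 3 / 1458)
    (h1 : 81 / 2 * (∑' n, a n + 1) + 27 / 2 * θ⁻¹ * ∑' n, a n ≤ (k1 : ℝ) ^ 3 / 1458)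
    (μ : ℝ) {M : ℕ} (hM : 0 < M) :
    Xi (act μ (box (M * l))) (vG a l θ) ≤ ENNReal.ofReal (Real.exp
      ((Real.exp (μ + (k0 : ℝ) ^ 6 / 54) + Real.exp (μ + (k1 : ℝ) ^ 6 / 54) * (12 * R m / l)) *
        (M * l) ^ 3)) := by
  have hl' : (0 : ℝ) < l := by exact_mod_cast hl
  set B0 : ℝ := (k0 : ℝ) ^ 6 / 54 with hB0
  set B1 : ℝ := (k1 : ℝ) ^ 6 / 54 with hB1
  let b : E3 → ℝ := fun x => if bd l (R m) x then B1 else B0
  have hb : Measurable b := Measurable.ite (measurableSet_bd _ _) measurable_const measurable_const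
  have hR := R_pos m
  have hint : ∫⁻ x, act μ (box (M * l)) x * ENNReal.ofReal (Real.exp (b x)) ≤
      ENNReal.ofReal ((Real.exp (μ + B0) + Real.exp (μ + B1) * (12 * R m / l)) *
        (M * l) ^ 3) := by
    calc ∫⁻ x, act μ (box (M * l)) x * ENNReal.ofReal (Real.exp (b x))
        ≤ ∫⁻ x, ((box (M * l)).indicator (fun _ => ENNReal.ofReal (Real.exp (μ + B0))) x +
          (box (M * l) ∩ {x | bd l (R m) x}).indicator
            (fun _ => ENNReal.ofReal (Real.exp (μ + B1))) x) := by
          apply lintegral_mono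
          intro x
          simp only
          unfold act
          by_cases hx : x ∈ box (M * l)
          · rw [indicator_of_mem hx, indicator_of_mem hx, ← ENNReal.ofReal_mul (Real.exp_pos _).le,
              ← Real.exp_add]
            by_cases hbx : bd l (R m) x
            · have hb' : b x = B1 := if_pos hbx
              have hmem : x ∈ box (M * l) ∩ {x | bd l (R m) x} := ⟨hx, hbx⟩
              rw [hb', indicator_of_mem hmem]
              exact le_add_self
            · have hb' : b x = B0 := if_neg hbx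
              rw [hb']
              exact le_self_add
          · rw [indicator_of_notMem hx, zero_mul]
            exact zero_le
      _ = ENNReal.ofReal (Real.exp (μ + B0)) * volume (box (M * l)) +
          ENNReal.ofReal (Real.exp (μ + B1)) * volume (box (M * l) ∩ {x | bd l (R m) x}) := by
          rw [lintegral_add_left (measurable_const.indicator (measurableSet_box _)),
            lintegral_indicator (measurableSet_box _),
            lintegral_indicator ((measurableSet_box _).inter (measurableSet_bd _ _)),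
            setLIntegral_const, setLIntegral_const]
      _ ≤ ENNReal.ofReal (Real.exp (μ + B0)) * ENNReal.ofReal ((M * l) ^ 3) +
          ENNReal.ofReal (Real.exp (μ + B1)) * ENNReal.ofReal (12 * R m / l * (M * l) ^ 3) := by
          gcongr
          · rw [vol_box, ENNReal.ofReal_pow (by positivity)]
          · exact vol_bd_le hl' hR.le hlR hM
      _ = _ := by
          rw [← ENNReal.ofReal_mul (Real.exp_pos _).le, ← ENNReal.ofReal_mul (Real.exp_pos _).le,
            ← ENNReal.ofReal_add (by positivity) (by positivity)]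
          congr 1
          ring
  have h := Xi_le_exp (measurable_act μ (measurableSet_box (M * l))) (v := vG a l θ) (b := b) hb
    (fun N => by
      filter_upwards [ae_injective N] with x hx
      exact vG_bound ha0 ha hθ hm hl hk0 hk1 h0 h1 hx)
    (ne_top_of_le_ne_top ENNReal.ofReal_ne_top hint)
  refine h.trans (ENNReal.ofReal_le_ofReal (Real.exp_le_exp.mpr ?_))
  exact ENNReal.toReal_le_of_le_ofReal (by positivity) hint

end Vale.Agent.P171
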