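import Vale.Agent.P171.LP

/-! Lebowitz–Penrose type upper bound: choice of parameters. -/

namespace Vale.Agent.P171

open MeasureTheory Set Filter Topology
open scoped ENNReal NNReal Nat

theorem tendsto_log_term {Y : ℝ} (hY : 0 < Y) :
    Tendsto (fun x : ℝ => Real.log (Y * x ^ 3 + 2) / x ^ 3) atTop (𝓝 0) := by
  have h1 := Real.tendsto_pow_log_div_mul_add_atTop (1 / Y) (-2 / Y) 1 (by positivity)
  have h2 : Tendsto (fun x : ℝ => Y * x ^ 3 + 2) atTop atTop :=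
    tendsto_atTop_add_const_right _ _ ((tendsto_pow_atTop (by norm_num)).const_mul_atTop hY)
  have h3 := h1.comp h2
  refine h3.congr fun x => ?_
  simp only [Function.comp, pow_one]
  congr 1
  field_simp
  ring

theorem tendsto_ratio : Tendsto (fun x : ℝ => (x + 3) ^ 3 / x ^ 3) atTop (𝓝 1) := by
  have h1 : Tendsto (fun x : ℝ => (1 + 3 / x) ^ 3) atTop (𝓝 ((1 + 0) ^ 3)) :=
    Tendsto.pow (tendsto_const_nhds.add (tendsto_const_nhds.div_atTop tendsto_id)) 3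
  rw [add_zero, one_pow] at h1
  refine h1.congr' ?_
  filter_upwards [eventually_gt_atTop 0] with x hx
  field_simp

theorem tendsto_cell (p ρ t Y θ E0 E1 r : ℝ) (hY : 0 < Y) :
    Tendsto (fun x : ℝ => (1 - θ) * ((Real.log (Y * x ^ 3 + 2) +
        ((x + 3) ^ 3 * p + t * ((x + 3) ^ 3 / x ^ 3 * ρ) ^ 2 / 2 * x ^ 3)) / x ^ 3) +
      θ * (E0 + E1 * (12 * r / x))) atTop
      (𝓝 ((1 - θ) * (p + t * ρ ^ 2 / 2) + θ * E0)) := by
  have h1 := tendsto_log_term hY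
  have h2 := tendsto_ratio
  have h3 : Tendsto (fun x : ℝ => 12 * r / x) atTop (𝓝 0) :=
    tendsto_const_nhds.div_atTop tendsto_id
  have h4 : Tendsto (fun x : ℝ => (1 - θ) * (Real.log (Y * x ^ 3 + 2) / x ^ 3 +
        ((x + 3) ^ 3 / x ^ 3 * p + t * ((x + 3) ^ 3 / x ^ 3 * ρ) ^ 2 / 2)) +
      θ * (E0 + E1 * (12 * r / x))) atTop
      (𝓝 ((1 - θ) * (0 + (1 * p + t * (1 * ρ) ^ 2 / 2)) + θ * (E0 + E1 * 0))) := by
    refine Tendsto.add (Tendsto.const_mul _ (h1.add ((h2.mul_const p).add ?_)))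
      (Tendsto.const_mul _ (tendsto_const_nhds.add (h3.const_mul E1)))
    exact (((h2.mul_const ρ).pow 2).const_mul t).div_const 2
  have e : (1 - θ) * (0 + (1 * p + t * (1 * ρ) ^ 2 / 2)) + θ * (E0 + E1 * 0) =
      (1 - θ) * (p + t * ρ ^ 2 / 2) + θ * E0 := by ring
  rw [e] at h4
  refine h4.congr' ?_
  filter_upwards [eventually_gt_atTop 0] with x hx
  congr 2
  field_simp

theorem LP_main {a : ℕ → ℝ} (ha0 : ∀ n, 0 ≤ a n) (ha : Summable a) {μ ρ δ₀ : ℝ}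
    (hp : 0 < P μ a) (hδpos : 0 < δ₀)
    (hloc : ∀ u, 0 ≤ u → u ≤ δ₀ → P (μ + u) a ≤ P μ a + ρ * u) {δ : ℝ} (hδ : 0 < δ) :
    ∃ s : ℝ, 0 < s ∧ ∃ n : ℕ, P μ (a + Pi.single n s) ≤ P μ a + (27 / 2 * ρ ^ 2 + δ) * s := by
  obtain ⟨B, _, hB⟩ := exists_superstable ha0 ha 54
  have hcube : ∀ c : ℝ, ∃ k : ℕ, 2 ≤ k ∧ c ≤ (k : ℝ) ^ 3 / 1458 := by
    intro c
    obtain ⟨k, hk⟩ := exists_nat_ge (max 2 (1458 * c))
    have hk2 : (2 : ℝ) ≤ k := (le_max_left _ _).trans hk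
    refine ⟨k, by exact_mod_cast hk2, ?_⟩
    have h1 : 1458 * c ≤ k := (le_max_right _ _).trans hk
    have h3 : (k : ℝ) ≤ k ^ 3 := by nlinarith [sq_nonneg ((k : ℝ) - 1)]
    linarith
  obtain ⟨k0, hk0, h0⟩ := hcube (81 / 2 * (∑' n, a n + 1))
  set p := P μ a with hpdef
  set C := max (μ + B - Real.log p) 1 with hC
  have hC1 : 1 ≤ C := le_max_right _ _
  set s := min (1 / 27) (δ₀ / (54 * C)) with hs
  have hs0 : 0 < s := lt_min (by norm_num) (by positivity)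
  have hs1 : s ≤ 1 / 27 := min_le_left _ _
  have hs2 : s ≤ δ₀ / (54 * C) := min_le_right _ _
  set E0 := Real.exp (μ + (k0 : ℝ) ^ 6 / 54) with hE0
  have hE0p : 0 < E0 := Real.exp_pos _
  set θ := min (1 / 2) (δ * s / (4 * E0)) with hθ
  have hθ0 : 0 < θ := lt_min (by norm_num) (by positivity)
  have hθ1 : θ ≤ 1 / 2 := min_le_left _ _
  have hθ2 : θ * E0 ≤ δ * s / 4 := by
    have : θ ≤ δ * s / (4 * E0) := min_le_right _ _
    calc θ * E0 ≤ δ * s / (4 * E0) * E0 := by gcongr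
      _ = δ * s / 4 := by field_simp
  have h1θ : 0 < 1 - θ := by linarith
  set t := 27 * s / (1 - θ) with ht
  have ht0 : 0 < t := by positivity
  have ht54 : t ≤ 54 * s := by
    rw [ht, div_le_iff₀ h1θ]
    nlinarith
  have ht2 : t ≤ 2 := by linarith
  have hY : μ + B - Real.log p ≤ δ₀ / t := by
    refine (le_max_left _ _ : _ ≤ C).trans ?_
    rw [le_div_iff₀ ht0]
    have : C * t ≤ C * (54 * (δ₀ / (54 * C))) := by gcongr; linarith
    calc C * t ≤ C * (54 * (δ₀ / (54 * C))) := this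
      _ = δ₀ := by field_simp
  have htail := (tendsto_order.1 (tendsto_tailc ha)).2 θ hθ0
  obtain ⟨m, hm⟩ := htail.exists
  obtain ⟨k1, hk1, h1⟩ := hcube (81 / 2 * (∑' n, a n + 1) + 27 / 2 * θ⁻¹ * ∑' n, a n)
  have hpow : Tendsto (fun k : ℕ => (2 : ℝ) ^ k) atTop atTop :=
    tendsto_pow_atTop_atTop_of_one_lt (by norm_num)
  have hlim := (tendsto_cell p ρ t (δ₀ / t) θ E0 (Real.exp (μ + (k1 : ℝ) ^ 6 / 54)) (R m)
    (by positivity)).comp hpow
  have hlt : (1 - θ) * (p + t * ρ ^ 2 / 2) + θ * E0 < p + (27 / 2 * ρ ^ 2 + δ) * s := by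
    have e1 : (1 - θ) * (p + t * ρ ^ 2 / 2) = (1 - θ) * p + 27 / 2 * ρ ^ 2 * s := by
      rw [ht]; field_simp
    have e2 : (1 - θ) * p ≤ p := by nlinarith
    have e3 : 0 < δ * s := by positivity
    rw [e1]
    linarith
  have hev := (tendsto_order.1 hlim).2 _ hlt
  obtain ⟨k, hk, hkR⟩ := (hev.and (hpow.eventually_ge_atTop (R m))).exists
  refine ⟨s, hs0, k, ?_⟩
  have := P_le_cell ha0 ha hp hδpos hloc hB (n := k) (k := k) (by omega) hs0 hθ0 (by linarith)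
    ht2 hY hm.le hkR hk0 hk1 h0 h1
  exact this.trans hk.le

end Vale.Agent.P171
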