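import Vale.Agent.P171.Pressure

/-! Lower bound for the pressure from configurations with one particle per cell. -/

namespace Vale.Agent.P171

open MeasureTheory Set Filter Topology
open scoped ENNReal NNReal Nat

theorem vol_sbox (t : E3) (L : ℝ) : volume (sbox t L) = ENNReal.ofReal L ^ 3 := by
  unfold sbox
  rw [vol_pi]
  simp

/-- one-step bound: the attraction of range `R n` for a configuration of `m ^ 3` points in the box
of side `2 m`, `m = 2 ^ (n + 2 + l)`. -/
theorem pE_psi_lower {N n l : ℕ} (hN : N = (2 ^ (n + 2 + l)) ^ 3) {x : Fin N → E3}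
    (hx : ∀ i, x i ∈ box (2 * ((2 ^ (n + 2 + l) : ℕ) : ℝ))) :
    (N : ℝ) / 2 ^ 13 ≤ pE (fun y z => psi n (dist y z)) x := by
  classical
  set b : ℝ := 2 ^ (n + 3) with hb
  have hb0 : 0 < b := by positivity
  set f : Fin N → (Fin 3 → ℤ) := fun i => lab (1 / b) (x i) with hf
  -- number of pairs with the same label
  have hpairs := pairs_le (Finset.univ : Finset (Fin N)) f (fun _ _ => True) (win (2 ^ l)) (by
    intro i _ j _ _
    apply lab_sub_mem_win
    intro c
    have h1 := hx i c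
    have h2 := hx j c
    rw [mem_Ico] at h1 h2
    rw [← mul_sub, abs_mul, abs_of_pos (by positivity)]
    have h3 : |x i c - x j c| < 2 * ((2 ^ (n + 2 + l) : ℕ) : ℝ) := by
      rw [abs_lt]; constructor <;> linarith
    calc 1 / b * |x i c - x j c| < 1 / b * (2 * ((2 ^ (n + 2 + l) : ℕ) : ℝ)) := by gcongr
      _ = ((2 ^ l : ℕ) : ℝ) := by
        rw [hb]
        push_cast
        rw [pow_add (2 : ℝ) (n + 2) l, pow_add (2 : ℝ) n 3, pow_add (2 : ℝ) n 2]
        field_simp)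
  have hcount : (∑ i ∈ (Finset.univ : Finset (Fin N)), ∑ j ∈ (Finset.univ : Finset (Fin N)),
      if (fun _ _ => True : Fin N → Fin N → Prop) i j then (1 : ℝ) else 0) = (N : ℝ) ^ 2 := by
    simp [sq]
  rw [hcount, card_win] at hpairs
  set D := Dp (Finset.univ : Finset (Fin N)) f with hD
  have hD0 : 0 ≤ D := Dp_nonneg _ _
  have hl1 : (1 : ℝ) ≤ 2 ^ l := one_le_pow₀ (by norm_num)
  have hpairs2 : (N : ℝ) ^ 2 ≤ 27 * (2 ^ l) ^ 3 * D := by
    refine hpairs.trans ?_
    gcongr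
    push_cast
    calc (2 * (2 : ℝ) ^ l + 1) ^ 3 ≤ (3 * 2 ^ l) ^ 3 := by gcongr; linarith
      _ = 27 * (2 ^ l) ^ 3 := by ring
  have hNr : (N : ℝ) = (2 ^ (n + 2)) ^ 3 * (2 ^ l) ^ 3 := by
    rw [hN]
    push_cast
    rw [pow_add]
    ring
  have hNpos : (0 : ℝ) < N := by rw [hNr]; positivity
  -- so `D ≥ N (2^(n+2))^3 / 27`
  have hD1 : (N : ℝ) * (2 ^ (n + 2)) ^ 3 ≤ 27 * D := by
    have h2l : (0 : ℝ) < (2 ^ l) ^ 3 := by positivity
    have h3 : ((N : ℝ) * (2 ^ (n + 2)) ^ 3) * (2 ^ l) ^ 3 ≤ (27 * D) * (2 ^ l) ^ 3 := by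
      calc ((N : ℝ) * (2 ^ (n + 2)) ^ 3) * (2 ^ l) ^ 3 = (N : ℝ) ^ 2 := by
            rw [sq]; nth_rewrite 3 [hNr]; ring
        _ ≤ 27 * (2 ^ l) ^ 3 * D := hpairs2
        _ = _ := by ring
    exact le_of_mul_le_mul_right h3 h2l
  -- energy
  have hE : (1 / 2) * (((R n)⁻¹) ^ 3 * (D - N)) ≤ pE (fun y z => psi n (dist y z)) x := by
    have h := half_label_le (Finset.univ : Finset (Fin N)) f (K := ((R n)⁻¹) ^ 3)
    rw [Finset.card_univ, Fintype.card_fin] at h
    rw [← h]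
    unfold pE
    gcongr with i _ j _
    split_ifs with hij h1
    · exact le_rfl
    · rw [mul_one]
      have h2 := dist_sq_lt (fun c => lab_eq_abs_lt (k := 1 / b) (by positivity) h1 c)
      have h3 : dist (x i) (x j) < R n := by
        have hR : R n = 2 * b := by
          rw [hb]; unfold R; rw [show n + 4 = (n + 3) + 1 by rfl, pow_succ]; ring
        rw [one_div_one_div] at h2
        have hd := dist_nonneg (x := x i) (y := x j)
        by_contra hcon
        push Not at hcon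
        rw [hR] at hcon
        nlinarith
      simp only [psi, if_pos h3]
      exact le_rfl
    · rw [mul_zero]; exact psi_nonneg _ _
  refine le_trans ?_ hE
  have hR : (R n)⁻¹ ^ 3 = 1 / ((2 ^ n) ^ 3 * 2 ^ 12) := by
    unfold R
    rw [pow_add]
    field_simp
  have hn1 : (1 : ℝ) ≤ (2 ^ n) ^ 3 := one_le_pow₀ (one_le_pow₀ (by norm_num))
  rw [hR]
  have h4 : (2 : ℝ) ^ (n + 2) = 2 ^ n * 4 := by rw [pow_add]; norm_num
  rw [h4] at hD1
  have h5 : (N : ℝ) * (2 ^ n) ^ 3 * 64 ≤ 27 * D := by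
    calc (N : ℝ) * (2 ^ n) ^ 3 * 64 = (N : ℝ) * (2 ^ n * 4) ^ 3 := by ring
      _ ≤ 27 * D := hD1
  have h6 : (N : ℝ) * (2 ^ n) ^ 3 ≤ D - N := by
    have h7 : (N : ℝ) ≤ N * (2 ^ n) ^ 3 := le_mul_of_one_le_right hNpos.le hn1
    linarith
  have hp : (0 : ℝ) < (2 ^ n) ^ 3 := by positivity
  calc (N : ℝ) / 2 ^ 13 = (1 / 2) * (1 / ((2 ^ n) ^ 3 * 2 ^ 12) * ((N : ℝ) * (2 ^ n) ^ 3)) := by
        field_simp
    _ ≤ _ := by gcongr

theorem pE_finsum {E : Type*} {ι : Type*} [Fintype ι] [DecidableEq ι] (s : Finset ℕ) (c : ℕ → ℝ)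
    (w : ℕ → E → E → ℝ) (x : ι → E) :
    pE (fun y z => ∑ n ∈ s, c n * w n y z) x = ∑ n ∈ s, c n * pE (w n) x := by
  classical
  induction s using Finset.induction_on with
  | empty => simp [pE]
  | insert n s hn ih =>
    simp_rw [Finset.sum_insert hn]
    rw [← ih, ← pE_smul, ← pE_add]

/-- the energy of a configuration with one particle per cell -/
theorem energy_lower {a : ℕ → ℝ} (ha0 : ∀ n, 0 ≤ a n) (ha : Summable a) {N K l : ℕ}
    (hN : N = (2 ^ (K + 2 + l)) ^ 3) {e : Fin N → (Fin 3 → ℕ)} (he : Function.Injective e)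
    {x : Fin N → E3} (hxb : ∀ i, x i ∈ box (2 * ((2 ^ (K + 2 + l) : ℕ) : ℝ)))
    (hx : ∀ i, x i ∈ sbox (tv 2 (e i)) 1) :
    (∑ n ∈ Finset.range (K + 1), a n) / 2 ^ 13 * N ≤ -(pE (vv a) x) := by
  rw [pE_vv]
  have hcore : pE (fun y z => core (dist y z)) x = 0 := by
    unfold pE
    have : ∑ i, ∑ j, (if i = j then 0 else core (dist (x i) (x j))) = 0 := by
      apply Finset.sum_eq_zero; intro i _
      apply Finset.sum_eq_zero; intro j _
      split_ifs with hij
      · rfl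
      · have hne : e i ≠ e j := fun h => hij (he h)
        obtain ⟨c, hc⟩ := Function.ne_iff.mp hne
        have h2 := hx i c
        have h3 := hx j c
        rw [tv_apply, mem_Ico] at h2 h3
        have hd : 1 ≤ dist (x i) (x j) := by
          refine le_trans ?_ (abs_coord_le_dist (x i) (x j) c)
          rcases Nat.lt_or_gt_of_ne hc with h | h
          · have h4 : (e i c : ℝ) + 1 ≤ e j c := by exact_mod_cast h
            rw [abs_sub_comm]
            exact le_trans (by linarith) (le_abs_self _)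
          · have h4 : (e j c : ℝ) + 1 ≤ e i c := by exact_mod_cast h
            exact le_trans (by linarith) (le_abs_self _)
        unfold core
        rw [if_neg (not_lt.mpr hd)]
    rw [this, mul_zero]
  have hPsi : ∑ n ∈ Finset.range (K + 1), a n * pE (fun y z => psi n (dist y z)) x ≤
      pE (fun y z => Psi a (dist y z)) x := by
    rw [← pE_finsum]
    apply pE_mono
    intro i j _
    exact (summable_mul_psi ha0 ha _).sum_le_tsum _
      (fun n _ => mul_nonneg (ha0 n) (psi_nonneg n _))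
  have hsum : (∑ n ∈ Finset.range (K + 1), a n) / 2 ^ 13 * N ≤
      ∑ n ∈ Finset.range (K + 1), a n * pE (fun y z => psi n (dist y z)) x := by
    rw [div_mul_eq_mul_div, mul_div_assoc, Finset.sum_mul]
    apply Finset.sum_le_sum
    intro n hn
    have hn' : n ≤ K := Nat.lt_succ_iff.mp (Finset.mem_range.mp hn)
    have hexp : K + 2 + l = n + 2 + (l + (K - n)) := by omega
    rw [hexp] at hN hxb
    exact mul_le_mul_of_nonneg_left (pE_psi_lower hN hxb) (ha0 n)
  rw [hcore]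
  linarith

theorem sbox_subset_box {m : ℕ} {c : Fin 3 → ℕ} (hc : c ∈ cells m) :
    sbox (tv 2 c) 1 ⊆ box (2 * (m : ℝ)) := by
  intro x hx k
  have h1 := hx k
  rw [tv_apply, mem_Ico] at h1
  unfold cells at hc
  rw [Fintype.mem_piFinset] at hc
  have h2 : c k + 1 ≤ m := Finset.mem_range.mp (hc k)
  have h3 : (c k : ℝ) + 1 ≤ m := by exact_mod_cast h2
  have h4 : (0 : ℝ) ≤ c k := Nat.cast_nonneg _
  rw [mem_Ico]
  constructor <;> linarith

theorem W_lower {a : ℕ → ℝ} (ha0 : ∀ n, 0 ≤ a n) (ha : Summable a) (μ : ℝ) {N K l : ℕ}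
    (hN : N = (2 ^ (K + 2 + l)) ^ 3) {e : Fin N → (Fin 3 → ℕ)} (he : Function.Injective e)
    (hem : ∀ i, e i ∈ cells (2 ^ (K + 2 + l)))
    {x : Fin N → E3} (hx : ∀ i, x i ∈ sbox (tv 2 (e i)) 1) :
    ENNReal.ofReal (Real.exp ((μ + (∑ n ∈ Finset.range (K + 1), a n) / 2 ^ 13) * N)) ≤
      W (act μ (box (2 * ((2 ^ (K + 2 + l) : ℕ) : ℝ)))) (vv a) x := by
  have hxb : ∀ i, x i ∈ box (2 * ((2 ^ (K + 2 + l) : ℕ) : ℝ)) := fun i =>
    sbox_subset_box (hem i) (hx i)
  unfold W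
  have h1 : ∀ i, act μ (box (2 * ((2 ^ (K + 2 + l) : ℕ) : ℝ))) (x i) =
      ENNReal.ofReal (Real.exp μ) := fun i => by
    unfold act
    rw [indicator_of_mem (hxb i)]
  simp_rw [h1]
  rw [Finset.prod_const, Finset.card_univ, Fintype.card_fin,
    ← ENNReal.ofReal_pow (Real.exp_pos _).le, ← Real.exp_nat_mul,
    ← ENNReal.ofReal_mul (Real.exp_pos _).le, ← Real.exp_add]
  gcongr
  have := energy_lower ha0 ha hN he hxb hx
  linarith

theorem XL_lower {a : ℕ → ℝ} (ha0 : ∀ n, 0 ≤ a n) (ha : Summable a) (μ : ℝ) {N K l : ℕ}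
    (hN : N = (2 ^ (K + 2 + l)) ^ 3) :
    ENNReal.ofReal (Real.exp ((μ + (∑ n ∈ Finset.range (K + 1), a n) / 2 ^ 13) * N)) ≤
      XL (2 * ((2 ^ (K + 2 + l) : ℕ) : ℝ)) μ a := by
  classical
  set m : ℕ := 2 ^ (K + 2 + l) with hm
  set C := ENNReal.ofReal (Real.exp ((μ + (∑ n ∈ Finset.range (K + 1), a n) / 2 ^ 13) * N)) with hC
  have hcard : (cells m).card = N := by rw [card_cells, hN]
  -- product sets
  let S : (Fin N ≃ {c // c ∈ cells m}) → Set (Fin N → E3) :=
    fun e => Set.pi univ fun i => sbox (tv 2 (e i : Fin 3 → ℕ)) 1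
  have hSmeas : ∀ e, MeasurableSet (S e) := fun e =>
    MeasurableSet.univ_pi fun i => measurableSet_sbox _ _
  have hSvol : ∀ e, volume (S e) = 1 := by
    intro e
    simp only [S]
    rw [volume_pi_pi]
    simp [vol_sbox]
  have hSdisj : Pairwise (Function.onFun Disjoint S) := by
    intro e e' hne
    rw [Function.onFun, Set.disjoint_left]
    intro x hx hx'
    apply hne
    ext1 i
    apply Subtype.ext
    exact sbox_disjoint (d := 2) (L := 1) (by norm_num) (hx i (mem_univ i)) (hx' i (mem_univ i))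
  have hint : ∀ e, C ≤ ∫⁻ x in S e, W (act μ (box (2 * (m : ℝ)))) (vv a) x := by
    intro e
    calc C = ∫⁻ _ in S e, C := by rw [setLIntegral_const, hSvol, mul_one]
      _ ≤ _ := by
        apply setLIntegral_mono' (hSmeas e)
        intro x hx
        exact W_lower ha0 ha μ hN (e := fun i => (e i : Fin 3 → ℕ))
          (Subtype.val_injective.comp e.injective) (fun i => (e i).2)
          (fun i => hx i (mem_univ i))
  have hcardE : Fintype.card (Fin N ≃ {c // c ∈ cells m}) = N ! := by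
    rw [Fintype.card_equiv (Fintype.equivOfCardEq (by simp [hcard])), Fintype.card_fin]
  have hJ : ((N ! : ℕ) : ℝ≥0∞) * C ≤ ∫⁻ x : Fin N → E3, W (act μ (box (2 * (m : ℝ)))) (vv a) x := by
    calc ((N ! : ℕ) : ℝ≥0∞) * C = ∑ _e : (Fin N ≃ {c // c ∈ cells m}), C := by
          rw [Finset.sum_const, Finset.card_univ, hcardE, nsmul_eq_mul]
      _ ≤ ∑ e : (Fin N ≃ {c // c ∈ cells m}), ∫⁻ x in S e, W (act μ (box (2 * (m : ℝ)))) (vv a) x :=
          Finset.sum_le_sum fun e _ => hint e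
      _ = ∫⁻ x in ⋃ e, S e, W (act μ (box (2 * (m : ℝ)))) (vv a) x := by
          rw [lintegral_iUnion hSmeas hSdisj, tsum_fintype]
      _ ≤ _ := setLIntegral_le_lintegral _ _
  unfold XL Xi T
  refine le_trans ?_ (ENNReal.le_tsum N)
  have hN0 : ((N ! : ℕ) : ℝ≥0∞) ≠ 0 := by exact_mod_cast Nat.factorial_ne_zero N
  calc C = ((N ! : ℕ) : ℝ≥0∞)⁻¹ * (((N ! : ℕ) : ℝ≥0∞) * C) := by
        rw [← mul_assoc, ENNReal.inv_mul_cancel hN0 (ENNReal.natCast_ne_top _), one_mul]
    _ ≤ _ := by gcongr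

theorem P_lower {a : ℕ → ℝ} (ha0 : ∀ n, 0 ≤ a n) (ha : Summable a) (μ : ℝ) :
    μ / 8 + (∑' n, a n) / 2 ^ 16 ≤ P μ a := by
  -- first for the truncated sums
  have h1 : ∀ K : ℕ, μ / 8 + (∑ n ∈ Finset.range (K + 1), a n) / 2 ^ 16 ≤ P μ a := by
    intro K
    have hlim : Tendsto (fun l : ℕ => 2 * ((2 ^ (K + 2 + l) : ℕ) : ℝ)) atTop atTop := by
      apply Tendsto.const_mul_atTop (by norm_num)
      have h2 : Tendsto (fun l : ℕ => 2 ^ (K + 2 + l)) atTop atTop :=
        (tendsto_pow_atTop_atTop_of_one_lt (by norm_num : 1 < 2)).comp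
          (tendsto_atTop_mono (fun l => Nat.le_add_left l (K + 2)) tendsto_id)
      exact tendsto_natCast_atTop_atTop.comp h2
    have h3 := (tendsto_pL ha0 ha μ).comp hlim
    refine ge_of_tendsto' h3 fun l => ?_
    simp only [Function.comp]
    have h4 := le_pL_of_le_XL ha0 ha (XL_lower ha0 ha μ (K := K) (l := l) rfl)
    rw [le_div_iff₀ (by positivity)]
    refine le_trans (le_of_eq ?_) h4
    push_cast
    ring
  have h2 : Tendsto (fun K : ℕ => μ / 8 + (∑ n ∈ Finset.range (K + 1), a n) / 2 ^ 16) atTop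
      (𝓝 (μ / 8 + (∑' n, a n) / 2 ^ 16)) := by
    have h3 := ha.hasSum.tendsto_sum_nat.comp (tendsto_add_atTop_nat 1)
    exact (h3.div_const _).const_add _
  exact le_of_tendsto' h2 h1

end Vale.Agent.P171
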