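import Vale.Agent.P171.LPa

/-! Mean-field bound in one cell. -/

namespace Vale.Agent.P171

open MeasureTheory Set Filter Topology
open scoped ENNReal NNReal Nat

theorem W_act {ι : Type*} [Fintype ι] [DecidableEq ι] (c : ℝ) (A : Set E3) (v : E3 → E3 → ℝ)
    (x : ι → E3) : W (act c A) v x = (∏ i, A.indicator (fun _ => (1 : ℝ≥0∞)) (x i)) *
      ENNReal.ofReal (Real.exp (c * Fintype.card ι - pE v x)) := by
  unfold W
  have h1 : ∀ y, act c A y = A.indicator (fun _ => (1 : ℝ≥0∞)) y * ENNReal.ofReal (Real.exp c) := by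
    intro y
    unfold act
    by_cases hy : y ∈ A
    · rw [indicator_of_mem hy, indicator_of_mem hy, one_mul]
    · rw [indicator_of_notMem hy, indicator_of_notMem hy, zero_mul]
  simp_rw [h1]
  rw [Finset.prod_mul_distrib, Finset.prod_const, Finset.card_univ, mul_assoc,
    ← ENNReal.ofReal_pow (Real.exp_pos _).le, ← Real.exp_nat_mul,
    ← ENNReal.ofReal_mul (Real.exp_pos _).le, ← Real.exp_add]
  congr 3
  ring_nf

theorem pE_const {ι : Type*} [Fintype ι] [DecidableEq ι] {E : Type*} (c : ℝ) (x : ι → E) :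
    pE (fun _ _ => c) x = c / 2 * ((Fintype.card ι : ℝ) ^ 2 - Fintype.card ι) := by
  unfold pE
  have h1 : ∀ i : ι, ∑ j, (if i = j then (0 : ℝ) else c) = c * Fintype.card ι - c := by
    intro i
    have h2 : ∀ j ∈ (Finset.univ : Finset ι), (if i = j then (0 : ℝ) else c) =
        c - if i = j then c else 0 := by
      intro j _
      split_ifs <;> ring
    rw [Finset.sum_congr rfl h2, Finset.sum_sub_distrib]
    simp
    ring
  simp_rw [h1]
  simp
  ring

/-- number of points squared is controlled by pair counting in unit cubes -/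
theorem sq_card_le {ι : Type*} [Fintype ι] [DecidableEq ι] {l : ℕ} (hl : 0 < l) {x : ι → E3}
    (hx : ∀ i, x i ∈ box l) :
    (Fintype.card ι : ℝ) ^ 2 ≤ 27 * (l : ℝ) ^ 3 * Dp Finset.univ (fun i => lab 1 (x i)) := by
  classical
  have h1 := pairs_le (Finset.univ : Finset ι) (fun i => lab 1 (x i)) (fun _ _ => True) (win l) (by
    intro i _ j _ _
    apply lab_sub_mem_win
    intro c
    have h2 := hx i c
    have h3 := hx j c
    rw [mem_Ico] at h2 h3
    rw [one_mul, one_mul, abs_lt]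
    constructor <;> linarith)
  rw [card_win] at h1
  simp only [if_true, Finset.sum_const, Finset.card_univ, nsmul_eq_mul, mul_one] at h1
  have hl' : (1 : ℝ) ≤ l := by exact_mod_cast hl
  have hD := Dp_nonneg Finset.univ (fun i => lab 1 (x i))
  calc (Fintype.card ι : ℝ) ^ 2 = Fintype.card ι * Fintype.card ι := by ring
    _ ≤ (2 * l + 1) ^ 3 * Dp Finset.univ (fun i => lab 1 (x i)) := h1
    _ ≤ (3 * l) ^ 3 * Dp Finset.univ (fun i => lab 1 (x i)) := by gcongr; linarith
    _ = _ := by ring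

/-- mean-field partition function of one cell -/
noncomputable def XMF (t : ℝ) (l : ℕ) (μ : ℝ) (a : ℕ → ℝ) : ℝ≥0∞ :=
  Xi (act (μ + t / (2 * (l : ℝ) ^ 3)) (box l)) (fun x y => vv a x y - t / (l : ℝ) ^ 3)

theorem XMF_le {a : ℕ → ℝ} (ha0 : ∀ n, 0 ≤ a n) (ha : Summable a) {μ ρ δ₀ : ℝ}
    (hp : 0 < P μ a) (hδpos : 0 < δ₀) (hloc : ∀ u, 0 ≤ u → u ≤ δ₀ → P (μ + u) a ≤ P μ a + ρ * u)
    {B : ℝ} (hB : ∀ (N : ℕ) (x : Fin N → E3), Function.Injective x →
      54 * Dp Finset.univ (fun i => lab 1 (x i)) - B * N ≤ pE (vv a) x)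
    {t : ℝ} (ht : 0 < t) (ht2 : t ≤ 2) (hY : μ + B - Real.log (P μ a) ≤ δ₀ / t) {l : ℕ}
    (hl : 0 < l) :
    XMF t l μ a ≤ ENNReal.ofReal ((δ₀ / t * (l : ℝ) ^ 3 + 2) *
      Real.exp (((l : ℝ) + 3) ^ 3 * P μ a +
        t * ((((l : ℝ) + 3) ^ 3 / (l : ℝ) ^ 3) * ρ) ^ 2 / 2 * (l : ℝ) ^ 3)) := by
  set V : ℝ := (l : ℝ) ^ 3 with hV
  set Q : ℝ := ((l : ℝ) + 3) ^ 3 with hQ
  set p := P μ a with hpdef
  have hl' : (0 : ℝ) < l := by exact_mod_cast hl
  have hV0 : 0 < V := by positivity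
  have hQV : V ≤ Q := by rw [hV, hQ]; gcongr; linarith
  set c1 : ℝ := Real.exp (Q * p + t * ((Q / V) * ρ) ^ 2 / 2 * V) with hc1
  set Y := δ₀ / t with hYdef
  have hδ₀ : δ₀ = Y * t := by rw [hYdef]; field_simp
  set n0 := ⌊Y * V⌋₊ + 1 with hn0
  set K := -Real.log p with hK
  have hexpK : Real.exp (-K) = p := by rw [hK, neg_neg, Real.exp_log hp]
  have hYneg : 0 ≤ Y * V := by positivity
  -- energy identity
  have hE : ∀ (N : ℕ) (x : Fin N → E3), pE (fun x y => vv a x y - t / V) x =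
      pE (vv a) x - t / V / 2 * ((N : ℝ) ^ 2 - N) := by
    intro N x
    rw [pE_sub, pE_const, Fintype.card_fin]
  -- small N
  have hsmall : ∀ N : ℕ, N < n0 → ((N ! : ℕ) : ℝ≥0∞)⁻¹ * ∫⁻ x : Fin N → E3,
      W (act (μ + t / (2 * V)) (box l)) (fun x y => vv a x y - t / V) x ≤ ENNReal.ofReal c1 := by
    intro N hN
    have hNY : (N : ℝ) ≤ Y * V := by
      have : N ≤ ⌊Y * V⌋₊ := by omega
      exact (Nat.cast_le.mpr this).trans (Nat.floor_le hYneg)
    set u : ℝ := t * N / V with hu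
    have hu0 : 0 ≤ u := by positivity
    have hu1 : u ≤ δ₀ := by
      rw [hu, hδ₀, div_le_iff₀ hV0]
      nlinarith
    set Δ : ℝ := t * (N : ℝ) ^ 2 / (2 * V) - u * N with hΔ
    have hW : ∀ x : Fin N → E3, W (act (μ + t / (2 * V)) (box l)) (fun x y => vv a x y - t / V) x =
        ENNReal.ofReal (Real.exp Δ) * W (act (μ + u) (box l)) (vv a) x := by
      intro x
      rw [W_act, W_act, hE, Fintype.card_fin, mul_left_comm,
        ← ENNReal.ofReal_mul (Real.exp_pos _).le, ← Real.exp_add]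
      congr 3
      rw [hΔ]
      field_simp
      ring
    simp_rw [hW]
    rw [lintegral_const_mul' _ _ ENNReal.ofReal_ne_top, mul_left_comm]
    have h2 : ((N ! : ℕ) : ℝ≥0∞)⁻¹ * ∫⁻ x : Fin N → E3, W (act (μ + u) (box l)) (vv a) x ≤
        XL l (μ + u) a := ENNReal.le_tsum (f := fun N : ℕ => ((N ! : ℕ) : ℝ≥0∞)⁻¹ *
          ∫⁻ x : Fin N → E3, W (act (μ + u) (box l)) (vv a) x) N
    have h3 : pL l (μ + u) a ≤ Q * (p + ρ * u) :=
      (pL_le_P ha0 ha (μ + u) hl'.le).trans (by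
        have := hloc u hu0 hu1
        gcongr)
    calc ENNReal.ofReal (Real.exp Δ) * (((N ! : ℕ) : ℝ≥0∞)⁻¹ *
          ∫⁻ x : Fin N → E3, W (act (μ + u) (box l)) (vv a) x)
        ≤ ENNReal.ofReal (Real.exp Δ) * XL l (μ + u) a := by gcongr
      _ = ENNReal.ofReal (Real.exp (Δ + pL l (μ + u) a)) := by
          rw [XL_eq_exp ha0 ha, ← ENNReal.ofReal_mul (Real.exp_pos _).le, ← Real.exp_add]
      _ ≤ ENNReal.ofReal c1 := by
          rw [hc1]
          apply ENNReal.ofReal_le_ofReal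
          apply Real.exp_le_exp.mpr
          have h4 : Δ = - (V * t * (N / V) ^ 2 / 2) := by
            rw [hΔ, hu]; field_simp; ring
          have h5 : Q * (p + ρ * u) = Q * p + V * t * ((Q / V * ρ) * (N / V)) := by
            rw [hu]; field_simp
          have h6 : 0 ≤ V * t * (Q / V * ρ - N / V) ^ 2 := by positivity
          nlinarith
  -- large N
  have hlarge : ∀ N : ℕ, n0 ≤ N → ((N ! : ℕ) : ℝ≥0∞)⁻¹ * ∫⁻ x : Fin N → E3,
      W (act (μ + t / (2 * V)) (box l)) (fun x y => vv a x y - t / V) x ≤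
      ((N ! : ℕ) : ℝ≥0∞)⁻¹ * ∫⁻ x : Fin N → E3, ∏ i, act (-K) (box l) (x i) := by
    intro N hN
    have hNY : Y * V ≤ N := by
      have h1 : Y * V < (⌊Y * V⌋₊ : ℝ) + 1 := Nat.lt_floor_add_one _
      have h2 : ((⌊Y * V⌋₊ + 1 : ℕ) : ℝ) ≤ N := by exact_mod_cast hN
      push_cast at h2
      linarith
    refine mul_le_mul_right (lintegral_mono_ae ?_) _
    filter_upwards [ae_injective N] with x hx
    have h0 : W (act (-K) (box l)) (fun _ _ => 0) x = ∏ i, act (-K) (box l) (x i) := by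
      unfold W pE
      simp
    rw [← h0, W_act, W_act, hE, Fintype.card_fin]
    by_cases hbox : ∀ i, x i ∈ box l
    · refine mul_le_mul_right (ENNReal.ofReal_le_ofReal (Real.exp_le_exp.mpr ?_)) _
      have hs := sq_card_le hl hbox
      rw [Fintype.card_fin] at hs
      have hBx := hB N x hx
      rw [pE_const]
      have hN0 : (0 : ℝ) ≤ N := by positivity
      have h7 : (N : ℝ) ^ 2 / V ≤ 27 * Dp Finset.univ (fun i => lab 1 (x i)) := by
        rw [div_le_iff₀ hV0]
        calc (N : ℝ) ^ 2 ≤ _ := hs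
          _ = _ := by ring
      have h8 : Y * N ≤ (N : ℝ) ^ 2 / V := by
        rw [le_div_iff₀ hV0]
        nlinarith
      have h9 : (μ + t / (2 * V)) * N - (pE (vv a) x - t / V / 2 * ((N : ℝ) ^ 2 - N)) =
          μ * N - pE (vv a) x + t / 2 * ((N : ℝ) ^ 2 / V) := by
        field_simp
        ring
      rw [h9]
      have h10 : 0 ≤ (N : ℝ) ^ 2 / V := by positivity
      have h11 : t / 2 * ((N : ℝ) ^ 2 / V) ≤ 1 * ((N : ℝ) ^ 2 / V) := by gcongr; linarith
      have h12 : (μ + B + K) * N ≤ Y * N := by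
        gcongr
        rw [hK]; linarith
      nlinarith
    · push Not at hbox
      obtain ⟨i, hi⟩ := hbox
      rw [Finset.prod_eq_zero (Finset.mem_univ i) (indicator_of_notMem hi _), zero_mul, zero_mul]
  have hI : ∫⁻ x, act (-K) (box l) x = ENNReal.ofReal (p * V) := by
    have := lintegral_act (-K) 0 l
    rw [Real.exp_zero, ENNReal.ofReal_one, add_zero, hexpK] at this
    simp only [mul_one] at this
    rw [this, ENNReal.ofReal_mul hp.le, hV, ENNReal.ofReal_pow hl'.le]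
  have hT : T (fun N (x : Fin N → E3) => ∏ i, act (-K) (box l) (x i)) =
      ENNReal.ofReal (Real.exp (p * V)) := by
    rw [T_onebody _ (measurable_act _ (measurableSet_box _)) (by rw [hI]; exact ENNReal.ofReal_ne_top),
      hI, ENNReal.toReal_ofReal (by positivity)]
  have hmain : XMF t l μ a ≤ (n0 : ℝ≥0∞) * ENNReal.ofReal c1 + ENNReal.ofReal (Real.exp (p * V)) := by
    rw [← hT]
    unfold XMF Xi T
    rw [← hV]
    have hsum : ((n0 : ℝ≥0∞) * ENNReal.ofReal c1) =
        ∑' N : ℕ, if N < n0 then ENNReal.ofReal c1 else 0 := by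
      rw [tsum_eq_sum (s := Finset.range n0)]
      · rw [Finset.sum_congr rfl (g := fun _ => ENNReal.ofReal c1)]
        · simp
        · intro N hN
          rw [if_pos (Finset.mem_range.mp hN)]
      · intro N hN
        rw [if_neg (fun h => hN (Finset.mem_range.mpr h))]
    rw [hsum, ← ENNReal.tsum_add]
    apply ENNReal.tsum_le_tsum
    intro N
    by_cases hN : N < n0
    · rw [if_pos hN]
      exact (hsmall N hN).trans le_self_add
    · rw [if_neg hN, zero_add]
      exact hlarge N (not_lt.mp hN)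
  refine hmain.trans ?_
  have hc1pos : 0 < c1 := Real.exp_pos _
  have h1 : (n0 : ℝ≥0∞) = ENNReal.ofReal n0 := (ENNReal.ofReal_natCast n0).symm
  rw [h1, ← ENNReal.ofReal_mul (by positivity), ← ENNReal.ofReal_add (by positivity) (by positivity)]
  apply ENNReal.ofReal_le_ofReal
  have h2 : (n0 : ℝ) ≤ Y * V + 1 := by
    rw [hn0]; push_cast
    have := Nat.floor_le hYneg
    linarith
  have h3 : Real.exp (p * V) ≤ c1 := by
    rw [hc1]
    apply Real.exp_le_exp.mpr
    have : p * V ≤ Q * p := by nlinarith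
    have h4 : 0 ≤ t * ((Q / V) * ρ) ^ 2 / 2 * V := by positivity
    linarith
  calc (n0 : ℝ) * c1 + Real.exp (p * V) ≤ (Y * V + 1) * c1 + c1 := by gcongr
    _ = (Y * V + 2) * c1 := by ring

end Vale.Agent.P171
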