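import Vale.Agent.P171.Pos
import Vale.Agent.P171.Lattice
import Vale.Agent.P171.EkelandP
import Vale.Agent.P171.LPmain

/-! The pressure is not differentiable for a suitable potential. -/

namespace Vale.Agent.P171

open MeasureTheory Set Filter Topology
open scoped ENNReal NNReal Nat

theorem exists_not_differentiable :
    ∃ a : ℕ → ℝ, (∀ n, 0 ≤ a n) ∧ Summable a ∧
      ∃ μ : ℝ, ¬ DifferentiableAt ℝ (fun ν : ℝ => P ν a) μ := by
  set κ : ℝ := 1 / 2 ^ 16 with hκ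
  have hκ0 : 0 < κ := by rw [hκ]; norm_num
  have hκ1 : κ ≤ 1 / 60000 := by rw [hκ]; norm_num
  have hlow : ∀ (μ : ℝ) (a : ℕ → ℝ), (∀ n, 0 ≤ a n) → Summable a →
      (κ / 8) * μ + (κ * κ) * ∑' n, a n ≤ P μ a := by
    intro μ a ha0 ha
    have h1 := P_lower ha0 ha μ
    have h2 := P_nonneg ha0 ha μ
    have h3 : (κ / 8) * μ + (κ * κ) * ∑' n, a n = κ * (μ / 8 + (∑' n, a n) / 2 ^ 16) := by
      rw [hκ]; ring
    rw [h3]
    rcases le_or_gt 0 (μ / 8 + (∑' n, a n) / 2 ^ 16) with h | h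
    · calc κ * (μ / 8 + (∑' n, a n) / 2 ^ 16) ≤ 1 * (μ / 8 + (∑' n, a n) / 2 ^ 16) := by
            exact mul_le_mul_of_nonneg_right (hκ1.trans (by norm_num)) h
        _ ≤ P μ a := by rw [one_mul]; exact h1
    · exact le_trans (mul_nonpos_of_nonneg_of_nonpos hκ0.le h.le) h2
  have hε : 0 < κ * κ / 100 := by positivity
  obtain ⟨μ, a, ha0, ha, hμ, hs⟩ := ekeland_P hε hlow
  refine ⟨a, ha0, ha, μ, ?_⟩
  intro hdiff
  set d := deriv (fun ν : ℝ => P ν a) μ with hd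
  have hder : HasDerivAt (fun ν : ℝ => P ν a) d μ := hdiff.hasDerivAt
  -- the derivative is at most c₁ + ε
  have hd1 : d ≤ κ / 8 + κ * κ / 100 := by
    by_contra hcon
    push Not at hcon
    -- slope from the left
    have h1 : ∀ᶠ ν in 𝓝[<] μ, κ / 8 + κ * κ / 100 < slope (fun ν : ℝ => P ν a) μ ν :=
      (hasDerivAt_iff_tendsto_slope_left_right.mp hder).1.eventually_const_lt hcon
    obtain ⟨ν, hν1, hν2⟩ := (h1.and self_mem_nhdsWithin).exists
    have hν : ν < μ := hν2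
    rw [slope_def_field] at hν1
    have h2 := hμ ν
    have h3 : P ν a - P μ a < (κ / 8 + κ * κ / 100) * (ν - μ) := by
      rwa [lt_div_iff_of_neg (by linarith)] at hν1
    rw [abs_of_neg (by linarith)] at h2
    nlinarith
  have hρ : d < κ / 8 + κ * κ / 50 := by
    have : 0 < κ * κ := by positivity
    linarith
  set ρ := κ / 8 + κ * κ / 50 with hρdef
  obtain ⟨δ₀, hδ₀, hloc⟩ : ∃ δ₀ : ℝ, 0 < δ₀ ∧ ∀ u, 0 ≤ u → u ≤ δ₀ →
      P (μ + u) a ≤ P μ a + ρ * u := by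
    have h1 : ∀ᶠ ν in 𝓝[>] μ, slope (fun ν : ℝ => P ν a) μ ν < ρ :=
      (hasDerivAt_iff_tendsto_slope_left_right.mp hder).2.eventually_lt_const hρ
    rw [eventually_nhdsWithin_iff, Metric.eventually_nhds_iff] at h1
    obtain ⟨r, hr, h2⟩ := h1
    refine ⟨r / 2, by positivity, fun u hu0 hu1 => ?_⟩
    rcases hu0.eq_or_lt with rfl | hu
    · simp
    · have h3 := @h2 (μ + u) (by
        rw [Real.dist_eq, add_sub_cancel_left, abs_of_pos hu]; linarith) (by
        show μ < μ + u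
        linarith)
      rw [slope_def_field, add_sub_cancel_left, div_lt_iff₀ hu] at h3
      linarith
  obtain ⟨s, hs0, n, hn⟩ := LP_main ha0 ha (P_pos ha0 ha μ) hδ₀ hloc (δ := κ * κ / 10) (by positivity)
  have h1 := hs n s hs0.le
  have h2 : (κ * κ - κ * κ / 100) * s ≤ (27 / 2 * ρ ^ 2 + κ * κ / 10) * s := by linarith
  have h3 := le_of_mul_le_mul_right h2 hs0
  have h4 : ρ ≤ κ / 8 + κ / 800 := by
    rw [hρdef]
    nlinarith
  have hρ0 : 0 ≤ ρ := by positivity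
  have h5 : ρ ^ 2 ≤ (κ / 8 + κ / 800) ^ 2 := by gcongr
  nlinarith [sq_nonneg κ, mul_pos hκ0 hκ0]

end Vale.Agent.P171
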