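import Vale.Agent.P171.Pressure

/-! Strict positivity of the pressure. -/

namespace Vale.Agent.P171

open MeasureTheory Set Filter Topology
open scoped ENNReal NNReal Nat

theorem XL_one_ge (μ : ℝ) (a : ℕ → ℝ) :
    ENNReal.ofReal (1 + Real.exp μ) ≤ XL 1 μ a := by
  unfold XL Xi T
  have h := ENNReal.sum_le_tsum (f := fun N : ℕ => ((N ! : ℕ) : ℝ≥0∞)⁻¹ *
    ∫⁻ x : Fin N → E3, W (act μ (box 1)) (vv a) x) (Finset.range 2)
  refine le_trans (le_of_eq ?_) h
  rw [Finset.sum_range_succ, Finset.sum_range_one]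
  have h1 : ∫⁻ x : Fin 1 → E3, W (act μ (box 1)) (vv a) x = ENNReal.ofReal (Real.exp μ) := by
    have h2 : ∀ x : Fin 1 → E3, W (act μ (box 1)) (vv a) x = ∏ i, act μ (box 1) (x i) := by
      intro x
      unfold W pE
      simp
    simp_rw [h2]
    rw [lintegral_fin_prod 1 _ (measurable_act μ (measurableSet_box 1)), pow_one]
    unfold act
    rw [lintegral_indicator (measurableSet_box 1), setLIntegral_const, vol_box]
    simp
  have h3 : ∫⁻ x : Fin 0 → E3, W (act μ (box 1)) (vv a) x = 1 := by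
    unfold W pE
    simp [volume_pi]
  rw [h1, h3, ENNReal.ofReal_add zero_le_one (Real.exp_pos _).le]
  simp

theorem P_pos {a : ℕ → ℝ} (ha0 : ∀ n, 0 ≤ a n) (ha : Summable a) (μ : ℝ) : 0 < P μ a := by
  have h1 : Real.log (1 + Real.exp μ) ≤ pL 1 μ a := by
    apply le_pL_of_le_XL ha0 ha
    rw [Real.exp_log (by positivity)]
    exact XL_one_ge μ a
  have h2 : 0 < Real.log (1 + Real.exp μ) := Real.log_pos (by linarith [Real.exp_pos μ])
  have h3 := le_P ha0 ha μ 0
  simp only [Nat.cast_zero, zero_add] at h3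
  have h4 : 0 < pL 1 μ a / 2 ^ 3 := div_pos (by linarith) (by norm_num)
  linarith

end Vale.Agent.P171
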