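import Vale.Agent.P171.Energy

/-! Grand partition functions in boxes and the thermodynamic limit. -/

namespace Vale.Agent.P171

open MeasureTheory Set Filter Topology
open scoped ENNReal NNReal Nat

theorem one_le_Xi (g : E3 → ℝ≥0∞) (v : E3 → E3 → ℝ) : 1 ≤ Xi g v := by
  unfold Xi T
  refine le_trans ?_ (ENNReal.le_tsum 0)
  unfold W pE
  simp [volume_pi]

theorem Xi_le_exp {g : E3 → ℝ≥0∞} (hg : Measurable g) {v : E3 → E3 → ℝ} {b : E3 → ℝ}
    (hb : Measurable b) (h : ∀ N, ∀ᵐ x : Fin N → E3, -(pE v x) ≤ ∑ i, b (x i))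
    (hfin : ∫⁻ x, g x * ENNReal.ofReal (Real.exp (b x)) ≠ ⊤) :
    Xi g v ≤ ENNReal.ofReal
      (Real.exp (∫⁻ x, g x * ENNReal.ofReal (Real.exp (b x))).toReal) := by
  rw [← T_onebody (fun x => g x * ENNReal.ofReal (Real.exp (b x))) (by fun_prop) hfin]
  apply T_mono_ae
  intro N
  filter_upwards [h N] with x hx
  unfold W
  rw [Finset.prod_mul_distrib, ← ENNReal.ofReal_prod_of_nonneg (fun i _ => (Real.exp_pos _).le),
    ← Real.exp_sum]
  gcongr

/-- constant activity `exp μ` on a set -/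
noncomputable def act (μ : ℝ) (A : Set E3) : E3 → ℝ≥0∞ :=
  A.indicator fun _ => ENNReal.ofReal (Real.exp μ)

theorem measurable_act (μ : ℝ) {A : Set E3} (hA : MeasurableSet A) : Measurable (act μ A) :=
  measurable_const.indicator hA

theorem act_mono_set (μ : ℝ) {A B : Set E3} (h : A ⊆ B) (x : E3) : act μ A x ≤ act μ B x :=
  Set.indicator_le_indicator_of_subset h (fun _ => zero_le) x

/-- grand partition function in the box of side `L` -/
noncomputable def XL (L μ : ℝ) (a : ℕ → ℝ) : ℝ≥0∞ := Xi (act μ (box L)) (vv a)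

/-- its logarithm -/
noncomputable def pL (L μ : ℝ) (a : ℕ → ℝ) : ℝ := Real.log (XL L μ a).toReal

theorem lintegral_act (μ c L : ℝ) :
    ∫⁻ x, act μ (box L) x * ENNReal.ofReal (Real.exp c) =
      ENNReal.ofReal (Real.exp (μ + c)) * ENNReal.ofReal L ^ 3 := by
  have : ∀ x, act μ (box L) x * ENNReal.ofReal (Real.exp c) =
      (box L).indicator (fun _ => ENNReal.ofReal (Real.exp (μ + c))) x := by
    intro x
    unfold act
    by_cases hx : x ∈ box L
    · rw [indicator_of_mem hx, indicator_of_mem hx, Real.exp_add,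
        ENNReal.ofReal_mul (Real.exp_pos _).le]
    · rw [indicator_of_notMem hx, indicator_of_notMem hx, zero_mul]
  simp_rw [this]
  rw [lintegral_indicator (measurableSet_box L), setLIntegral_const, vol_box]

theorem XL_le {a : ℕ → ℝ} {B : ℝ} (hB : ∀ (N : ℕ) (x : Fin N → E3), Function.Injective x →
      -(B * N) ≤ pE (vv a) x) {L : ℝ} (hL : 0 ≤ L) (μ : ℝ) :
    XL L μ a ≤ ENNReal.ofReal (Real.exp (Real.exp (μ + B) * L ^ 3)) := by
  have hI : ∫⁻ x, act μ (box L) x * ENNReal.ofReal (Real.exp B) =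
      ENNReal.ofReal (Real.exp (μ + B) * L ^ 3) := by
    rw [lintegral_act, ENNReal.ofReal_mul (Real.exp_pos _).le, ENNReal.ofReal_pow hL]
  have h := Xi_le_exp (measurable_act μ (measurableSet_box L)) (v := vv a) (b := fun _ => B)
    measurable_const (fun N => by
      filter_upwards [ae_injective N] with x hx
      have := hB N x hx
      simp only [Finset.sum_const, Finset.card_univ, Fintype.card_fin, nsmul_eq_mul]
      linarith) (by rw [hI]; exact ENNReal.ofReal_ne_top)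
  rw [hI, ENNReal.toReal_ofReal (by positivity)] at h
  exact h

theorem XL_ne_top {a : ℕ → ℝ} (ha0 : ∀ n, 0 ≤ a n) (ha : Summable a) (L μ : ℝ) :
    XL L μ a ≠ ⊤ := by
  obtain ⟨B, _, hB⟩ := exists_stable ha0 ha
  have h1 : XL L μ a ≤ XL (max L 0) μ a :=
    Xi_mono_g _ (act_mono_set μ (box_mono (le_max_left _ _)))
  exact ne_top_of_le_ne_top ENNReal.ofReal_ne_top (h1.trans (XL_le hB (le_max_right _ _) μ))

theorem one_le_XL (L μ : ℝ) (a : ℕ → ℝ) : 1 ≤ XL L μ a := one_le_Xi _ _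

theorem one_le_XL_toReal {a : ℕ → ℝ} (ha0 : ∀ n, 0 ≤ a n) (ha : Summable a) (L μ : ℝ) :
    1 ≤ (XL L μ a).toReal := by
  rw [← ENNReal.toReal_one]
  exact ENNReal.toReal_mono (XL_ne_top ha0 ha L μ) (one_le_XL L μ a)

theorem pL_nonneg {a : ℕ → ℝ} (ha0 : ∀ n, 0 ≤ a n) (ha : Summable a) (L μ : ℝ) :
    0 ≤ pL L μ a := Real.log_nonneg (one_le_XL_toReal ha0 ha L μ)

theorem XL_eq_exp {a : ℕ → ℝ} (ha0 : ∀ n, 0 ≤ a n) (ha : Summable a) (L μ : ℝ) :
    XL L μ a = ENNReal.ofReal (Real.exp (pL L μ a)) := by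
  unfold pL
  rw [Real.exp_log (by linarith [one_le_XL_toReal ha0 ha L μ]),
    ENNReal.ofReal_toReal (XL_ne_top ha0 ha L μ)]

theorem pL_le_of_XL_le {a : ℕ → ℝ} (ha0 : ∀ n, 0 ≤ a n) (ha : Summable a) {L μ c : ℝ}
    (h : XL L μ a ≤ ENNReal.ofReal (Real.exp c)) : pL L μ a ≤ c := by
  rw [XL_eq_exp ha0 ha, ENNReal.ofReal_le_ofReal_iff (Real.exp_pos _).le, Real.exp_le_exp] at h
  exact h

theorem le_pL_of_le_XL {a : ℕ → ℝ} (ha0 : ∀ n, 0 ≤ a n) (ha : Summable a) {L μ c : ℝ}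
    (h : ENNReal.ofReal (Real.exp c) ≤ XL L μ a) : c ≤ pL L μ a := by
  rw [XL_eq_exp ha0 ha, ENNReal.ofReal_le_ofReal_iff (Real.exp_pos _).le, Real.exp_le_exp] at h
  exact h

theorem pL_mono_L {a : ℕ → ℝ} (ha0 : ∀ n, 0 ≤ a n) (ha : Summable a) {L L' : ℝ} (h : L ≤ L')
    (μ : ℝ) : pL L μ a ≤ pL L' μ a := by
  apply le_pL_of_le_XL ha0 ha
  rw [← XL_eq_exp ha0 ha]
  exact Xi_mono_g _ (act_mono_set μ (box_mono h))

/-! ### tilings -/

/-- shift vector of the cell with index `j` and spacing `d` -/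
noncomputable def tv (d : ℝ) (j : Fin 3 → ℕ) : E3 := WithLp.toLp 2 fun c => d * (j c : ℝ)

theorem tv_apply (d : ℝ) (j : Fin 3 → ℕ) (c : Fin 3) : tv d j c = d * (j c : ℝ) := rfl

/-- shifted box -/
def sbox (t : E3) (L : ℝ) : Set E3 := {x | ∀ c, x c ∈ Ico (t c) (t c + L)}

theorem measurableSet_sbox (t : E3) (L : ℝ) : MeasurableSet (sbox t L) :=
  measurableSet_pi' fun _ => measurableSet_Ico

theorem act_sbox (μ : ℝ) (t : E3) (L : ℝ) (x : E3) :
    act μ (sbox t L) (x + t) = act μ (box L) x := by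
  unfold act
  have : x + t ∈ sbox t L ↔ x ∈ box L := by
    unfold sbox box
    simp only [mem_ofPred_eq, PiLp.add_apply, mem_Ico]
    constructor
    · intro h c
      have := h c
      constructor <;> linarith
    · intro h c
      have := h c
      constructor <;> linarith
  by_cases hx : x ∈ box L
  · rw [indicator_of_mem hx, indicator_of_mem (this.mpr hx)]
  · rw [indicator_of_notMem hx, indicator_of_notMem (fun h => hx (this.mp h))]

/-- cell index set -/
def cells (m : ℕ) : Finset (Fin 3 → ℕ) := Fintype.piFinset fun _ => Finset.range m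

theorem card_cells (m : ℕ) : (cells m).card = m ^ 3 := by
  unfold cells
  rw [Fintype.card_piFinset]
  simp

theorem sbox_disjoint {d L : ℝ} (hL : L ≤ d) {i j : Fin 3 → ℕ} {x : E3}
    (hi : x ∈ sbox (tv d i) L) (hj : x ∈ sbox (tv d j) L) : i = j := by
  funext c
  have h1 := hi c
  have h2 := hj c
  rw [tv_apply, mem_Ico] at h1 h2
  have hd : 0 < d := by linarith [h1.1, h1.2]
  have key : ∀ (u w : ℕ), d * (u : ℝ) < d * (w : ℝ) + d → u ≤ w := by
    intro u w h
    have h3 : d * (u : ℝ) < d * ((w : ℝ) + 1) := by linarith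
    have h4 : (u : ℝ) < (w : ℝ) + 1 := lt_of_mul_lt_mul_left h3 hd.le
    have h5 : u < w + 1 := by exact_mod_cast h4
    omega
  exact le_antisymm (key _ _ (by linarith)) (key _ _ (by linarith))

theorem sum_act_le {d L : ℝ} (hd : 0 ≤ d) (hL : L ≤ d) (μ : ℝ) (m : ℕ) (x : E3) :
    ∑ j ∈ cells m, act μ (sbox (tv d j) L) x ≤ act μ (box (m * d)) x := by
  by_cases h : ∃ j ∈ cells m, x ∈ sbox (tv d j) L
  · obtain ⟨j, hj, hxj⟩ := h
    have hx : x ∈ box (m * d) := by
      intro c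
      have h1 := hxj c
      rw [tv_apply, mem_Ico] at h1
      unfold cells at hj
      rw [Fintype.mem_piFinset] at hj
      have h2 : j c + 1 ≤ m := Finset.mem_range.mp (hj c)
      have h3 : (j c : ℝ) + 1 ≤ m := by exact_mod_cast h2
      rw [mem_Ico]
      constructor
      · exact le_trans (by positivity) h1.1
      · have : ((j c : ℝ) + 1) * d ≤ m * d := mul_le_mul_of_nonneg_right h3 hd
        linarith
    rw [Finset.sum_eq_single j]
    · unfold act
      rw [indicator_of_mem hxj, indicator_of_mem hx]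
    · intro i _ hij
      unfold act
      rw [indicator_of_notMem]
      intro hxi
      exact hij (sbox_disjoint hL hxi hxj)
    · intro hj'; exact absurd hj hj'
  · push Not at h
    rw [Finset.sum_eq_zero]
    · exact zero_le
    · intro j hj
      unfold act
      rw [indicator_of_notMem (h j hj)]

theorem le_sum_act {d : ℝ} (hd : 0 < d) (μ : ℝ) (m : ℕ) (x : E3) :
    act μ (box (m * d)) x ≤ ∑ j ∈ cells m, act μ (sbox (tv d j) d) x := by
  by_cases hx : x ∈ box (m * d)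
  · let j : Fin 3 → ℕ := fun c => ⌊x c / d⌋₊
    have hj : j ∈ cells m := by
      unfold cells
      rw [Fintype.mem_piFinset]
      intro c
      rw [Finset.mem_range]
      have h1 := hx c
      rw [mem_Ico] at h1
      have h2 : x c / d < m := by rw [div_lt_iff₀ hd]; exact h1.2
      exact (Nat.floor_lt (div_nonneg h1.1 hd.le)).mpr h2
    have hxj : x ∈ sbox (tv d j) d := by
      intro c
      have h1 := hx c
      rw [mem_Ico] at h1
      rw [tv_apply, mem_Ico]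
      have h2 := Nat.floor_le (div_nonneg h1.1 hd.le)
      have h3 := Nat.lt_floor_add_one (x c / d)
      rw [le_div_iff₀ hd] at h2
      rw [div_lt_iff₀ hd] at h3
      simp only [j]
      constructor <;> linarith
    refine le_trans ?_ (Finset.single_le_sum (f := fun j => act μ (sbox (tv d j) d) x)
      (fun _ _ => zero_le) hj)
    unfold act
    rw [indicator_of_mem hxj, indicator_of_mem hx]
  · unfold act
    rw [indicator_of_notMem hx]
    exact zero_le

theorem Xi_sbox (μ L : ℝ) (t : E3) {v : E3 → E3 → ℝ}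
    (hv : ∀ x y, v (x + t) (y + t) = v x y) :
    Xi (act μ (sbox t L)) v = Xi (act μ (box L)) v :=
  Xi_translate t (fun x => act_sbox μ t L x) hv

theorem vv_translate (a : ℕ → ℝ) (t x y : E3) : vv a (x + t) (y + t) = vv a x y := by
  unfold vv
  rw [dist_add_right]

/-- supermultiplicativity with corridors -/
theorem XL_corridor {a : ℕ → ℝ} (ha0 : ∀ n, 0 ≤ a n) {L : ℝ} (hL : 0 ≤ L) (μ : ℝ) (m : ℕ) :
    XL L μ a ^ (m ^ 3) ≤ XL (m * (L + 1)) μ a := by
  classical
  have h1 := Xi_sum_ge (cells m) (fun j => act μ (sbox (tv (L + 1) j) L))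
    (fun j => measurable_act μ (measurableSet_sbox _ _)) (measurable_vv a) (by
      intro i _ j _ hij x y hx hy
      have hx' : x ∈ sbox (tv (L + 1) i) L := by
        by_contra h; exact hx (indicator_of_notMem h _)
      have hy' : y ∈ sbox (tv (L + 1) j) L := by
        by_contra h; exact hy (indicator_of_notMem h _)
      obtain ⟨c, hc⟩ := Function.ne_iff.mp hij
      have h2 := hx' c
      have h3 := hy' c
      rw [tv_apply, mem_Ico] at h2 h3
      apply phi_nonpos ha0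
      refine le_trans ?_ (abs_coord_le_dist x y c)
      rcases Nat.lt_or_gt_of_ne hc with h | h
      · have h4 : (i c : ℝ) + 1 ≤ j c := by exact_mod_cast h
        have h5 : (L + 1) * ((i c : ℝ) + 1) ≤ (L + 1) * j c := by gcongr
        rw [abs_sub_comm]
        exact le_trans (by linarith) (le_abs_self _)
      · have h4 : (j c : ℝ) + 1 ≤ i c := by exact_mod_cast h
        have h5 : (L + 1) * ((j c : ℝ) + 1) ≤ (L + 1) * i c := by gcongr
        exact le_trans (by linarith) (le_abs_self _))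
  have h2 : ∏ j ∈ cells m, Xi (act μ (sbox (tv (L + 1) j) L)) (vv a) = XL L μ a ^ (m ^ 3) := by
    rw [← card_cells, ← Finset.prod_const]
    apply Finset.prod_congr rfl
    intro j _
    exact Xi_sbox μ L _ (vv_translate a _)
  rw [← h2]
  refine h1.trans ?_
  exact Xi_mono_g _ fun x => sum_act_le (by linarith) (by linarith) μ m x

theorem pL_corridor {a : ℕ → ℝ} (ha0 : ∀ n, 0 ≤ a n) (ha : Summable a) {L : ℝ} (hL : 0 ≤ L)
    (μ : ℝ) (m : ℕ) : (m : ℝ) ^ 3 * pL L μ a ≤ pL (m * (L + 1)) μ a := by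
  apply le_pL_of_le_XL ha0 ha
  refine le_trans (le_of_eq ?_) (XL_corridor ha0 hL μ m)
  rw [XL_eq_exp ha0 ha L μ, ← ENNReal.ofReal_pow (Real.exp_pos _).le, ← Real.exp_nat_mul]
  push_cast
  rfl

/-- the pressure -/
noncomputable def P (μ : ℝ) (a : ℕ → ℝ) : ℝ := ⨆ l : ℕ, pL (l + 1) μ a / ((l : ℝ) + 2) ^ 3

theorem P_bdd {a : ℕ → ℝ} (ha0 : ∀ n, 0 ≤ a n) (ha : Summable a) (μ : ℝ) :
    BddAbove (Set.range fun l : ℕ => pL (l + 1) μ a / ((l : ℝ) + 2) ^ 3) := by
  obtain ⟨B, _, hB⟩ := exists_stable ha0 ha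
  refine ⟨Real.exp (μ + B), ?_⟩
  rintro _ ⟨l, rfl⟩
  have h1 := pL_le_of_XL_le ha0 ha (XL_le hB (L := (l : ℝ) + 1) (by positivity) μ)
  simp only
  rw [div_le_iff₀ (by positivity)]
  calc pL (l + 1) μ a ≤ Real.exp (μ + B) * ((l : ℝ) + 1) ^ 3 := h1
    _ ≤ Real.exp (μ + B) * ((l : ℝ) + 2) ^ 3 := by gcongr; linarith

theorem le_P {a : ℕ → ℝ} (ha0 : ∀ n, 0 ≤ a n) (ha : Summable a) (μ : ℝ) (l : ℕ) :
    pL (l + 1) μ a / ((l : ℝ) + 2) ^ 3 ≤ P μ a :=
  le_ciSup (P_bdd ha0 ha μ) l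

theorem P_nonneg {a : ℕ → ℝ} (ha0 : ∀ n, 0 ≤ a n) (ha : Summable a) (μ : ℝ) : 0 ≤ P μ a :=
  le_trans (div_nonneg (pL_nonneg ha0 ha _ _) (by positivity)) (le_P ha0 ha μ 0)

theorem pL_le_P {a : ℕ → ℝ} (ha0 : ∀ n, 0 ≤ a n) (ha : Summable a) (μ : ℝ) {L : ℝ} (hL : 0 ≤ L) :
    pL L μ a ≤ (L + 3) ^ 3 * P μ a := by
  set l := ⌈L⌉₊ with hl
  have h1 : L ≤ (l : ℝ) + 1 := (Nat.le_ceil L).trans (by linarith)
  have h2 : (l : ℝ) < L + 1 := Nat.ceil_lt_add_one hL
  have h3 := le_P ha0 ha μ l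
  rw [div_le_iff₀ (by positivity)] at h3
  calc pL L μ a ≤ pL (l + 1) μ a := pL_mono_L ha0 ha h1 μ
    _ ≤ P μ a * ((l : ℝ) + 2) ^ 3 := h3
    _ ≤ P μ a * (L + 3) ^ 3 := by
        exact mul_le_mul_of_nonneg_left
          (pow_le_pow_left₀ (by positivity) (by linarith) 3) (P_nonneg ha0 ha μ)
    _ = _ := mul_comm _ _

/-- thermodynamic limit -/
theorem tendsto_pL {a : ℕ → ℝ} (ha0 : ∀ n, 0 ≤ a n) (ha : Summable a) (μ : ℝ) :
    Tendsto (fun L : ℝ => pL L μ a / L ^ 3) atTop (𝓝 (P μ a)) := by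
  rw [tendsto_order]
  constructor
  · intro c hc
    obtain ⟨l, hl⟩ := exists_lt_of_lt_ciSup hc
    have h1 : Tendsto (fun L : ℝ => ((⌊1 / ((l : ℝ) + 2) * L⌋₊ : ℝ) / L) ^ 3 * pL (l + 1) μ a) atTop
        (𝓝 ((1 / ((l : ℝ) + 2)) ^ 3 * pL (l + 1) μ a)) :=
      ((tendsto_nat_floor_mul_div_atTop (by positivity)).pow 3).mul_const _
    have h2 : c < (1 / ((l : ℝ) + 2)) ^ 3 * pL (l + 1) μ a := by
      calc c < pL (l + 1) μ a / ((l : ℝ) + 2) ^ 3 := hl
        _ = _ := by field_simp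
    filter_upwards [(tendsto_order.1 h1).1 c h2, eventually_gt_atTop 0] with L hL hL0
    refine hL.trans_le ?_
    rw [div_pow, div_mul_eq_mul_div]
    gcongr
    have h3 := pL_corridor ha0 ha (L := (l : ℝ) + 1) (by positivity) μ
      ⌊1 / ((l : ℝ) + 2) * L⌋₊
    refine h3.trans (pL_mono_L ha0 ha ?_ μ)
    have h4 : (⌊1 / ((l : ℝ) + 2) * L⌋₊ : ℝ) ≤ 1 / ((l : ℝ) + 2) * L :=
      Nat.floor_le (by positivity)
    calc (⌊1 / ((l : ℝ) + 2) * L⌋₊ : ℝ) * ((l : ℝ) + 1 + 1)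
        ≤ (1 / ((l : ℝ) + 2) * L) * ((l : ℝ) + 1 + 1) := by gcongr
      _ = L := by field_simp; ring
  · intro c hc
    have h1 : Tendsto (fun L : ℝ => (1 + 3 / L) ^ 3 * P μ a) atTop (𝓝 ((1 + 0) ^ 3 * P μ a)) := by
      refine Tendsto.mul_const _ (Tendsto.pow ?_ 3)
      exact tendsto_const_nhds.add (tendsto_const_nhds.div_atTop tendsto_id)
    rw [add_zero, one_pow, one_mul] at h1
    filter_upwards [(tendsto_order.1 h1).2 c hc, eventually_gt_atTop 0] with L hL hL0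
    refine lt_of_le_of_lt ?_ hL
    rw [div_le_iff₀ (by positivity)]
    calc pL L μ a ≤ (L + 3) ^ 3 * P μ a := pL_le_P ha0 ha μ hL0.le
      _ = _ := by field_simp

end Vale.Agent.P171
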