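import Vale.Agent.P171.Geom

/-! Volumes of boxes, almost sure distinctness, translation invariance. -/

namespace Vale.Agent.P171

open MeasureTheory Set Filter Topology
open scoped ENNReal NNReal Nat

theorem vol_pi (S : Fin 3 → Set ℝ) :
    volume {x : E3 | ∀ c, x c ∈ S c} = ∏ c, volume (S c) := by
  have h1 : {x : E3 | ∀ c, x c ∈ S c} =
      (MeasurableEquiv.toLp 2 (Fin 3 → ℝ)).symm ⁻¹' (Set.pi univ S) := by
    ext x
    simp
  rw [h1, (EuclideanSpace.volume_preserving_symm_measurableEquiv_toLp (Fin 3)).measure_preimage_equiv,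
    volume_pi_pi]

/-- half-open box `[0,L)^3` -/
def box (L : ℝ) : Set E3 := {x | ∀ c, x c ∈ Ico 0 L}

theorem vol_box {L : ℝ} : volume (box L) = ENNReal.ofReal L ^ 3 := by
  unfold box
  rw [vol_pi]
  simp

theorem measurable_coord (c : Fin 3) : Measurable fun x : E3 => x c := by fun_prop

theorem measurableSet_pi' {S : Fin 3 → Set ℝ} (hS : ∀ c, MeasurableSet (S c)) :
    MeasurableSet {x : E3 | ∀ c, x c ∈ S c} := by
  have : {x : E3 | ∀ c, x c ∈ S c} = ⋂ c, (fun x : E3 => x c) ⁻¹' (S c) := by
    ext x; simp
  rw [this]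
  exact MeasurableSet.iInter fun c => measurable_coord c (hS c)

theorem measurableSet_box (L : ℝ) : MeasurableSet (box L) :=
  measurableSet_pi' fun _ => measurableSet_Ico

theorem box_mono {L L' : ℝ} (h : L ≤ L') : box L ⊆ box L' := fun _ hx c =>
  ⟨(hx c).1, (hx c).2.trans_le h⟩

theorem measurable_lab (r : ℝ) : Measurable (lab r) := by
  unfold lab
  exact measurable_pi_lambda _ fun c => Int.measurable_floor.comp (by fun_prop)

/-- almost every configuration consists of distinct points -/
theorem ae_injective (N : ℕ) : ∀ᵐ x : Fin N → E3, Function.Injective x := by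
  have h1 : ∀ i j : Fin N, i ≠ j → ∀ᵐ x : Fin N → E3, x i ≠ x j := by
    intro i j hij
    let V : Submodule ℝ (Fin N → E3) :=
      LinearMap.ker ((LinearMap.proj i : (Fin N → E3) →ₗ[ℝ] E3) - LinearMap.proj j)
    have hV : V ≠ ⊤ := by
      intro h
      have h2 : (Pi.single i (EuclideanSpace.single 0 1) : Fin N → E3) ∈ V := by
        rw [h]; trivial
      simp only [V, LinearMap.mem_ker, LinearMap.sub_apply, LinearMap.proj_apply,
        Pi.single_eq_same, Pi.single_eq_of_ne hij.symm, sub_zero] at h2
      have h3 := congrArg (fun y : E3 => y 0) h2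
      simp at h3
    have h4 : volume (V : Set (Fin N → E3)) = 0 :=
      Measure.addHaar_submodule volume V hV
    rw [ae_iff]
    convert h4 using 2
    ext x
    simp [V, sub_eq_zero]
  have h2 : ∀ᵐ x : Fin N → E3, ∀ i j : Fin N, i ≠ j → x i ≠ x j := by
    rw [ae_all_iff]; intro i
    rw [ae_all_iff]; intro j
    by_cases hij : i = j
    · exact Eventually.of_forall fun x h => absurd hij h
    · filter_upwards [h1 i j hij] with x hx _ using hx
  filter_upwards [h2] with x hx i j hij
  by_contra hne
  exact hx i j hne hij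

/-- translation invariance of the grand partition function -/
theorem Xi_translate (t : E3) {g g' : E3 → ℝ≥0∞} {v : E3 → E3 → ℝ}
    (hg : ∀ x, g (x + t) = g' x) (hv : ∀ x y, v (x + t) (y + t) = v x y) :
    Xi g v = Xi g' v := by
  unfold Xi T
  congr 1
  ext N
  congr 1
  have h := (measurePreserving_add_right (volume : Measure (Fin N → E3)) (fun _ => t))
  rw [← h.lintegral_comp_emb (MeasurableEquiv.addRight _).measurableEmbedding]
  congr 1
  ext x
  unfold W pE
  simp only [Pi.add_apply, hg, hv]

end Vale.Agent.P171
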